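import Vale.Agent.P002.H252.PC3c

/-!
# Base case, curve type: all subgroups of bounded index
-/

namespace Vale.Agent.P002.H252

open Matrix NumberField Vale.Agent.P002R.Orb

variable {ι : Type} {I : Type} [MulAction (FreeGroup ι) I]

/-- Finiteness of the context. -/
structure FinCtx (C : H2.Ctx (FreeGroup ι) I) (R : Set (FreeGroup ι)) {s : ℕ}
    (w : Fin s → FreeGroup ι) : Prop where
  fin : R.Finite
  Z : C.Z = Subgroup.normalClosure R
  Rel : ∀ y, y ∈ C.Rel ↔ ∃ x j, ∃ a : ℤ, y = x * w j ^ a * x⁻¹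

/-- The `N i` are the kernels of maps to orbifold groups of curves. -/
structure OrbCtx (C : H2.Ctx (FreeGroup ι) I) (g n : I → ℕ) (m : ∀ i, Fin (n i) → ℕ)
    (φ : ∀ i, MulAction.stabilizer (FreeGroup ι) i →* Orb (g i) (n i) (m i)) : Prop where
  ker : ∀ i (x : MulAction.stabilizer (FreeGroup ι) i), x.1 ∈ C.N i ↔ φ i x = 1
  fi : ∀ i, (φ i).range.index ≠ 0
  mer : ∀ i (x : MulAction.stabilizer (FreeGroup ι) i), x.1 ∈ C.Rel →
    φ i x = 1 ∨ ∃ l, ∃ a : ℤ, IsConj (Orb.c l ^ a) (φ i x)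

/-- The base case for one subgroup of the stabiliser. -/
theorem curve_stab (C : H2.Ctx (FreeGroup ι) I) (g n : I → ℕ) (m : ∀ i, Fin (n i) → ℕ)
    (φ : ∀ i, MulAction.stabilizer (FreeGroup ι) i →* Orb (g i) (n i) (m i))
    (hO : OrbCtx C g n m φ) (N₀ : ℕ) (hN₀ : 0 < N₀) (i : I) (H : Subgroup (FreeGroup ι))
    (hH : H.index ≠ 0) (hHi : H ≤ MulAction.stabilizer (FreeGroup ι) i) (d : ℕ) :
    ∃ L : IntermediateField ℚ ℂ, FiniteDimensional ℚ L ∧
      ∀ σ : FreeGroup ι → SpecialLinearGroup (Fin d) ℂ, H2.MulOn H σ →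
        H2.Adm C N₀ H (H2.lin σ) → H2.Scal (C.N i ⊓ H) (H2.lin σ) → H2.D C L H σ := by
  obtain ⟨ψ, hψ⟩ : ∃ ψ : H →* Orb (g i) (n i) (m i), ∀ x, ψ x = φ i (Subgroup.inclusion hHi x) :=
    ⟨(φ i).comp (Subgroup.inclusion hHi), fun x => rfl⟩
  have hΔ : ψ.range.index ≠ 0 := by
    have h1 : ψ.range = (H.subgroupOf (MulAction.stabilizer (FreeGroup ι) i)).map (φ i) := by
      ext y
      constructor
      · rintro ⟨x, rfl⟩
        exact ⟨Subgroup.inclusion hHi x, x.2, (hψ x).symm⟩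
      · rintro ⟨x, hx, rfl⟩
        exact ⟨⟨x.1, hx⟩, hψ _⟩
    rw [h1, Subgroup.index_map]
    refine mul_ne_zero ?_ (hO.fi i)
    have h2 : (H.subgroupOf (MulAction.stabilizer (FreeGroup ι) i)).index ≠ 0 := by
      have h3 := Subgroup.relIndex_mul_index hHi
      intro h4
      rw [show H.relIndex (MulAction.stabilizer (FreeGroup ι) i) = 0 from h4, zero_mul] at h3
      exact hH h3.symm
    intro h4
    have h5 := Subgroup.index_dvd_of_le (le_sup_left :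
      H.subgroupOf (MulAction.stabilizer (FreeGroup ι) i) ≤ _ ⊔ (φ i).ker)
    rw [h4, zero_dvd_iff] at h5
    exact h2 h5
  obtain ⟨g', n', m', θ, hθ⟩ := PB (g i) (n i) (m i) ψ.range hΔ
  obtain ⟨p, hp⟩ : ∃ p : H →* Orb g' n' m', ∀ x, (θ (p x)).1 = ψ x :=
    ⟨θ.symm.toMonoidHom.comp ψ.rangeRestrict, fun x => by
      change (θ (θ.symm (ψ.rangeRestrict x))).1 = ψ x
      rw [MulEquiv.apply_symm_apply]
      rfl⟩
  have hps : Function.Surjective p := by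
    intro y
    obtain ⟨x, hx⟩ := (θ y).2
    refine ⟨x, θ.injective (Subtype.ext ?_)⟩
    rw [hp, hx]
  have hp1 : ∀ x, p x = 1 ↔ ψ x = 1 := by
    intro x
    rw [← hp x]
    constructor
    · intro h
      rw [h, map_one]
      rfl
    · intro h
      apply θ.injective
      rw [map_one]
      exact Subtype.ext h
  refine curve_one C i H p hps (fun x => ?_) (fun x hx => ?_) N₀ hN₀ d
  · rw [hp1, hψ, ← hO.ker]
    rfl
  · rcases hO.mer i (Subgroup.inclusion hHi x) hx with h1 | ⟨l, a, h1⟩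
    · left
      rw [hp1, hψ, h1]
    · right
      obtain ⟨l', a', h2⟩ := hθ (θ (p x)) ⟨l, a, by rw [hp, hψ]; exact h1⟩
      obtain ⟨u, hu⟩ := isConj_iff.1 h2
      obtain ⟨v, rfl⟩ := θ.surjective u
      refine ⟨l', a', isConj_iff.2 ⟨v, θ.injective ?_⟩⟩
      rw [← hu, map_mul, map_mul, map_inv]

/-- **PC3.** The base case, curve type. -/
theorem PC3 [Finite ι] [Finite I] (C : H2.Ctx (FreeGroup ι) I) (g n : I → ℕ)
    (m : ∀ i, Fin (n i) → ℕ)
    (φ : ∀ i, MulAction.stabilizer (FreeGroup ι) i →* Orb (g i) (n i) (m i))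
    (hO : OrbCtx C g n m φ) (N₀ B : ℕ) (hN₀ : 0 < N₀) :
    ∃ L : IntermediateField ℚ ℂ, FiniteDimensional ℚ L ∧ H2.BaseCurve C L N₀ B := by
  obtain ⟨T, hT⟩ : ∃ T, T = {H : Subgroup (FreeGroup ι) | H.index ≠ 0 ∧ H.index ≤ B} := ⟨_, rfl⟩
  have hTf : T.Finite := hT ▸ finite_index_le ι B
  have key : ∀ q : T × I × Fin (B + 1), ∃ L : IntermediateField ℚ ℂ, FiniteDimensional ℚ L ∧
      (q.1.1 ≤ MulAction.stabilizer (FreeGroup ι) q.2.1 →
        ∀ σ : FreeGroup ι → SpecialLinearGroup (Fin q.2.2) ℂ, H2.MulOn q.1.1 σ →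
        H2.Adm C N₀ q.1.1 (H2.lin σ) → H2.Scal (C.N q.2.1 ⊓ q.1.1) (H2.lin σ) →
          H2.D C L q.1.1 σ) := by
    rintro ⟨⟨H, hH⟩, i, d⟩
    rw [hT] at hH
    by_cases hHi : H ≤ MulAction.stabilizer (FreeGroup ι) i
    · obtain ⟨L, hL, h⟩ := curve_stab C g n m φ hO N₀ hN₀ i H hH.1 hHi d
      exact ⟨L, hL, fun _ => h⟩
    · exact ⟨⊥, inferInstance, fun h => absurd h hHi⟩
  choose L hL h using key
  have : Finite T := hTf
  have hfin : ∀ q, FiniteDimensional ℚ (L q) := hL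
  refine ⟨⨆ q, L q, IntermediateField.finiteDimensional_iSup_of_finite, ?_⟩
  intro H d σ i hB hHi hσ hadm hsc
  have h0 : 0 < d := by
    rcases Nat.eq_zero_or_pos d with h0 | h0
    · subst h0
      exact absurd hadm.irr.1 (not_nontrivial _)
    · exact h0
  have h1 : H.index ≤ B := (Nat.le_mul_of_pos_right _ h0).trans hB
  have h2 : d ≤ B := (Nat.le_mul_of_pos_left _ (Nat.pos_of_ne_zero hadm.fi)).trans hB
  have hHT : H ∈ T := by
    rw [hT]
    exact ⟨hadm.fi, h1⟩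
  exact (h ⟨⟨H, hHT⟩, i, ⟨d, Nat.lt_succ_of_le h2⟩⟩ hHi σ hσ hadm hsc).mono
    (le_iSup L ⟨⟨H, hHT⟩, i, ⟨d, Nat.lt_succ_of_le h2⟩⟩)

end Vale.Agent.P002.H252
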