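import Vale.Agent.P002.H252.Tr8

/-!
# The group of units in which the scalars on the fixed factor take their values
-/

namespace Vale.Agent.P002.H252

open Matrix NumberField Vale.Agent.P002R

/-- Subgroups of finitely generated commutative groups are finitely generated. -/
theorem comm_fg {A : Type*} [CommGroup A] [Group.FG A] (s : Set A) :
    ∃ t : Set A, t.Finite ∧ t ⊆ s ∧ ∀ x ∈ s, x ∈ Subgroup.closure t := by
  have h1 : AddGroup.FG (Additive A) := inferInstance
  have h2 : Module.Finite ℤ (Additive A) := Module.Finite.iff_addGroup_fg.2 h1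
  have h3 : IsNoetherian ℤ (Additive A) := inferInstance
  obtain ⟨t, ht, ht'⟩ := (Submodule.fg_span_iff_fg_span_finset_subset (R := ℤ)
    (Additive.toMul ⁻¹' s)).1 (IsNoetherian.noetherian _)
  refine ⟨Additive.ofMul ⁻¹' (t : Set (Additive A)), ?_, fun x hx => ht hx, fun x hx => ?_⟩
  · exact t.finite_toSet.preimage (Additive.ofMul.injective.injOn)
  · have h4 : Additive.ofMul x ∈ Submodule.span ℤ (t : Set (Additive A)) := by
      rw [← ht']
      exact Submodule.subset_span hx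
    have h5 : ∀ y ∈ Submodule.span ℤ (t : Set (Additive A)),
        Additive.toMul y ∈ Subgroup.closure (Additive.ofMul ⁻¹' (t : Set (Additive A))) := by
      intro y hy
      induction hy using Submodule.span_induction with
      | mem y hy => exact Subgroup.subset_closure hy
      | zero => exact one_mem _
      | add y z _ _ hy hz => exact mul_mem hy hz
      | smul a y _ hy => exact zpow_mem hy a
    exact h5 _ h4

/-- `c ^ n` is a product of eigenvalues. -/
theorem pow_mem_of_sub {n r : ℕ} {A : Matrix (Fin r) (Fin r) ℂ} (B : SpecialLinearGroup (Fin n) ℂ)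
    (c : ℂˣ) (e : (Fin n → ℂ) →ₗ[ℂ] (Fin r → ℂ)) (he : Function.Injective e)
    (h : ∀ v, A *ᵥ e v = (c : ℂ) • e (B.1 *ᵥ v)) (U : Subgroup ℂˣ)
    (hU : ∀ w : ℂˣ, A.charpoly.IsRoot (w : ℂ) → w ∈ U) : c ^ n ∈ U := by
  have h1 : ∀ z, B.1.charpoly.IsRoot z → A.charpoly.IsRoot (c * z) := by
    intro z hz
    obtain ⟨v, hv, hv'⟩ := exists_eigvec _ hz
    rw [Vale.Agent.P002.H326.root_iff]
    refine ⟨e v, fun h0 => hv (he (by rw [h0, map_zero])), ?_⟩
    rw [h, hv', map_smul, smul_smul]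
  have h2 : B.1.charpoly.roots.prod = 1 := by
    rw [← Matrix.det_eq_prod_roots_charpoly, B.2]
  have h4 : Multiset.card B.1.charpoly.roots = n := by
    rw [← (IsAlgClosed.splits B.1.charpoly).natDegree_eq_card_roots,
      Matrix.charpoly_natDegree_eq_dim, Fintype.card_fin]
  have h3 : ∀ s : Multiset ℂ, (∀ b ∈ s, B.1.charpoly.IsRoot b) →
      ∃ u ∈ U, (u : ℂ) = (c : ℂ) ^ Multiset.card s * s.prod := by
    intro s
    induction s using Multiset.induction_on with
    | empty =>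
      intro _
      exact ⟨1, one_mem U, by simp⟩
    | cons b s ih =>
      intro hs
      obtain ⟨u, hu, hu'⟩ := ih fun b hb => hs b (Multiset.mem_cons_of_mem hb)
      have hb := hs b (Multiset.mem_cons_self b s)
      have hb0 : b ≠ 0 := root_ne_zero B hb
      refine ⟨c * Units.mk0 b hb0 * u, mul_mem (hU _ ?_) hu, ?_⟩
      · exact h1 b hb
      · rw [Units.val_mul, Units.val_mul, Units.val_mk0, hu', Multiset.card_cons,
          Multiset.prod_cons, pow_succ']
        ring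
  obtain ⟨u, hu, hu'⟩ := h3 B.1.charpoly.roots fun b hb => Polynomial.isRoot_of_mem_roots hb
  rw [h4, h2, mul_one] at hu'
  have h5 : c ^ n = u := by
    apply Units.ext
    rw [Units.val_pow_eq_pow_val, hu']
  rw [h5]
  exact hu

/-- The scalars by which the factors of `R₁` are twisted take values in a finitely generated group
of algebraic units, up to a power. -/
theorem unitGroup {ι : Type} [Finite ι] (K₁ : Subgroup (FreeGroup ι)) {r : ℕ}
    (R₁ : FreeGroup ι → Matrix (Fin r) (Fin r) ℂ)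
    (hint : ∀ k ∈ K₁, ∀ z, (R₁ k).charpoly.IsRoot z → IsIntegral ℤ z ∧ IsIntegral ℤ z⁻¹) (B : ℕ) :
    ∃ U : Subgroup ℂˣ, U.FG ∧ (∀ u ∈ U, IsIntegral ℤ (u : ℂ)) ∧
      ∀ (H : Subgroup (FreeGroup ι)) (n : ℕ) (χ : FreeGroup ι → ℂˣ)
        (τ : FreeGroup ι → SpecialLinearGroup (Fin n) ℂ), H.index ≠ 0 → H.index ≤ B → K₁ ≤ H →
        H2.MulOn H χ →
        (∃ e : (Fin n → ℂ) →ₗ[ℂ] (Fin r → ℂ), Function.Injective e ∧
          ∀ k ∈ K₁, ∀ v, R₁ k *ᵥ e v = (χ k : ℂ) • e ((τ k).1 *ᵥ v)) →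
        ∀ k ∈ K₁, χ k ^ n ∈ U := by
  obtain ⟨T, hT⟩ : ∃ T, T = {H : Subgroup (FreeGroup ι) | H.index ≠ 0 ∧ H.index ≤ B} := ⟨_, rfl⟩
  have hTf : T.Finite := hT ▸ finite_index_le ι B
  -- finitely many elements of `K₁` which generate its image in the abelianisation of `H`
  have key : ∀ H : T, ∃ t : Set (FreeGroup ι), t.Finite ∧ t ⊆ K₁ ∧ ∀ χ : FreeGroup ι → ℂˣ,
      K₁ ≤ H.1 → H2.MulOn H.1 χ → ∀ k ∈ K₁, χ k ∈ Subgroup.closure (χ '' t) := by
    rintro ⟨H, hH⟩
    rw [hT] at hH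
    have hfi : H.FiniteIndex := ⟨hH.1⟩
    have hfg : Group.FG H := inferInstance
    have hfg' : Group.FG (Abelianization H) :=
      Group.fg_of_surjective (f := (Abelianization.of (G := H))) QuotientGroup.mk_surjective
    obtain ⟨t, ht1, ht2, ht3⟩ := comm_fg (A := Abelianization H)
      {x | ∃ k : H, k.1 ∈ K₁ ∧ Abelianization.of k = x}
    have hch : ∀ x : t, ∃ k : H, k.1 ∈ K₁ ∧ Abelianization.of k = x.1 := fun x => ht2 x.2
    choose κ hκ1 hκ2 using hch
    have : Finite t := ht1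
    refine ⟨Set.range fun x => (κ x).1, Set.finite_range _, ?_, ?_⟩
    · rintro _ ⟨x, rfl⟩
      exact hκ1 x
    · intro χ hK hχ k hk
      obtain ⟨ψ, hψ⟩ : ∃ ψ : Abelianization H →* ℂˣ, ∀ x : H, ψ (Abelianization.of x) = χ x.1 :=
        ⟨Abelianization.lift (homOn hχ), fun x => rfl⟩
      have h1 := ht3 _ ⟨⟨k, hK hk⟩, hk, rfl⟩
      have h2 : ψ (Abelianization.of ⟨k, hK hk⟩) ∈ (Subgroup.closure t).map ψ := ⟨_, h1, rfl⟩
      rw [hψ, MonoidHom.map_closure] at h2
      refine Subgroup.closure_mono ?_ h2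
      rintro _ ⟨x, hx, rfl⟩
      refine ⟨_, ⟨⟨x, hx⟩, rfl⟩, ?_⟩
      rw [← hψ, hκ2]
  choose t ht1 ht2 ht3 using key
  have : Finite T := hTf
  obtain ⟨V, hV⟩ : ∃ V : Set ℂˣ, V = ⋃ H : T, ⋃ k ∈ t H, {w : ℂˣ | (R₁ k).charpoly.IsRoot (w : ℂ)} :=
    ⟨_, rfl⟩
  have hVf : V.Finite := by
    rw [hV]
    refine Set.finite_iUnion fun H => (ht1 H).biUnion fun k _ => ?_
    refine Set.Finite.of_injOn (f := fun z : ℂˣ => (z : ℂ))
      (t := {z : ℂ | (R₁ k).charpoly.IsRoot z}) (fun z hz => hz) (Units.val_injective.injOn) ?_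
    exact Polynomial.finite_setOfPred_isRoot (Matrix.charpoly_monic _).ne_zero
  refine ⟨Subgroup.closure V, ⟨hVf.toFinset, by rw [Set.Finite.coe_toFinset]⟩, ?_, ?_⟩
  · intro u hu
    have h1 : IsIntegral ℤ (u : ℂ) ∧ IsIntegral ℤ ((u⁻¹ : ℂˣ) : ℂ) := by
      induction hu using Subgroup.closure_induction with
      | mem u hu =>
        rw [hV] at hu
        obtain ⟨H, hu⟩ := Set.mem_iUnion.1 hu
        obtain ⟨k, hk, hu⟩ := Set.mem_iUnion₂.1 hu
        rw [Units.val_inv_eq_inv_val]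
        exact hint k (ht2 H hk) _ hu
      | one =>
        rw [inv_one, Units.val_one]
        exact ⟨isIntegral_one, isIntegral_one⟩
      | mul x y _ _ hx hy =>
        rw [_root_.mul_inv_rev, Units.val_mul, Units.val_mul]
        exact ⟨hx.1.mul hy.1, hy.2.mul hx.2⟩
      | inv x _ hx =>
        rw [inv_inv]
        exact ⟨hx.2, hx.1⟩
    exact h1.1
  · intro H n χ τ h0 hB hK hχ hsub k hk
    obtain ⟨e, he, hce⟩ := hsub
    have hHT : H ∈ T := by
      rw [hT]
      exact ⟨h0, hB⟩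
    have h1 := ht3 ⟨H, hHT⟩ χ hK hχ k hk
    have h2 : ∀ x ∈ Subgroup.closure (χ '' t ⟨H, hHT⟩), x ^ n ∈ Subgroup.closure V := by
      intro x hx
      induction hx using Subgroup.closure_induction with
      | mem x hx =>
        obtain ⟨k', hk', rfl⟩ := hx
        refine pow_mem_of_sub (A := R₁ k') (τ k') (χ k') e he (fun v => hce k' (ht2 _ hk') v) _
          fun w hw => Subgroup.subset_closure ?_
        rw [hV]
        exact Set.mem_iUnion.2 ⟨⟨H, hHT⟩, Set.mem_iUnion₂.2 ⟨k', hk', hw⟩⟩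
      | one =>
        rw [one_pow]
        exact one_mem _
      | mul x y _ _ hx hy =>
        rw [mul_pow]
        exact mul_mem hx hy
      | inv x _ hx =>
        rw [inv_pow]
        exact inv_mem hx
    exact h2 _ h1

end Vale.Agent.P002.H252
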