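import Vale.Agent.P002.H252.Bb3

/-!
# The final statement, with the density for the multi-typed loci as a hypothesis
-/

namespace Vale.Agent.P002.H252

open Matrix Vale.Agent.P002R.Orb Vale.Agent.P002.H326J Vale.Agent.P002.H2

variable {ι : Type} {r s : ℕ}

theorem openIn_one (U : Set (ι → SpecialLinearGroup (Fin r) ℂ)) : OpenIn U {1} = U := by
  refine Set.Subset.antisymm (fun X hX => hX.1) fun X hX => ⟨hX, 1, rfl, ?_⟩
  rw [value_eq, map_one]
  exact one_ne_zero

/-- if all eigenvalues of all elements are algebraic integers, then `X` is typed -/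
theorem isTyped_of_integral [Finite ι] (R : Set (FreeGroup ι)) (w : Fin s → FreeGroup ι)
    (X : ι → SpecialLinearGroup (Fin r) ℂ) (hX : IsRep R X)
    (hint : ∀ y : FreeGroup ι, ∀ c, (FreeGroup.lift X y).1.charpoly.IsRoot c → IsIntegral ℤ c) :
    IsTyped R w X := by
  obtain ⟨O, hO⟩ : ∃ O : OrbFamily (PresentedGroup R), O.I = Empty :=
    ⟨{ I := Empty
       fin := inferInstance
       act := { smul := fun _ i => i.elim, one_smul := fun i => i.elim,
                mul_smul := fun _ _ i => i.elim }
       g := fun i => i.elim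
       n := fun i => i.elim
       m := fun i => i.elim
       φ := fun i => i.elim
       range := fun i => i.elim
       conj := fun _ i => i.elim
       dist := fun i => i.elim }, rfl⟩
  have hK : O.K = ⊤ := by
    have : IsEmpty O.I := hO ▸ inferInstance
    unfold OrbFamily.K
    exact iInf_of_empty _
  refine isTyped_of_eig R w X hX O (fun j i => ?_) ⊤ inferInstance (by rw [hK])
    (fun y _ => hint y) ⟨⊤, by rw [hK], ?_, 0, fun x _ => Submodule.subset_span ⟨x, trivial, rfl⟩⟩
  · have : IsEmpty O.I := hO ▸ inferInstance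
    exact (this.false i).elim
  · rw [hK, Subgroup.relIndex_self]
    exact one_ne_zero

theorem final_uniform [Finite ι] (R : Set (FreeGroup ι)) (w : Fin s → FreeGroup ι)
    (C : Fin s → SpecialLinearGroup (Fin r) ℂ)
    (hmulti : ∀ (k : ℕ) (D : Fin k → TypeDatum (PresentedGroup R)),
      (∀ a, (D a).Valid fun j => PresentedGroup.mk R (w j)) →
        ∃ L : IntermediateField ℚ ℂ, FiniteDimensional ℚ L ∧ IsDenseRep L (YMulti R w C k D))
    (hT : ∀ X ∈ YW R w C, IsTyped R w X) :
    ∃ L : IntermediateField ℚ ℂ, FiniteDimensional ℚ L ∧ IsDenseRep L (YW R w C) := by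
  have h := uniform_type R w C hmulti {1} (fun _ => {1}) (fun n => by
    rw [openIn_one, openIn_one]
    exact fun F hF => hF) (fun X hX _ => hT X (by rwa [openIn_one] at hX))
  rwa [openIn_one] at h

end Vale.Agent.P002.H252
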