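import Vale.Agent.P002.H252.Ba2

/-!
# A criterion for semisimplicity by traces of words
-/

namespace Vale.Agent.P002.H252

open Module

section alg

variable {G : Type} [Monoid G] {r : ℕ} (X : G →* Matrix (Fin r) (Fin r) ℂ)

/-- the algebra spanned by the matrices `X g` -/
def algOf : Subalgebra ℂ (Matrix (Fin r) (Fin r) ℂ) := Algebra.adjoin ℂ (Set.range X)

theorem algOf_toSubmodule : Subalgebra.toSubmodule (algOf X) = Submodule.span ℂ (Set.range X) := by
  rw [algOf, Algebra.adjoin_eq_span]
  congr 1
  have h : Submonoid.closure (Set.range X) = MonoidHom.mrange X := by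
    rw [← MonoidHom.coe_mrange, Submonoid.closure_eq]
  rw [h]
  rfl

theorem mem_algOf {a : Matrix (Fin r) (Fin r) ℂ} :
    a ∈ algOf X ↔ a ∈ Submodule.span ℂ (Set.range X) := by
  rw [← algOf_toSubmodule]
  rfl

theorem X_mem_algOf (g : G) : X g ∈ algOf X := Algebra.subset_adjoin ⟨g, rfl⟩

/-- the action on the space -/
noncomputable def actOf : algOf X →ₐ[ℂ] End ℂ (Fin r → ℂ) :=
  (Matrix.toLinAlgEquiv' (R := ℂ) (n := Fin r)).toAlgHom.comp (algOf X).val

theorem actOf_apply (a : algOf X) : actOf X a = Matrix.toLin' a.1 := rfl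

theorem actOf_inj : Function.Injective (actOf X) := by
  intro a b h
  rw [actOf_apply, actOf_apply] at h
  exact Subtype.ext (Matrix.toLin'.injective h)

theorem SSf_actOf : SSf (actOf X) ↔ SSf fun g => Matrix.toLin' (X g) := by
  have key : ∀ W : Submodule ℂ (Fin r → ℂ), (∀ x, ∀ w ∈ W, actOf X x w ∈ W) ↔
      ∀ g, ∀ w ∈ W, Matrix.toLin' (X g) w ∈ W := by
    intro W
    constructor
    · intro h g w hw
      exact h ⟨X g, X_mem_algOf X g⟩ w hw
    · intro h x w hw
      have hx := (mem_algOf X).1 x.2
      rw [actOf_apply]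
      have h2 : ∀ a ∈ Submodule.span ℂ (Set.range X), Matrix.toLin' a w ∈ W := by
        intro a ha
        induction ha using Submodule.span_induction with
        | mem x hx =>
          obtain ⟨g, rfl⟩ := hx
          exact h g w hw
        | zero => rw [map_zero, LinearMap.zero_apply]; exact W.zero_mem
        | add x y _ _ hx hy => rw [map_add, LinearMap.add_apply]; exact W.add_mem hx hy
        | smul c x _ hx => rw [map_smul, LinearMap.smul_apply]; exact W.smul_mem c hx
      exact h2 x.1 hx
  unfold SSf
  constructor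
  · intro h W hW
    obtain ⟨W', h1, h2⟩ := h W ((key W).2 hW)
    exact ⟨W', (key W').1 h1, h2⟩
  · intro h W hW
    obtain ⟨W', h1, h2⟩ := h W ((key W).1 hW)
    exact ⟨W', (key W').2 h1, h2⟩

theorem trace_actOf (a : algOf X) : LinearMap.trace ℂ _ (actOf X a) = a.1.trace := by
  rw [actOf_apply, Matrix.trace_toLin'_eq]

/-- the matrix of the trace form -/
def gramW {d : ℕ} (u : Fin d → G) : Matrix (Fin d) (Fin d) ℂ :=
  fun i j => (X (u i * u j)).trace

open Matrix in
theorem vecMul_gramW {d : ℕ} (u : Fin d → G) (c : Fin d → ℂ) (j : Fin d) :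
    (c ᵥ* gramW X u) j = ((∑ i, c i • X (u i)) * X (u j)).trace := by
  rw [Finset.sum_mul, Matrix.trace_sum]
  change ∑ i, c i * gramW X u i j = _
  refine Finset.sum_congr rfl fun i _ => ?_
  rw [gramW, map_mul, smul_mul_assoc, Matrix.trace_smul, smul_eq_mul]

open Matrix in
theorem crit : (SSf fun g => Matrix.toLin' (X g)) ↔
    ∃ d ≤ r * r, (∀ v : Fin (d + 1) → G, ¬ LinearIndependent ℂ fun i => X (v i)) ∧
      ∃ u : Fin d → G, (gramW X u).det ≠ 0 := by
  rw [← SSf_actOf]
  constructor
  · intro h
    classical
    obtain ⟨t, ht, h1, h2⟩ := exists_linearIndependent ℂ (Set.range X)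
    have hf : Finite t := h2.finite
    have := Fintype.ofFinite t
    obtain ⟨e⟩ : Nonempty (t ≃ Fin (Fintype.card t)) := ⟨Fintype.equivFin t⟩
    choose u hu using fun i : Fin (Fintype.card t) => ht (e.symm i).2
    have h3 : LinearIndependent ℂ (fun i => X (u i)) := by
      have h4 : (fun i => X (u i)) = (fun x : t => x.1) ∘ e.symm := funext fun i => hu i
      rw [h4]
      exact h2.comp _ e.symm.injective
    have h4 : Submodule.span ℂ (Set.range X) = Submodule.span ℂ (Set.range fun i => X (u i)) := by
      rw [← h1]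
      congr 1
      ext x
      constructor
      · intro hx
        refine ⟨e ⟨x, hx⟩, ?_⟩
        change X (u (e ⟨x, hx⟩)) = x
        rw [hu, Equiv.symm_apply_apply]
      · rintro ⟨i, rfl⟩
        have h5 : X (u i) = (e.symm i).1 := hu i
        change X (u i) ∈ t
        rw [h5]
        exact (e.symm i).2
    refine ⟨Fintype.card t, ?_, ?_, u, ?_⟩
    · have h5 := h2.fintype_card_le_finrank
      rwa [Module.finrank_matrix, Module.finrank_self, Fintype.card_fin, mul_one] at h5
    · intro v hv
      have h5 : ∀ i, X (v i) ∈ Submodule.span ℂ (Set.range fun i => X (u i)) := fun i =>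
        h4 ▸ Submodule.subset_span ⟨v i, rfl⟩
      have h6 : LinearIndependent ℂ (fun i => (⟨X (v i), h5 i⟩ :
          Submodule.span ℂ (Set.range fun i => X (u i)))) :=
        LinearIndependent.of_comp (Submodule.subtype _) hv
      have h7 := h6.fintype_card_le_finrank
      rw [finrank_span_eq_card h3, Fintype.card_fin, Fintype.card_fin] at h7
      omega
    · intro h0
      obtain ⟨c, hc, hc'⟩ := Matrix.exists_vecMul_eq_zero_iff.2 h0
      obtain ⟨a, ha⟩ : ∃ a : algOf X, a.1 = ∑ i, c i • X (u i) :=
        ⟨⟨∑ i, c i • X (u i), Subalgebra.sum_mem _ fun i _ =>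
          Subalgebra.smul_mem _ (X_mem_algOf X _) _⟩, rfl⟩
      have h5 : a = 0 := by
        refine trace_nondeg (actOf X) (actOf_inj X) h a fun b => ?_
        rw [trace_actOf]
        change (b.1 * a.1).trace = 0
        have hb := (mem_algOf X).1 b.2
        rw [h4] at hb
        have h6 : ∀ z ∈ Submodule.span ℂ (Set.range fun i => X (u i)), (z * a.1).trace = 0 := by
          intro z hz
          induction hz using Submodule.span_induction with
          | mem x hx =>
            obtain ⟨j, rfl⟩ := hx
            have h7 := congrFun hc' j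
            rw [vecMul_gramW, ← ha, Matrix.trace_mul_comm] at h7
            exact h7
          | zero => rw [zero_mul, Matrix.trace_zero]
          | add x y _ _ hx hy => rw [add_mul, Matrix.trace_add, hx, hy, add_zero]
          | smul c x _ hx => rw [smul_mul_assoc, Matrix.trace_smul, hx, smul_zero]
        exact h6 b.1 hb
      have h6 : ∑ i, c i • X (u i) = 0 := by rw [← ha, h5]; rfl
      apply hc
      funext i
      exact Fintype.linearIndependent_iff.1 h3 c h6 i
  · rintro ⟨d, -, hE, u, hu⟩
    have h3 : LinearIndependent ℂ (fun i => X (u i)) := by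
      rw [Fintype.linearIndependent_iff]
      intro c hc i
      have h4 : c ᵥ* gramW X u = 0 := by
        funext j
        rw [vecMul_gramW, hc, zero_mul, Matrix.trace_zero]
        rfl
      by_contra hci
      exact hu (Matrix.exists_vecMul_eq_zero_iff.1 ⟨c, fun h => hci (congrFun h i), h4⟩)
    have h4 : ∀ g, X g ∈ Submodule.span ℂ (Set.range fun i => X (u i)) := by
      intro g
      by_contra hg
      refine hE (Fin.cons g u) ?_
      have h5 : (fun i => X ((Fin.cons g u : Fin (d + 1) → G) i)) =
          (Fin.cons (X g) fun i => X (u i) : Fin (d + 1) → _) := by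
        funext i
        refine Fin.cases ?_ (fun i => ?_) i
        · rfl
        · rfl
      rw [h5]
      exact h3.finCons hg
    have h5 : Submodule.span ℂ (Set.range X) ≤ Submodule.span ℂ (Set.range fun i => X (u i)) := by
      rw [Submodule.span_le]
      rintro _ ⟨g, rfl⟩
      exact h4 g
    refine SSf_of_nondeg (actOf X) (actOf_inj X) fun a ha => ?_
    obtain ⟨c, hc⟩ := (Submodule.mem_span_range_iff_exists_fun ℂ).1 (h5 ((mem_algOf X).1 a.2))
    have h6 : c ᵥ* gramW X u = 0 := by
      funext j
      rw [vecMul_gramW, hc]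
      have h7 := ha ⟨X (u j), X_mem_algOf X _⟩
      rw [trace_actOf] at h7
      rw [Matrix.trace_mul_comm]
      exact h7
    have h7 : c = 0 := by
      by_contra hc0
      exact hu (Matrix.exists_vecMul_eq_zero_iff.1 ⟨c, hc0, h6⟩)
    apply Subtype.ext
    rw [← hc, h7]
    simp

end alg

end Vale.Agent.P002.H252
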