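import Vale.Agent.P002.H252.Tr1

/-!
# Integrality of the extensions of an irreducible representation with integral traces
-/

namespace Vale.Agent.P002.H252

open Matrix

variable {Γ : Type*} [Group Γ] {n : ℕ}

/-- Right eigenvectors for all roots of the characteristic polynomial. -/
theorem exists_eigvec (A : Matrix (Fin n) (Fin n) ℂ) {z : ℂ} (hz : A.charpoly.IsRoot z) :
    ∃ v : Fin n → ℂ, v ≠ 0 ∧ A *ᵥ v = z • v := by
  change A.charpoly.eval z = 0 at hz
  rw [Matrix.eval_charpoly, ← Matrix.exists_mulVec_eq_zero_iff] at hz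
  obtain ⟨v, hv, h⟩ := hz
  refine ⟨v, hv, ?_⟩
  rw [Matrix.sub_mulVec, sub_eq_zero] at h
  rw [← h, Matrix.scalar_apply]
  ext i
  simp [Matrix.mulVec_diagonal]

/-- Left eigenvectors. -/
theorem exists_eigvec' (A : Matrix (Fin n) (Fin n) ℂ) {z : ℂ} (hz : A.charpoly.IsRoot z) :
    ∃ v : Fin n → ℂ, v ≠ 0 ∧ v ᵥ* A = z • v := by
  rw [← Matrix.charpoly_transpose] at hz
  obtain ⟨v, hv, h⟩ := exists_eigvec _ hz
  refine ⟨v, hv, ?_⟩
  rw [← h, Matrix.mulVec_transpose]

theorem sl_inv_mul (A : SpecialLinearGroup (Fin n) ℂ) : (A⁻¹).1 * A.1 = 1 :=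
  congrArg Subtype.val (inv_mul_cancel A)

theorem sl_mul_inv (A : SpecialLinearGroup (Fin n) ℂ) : A.1 * (A⁻¹).1 = 1 :=
  congrArg Subtype.val (mul_inv_cancel A)

theorem root_ne_zero (A : SpecialLinearGroup (Fin n) ℂ) {z : ℂ} (hz : A.1.charpoly.IsRoot z) :
    z ≠ 0 := by
  rintro rfl
  obtain ⟨v, hv, h⟩ := exists_eigvec _ hz
  apply hv
  rw [← Matrix.one_mulVec v, ← sl_inv_mul A, ← Matrix.mulVec_mulVec, h, zero_smul,
    Matrix.mulVec_zero]

/-- The trace is the sum of the eigenvalues. -/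
theorem trace_int_of_roots (A : Matrix (Fin n) (Fin n) ℂ)
    (h : ∀ z, A.charpoly.IsRoot z → IsIntegral ℤ z) : IsIntegral ℤ A.trace := by
  rw [Matrix.trace_eq_sum_roots_charpoly]
  refine Multiset.sum_induction _ _ (fun a b => IsIntegral.add) isIntegral_zero fun z hz => ?_
  exact h z (Polynomial.isRoot_of_mem_roots hz)

/-- If all quotients of eigenvalues are integral, so are the eigenvalues. -/
theorem int_of_quot (A : SpecialLinearGroup (Fin n) ℂ)
    (h : ∀ z w, A.1.charpoly.IsRoot z → A.1.charpoly.IsRoot w → IsIntegral ℤ (z / w)) {z : ℂ}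
    (hz : A.1.charpoly.IsRoot z) : IsIntegral ℤ z := by
  have h1 : A.1.charpoly.roots.prod = 1 := by
    rw [← Matrix.det_eq_prod_roots_charpoly, A.2]
  have h2 : ∀ s : Multiset ℂ, (∀ b ∈ s, A.1.charpoly.IsRoot b) →
      IsIntegral ℤ (z ^ Multiset.card s / s.prod) := by
    intro s
    induction s using Multiset.induction_on with
    | empty =>
      intro _
      rw [Multiset.prod_zero, Multiset.card_zero, pow_zero, div_one]
      exact isIntegral_one
    | cons b s ih =>
      intro hs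
      rw [Multiset.prod_cons, Multiset.card_cons, pow_succ', mul_div_mul_comm]
      exact (h z b hz (hs b (Multiset.mem_cons_self b s))).mul
        (ih fun b hb => hs b (Multiset.mem_cons_of_mem hb))
  have h3 := h2 A.1.charpoly.roots fun b hb => Polynomial.isRoot_of_mem_roots hb
  have h4 : Multiset.card A.1.charpoly.roots = n := by
    rw [← (IsAlgClosed.splits A.1.charpoly).natDegree_eq_card_roots,
      Matrix.charpoly_natDegree_eq_dim, Fintype.card_fin]
  rw [h1, h4, div_one] at h3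
  have hn : 0 < n := by
    rcases Nat.eq_zero_or_pos n with hn | hn
    · subst hn
      obtain ⟨v, hv, -⟩ := exists_eigvec _ hz
      exact absurd (Subsingleton.elim _ _) hv
    · exact hn
  exact IsIntegral.of_pow hn h3

/-- **Integrality of extensions.** Let `α` be a representation with values in `SL_n` whose
restriction to a normal subgroup `K` is irreducible with integral traces. Then all eigenvalues of
all `α g` are algebraic integers. -/
theorem ext_int (α : Γ →* SpecialLinearGroup (Fin n) ℂ) (K : Subgroup Γ) [hK : K.Normal]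
    (hs : Submodule.span ℂ {A | ∃ k ∈ K, A = (α k).1} = ⊤)
    (ht : ∀ k ∈ K, IsIntegral ℤ (α k).1.trace) (g : Γ) {z : ℂ}
    (hz : (α g).1.charpoly.IsRoot z) : IsIntegral ℤ z := by
  obtain ⟨J, i1, i2, b, hb⟩ := exists_basis _ hs
  choose k hk hbk using hb
  have hgram : ∀ i j, IsIntegral ℤ (b i * b j).trace := by
    intro i j
    rw [hbk, hbk]
    have := ht (k i * k j) (K.mul_mem (hk i) (hk j))
    rwa [map_mul] at this
  have hcoord : ∀ κ ∈ K, ∀ j, IsIntegral ℤ ((gram b).det * b.repr (α κ).1 j) := by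
    intro κ hκ j
    refine coord_int b hgram _ (fun i => ?_) j
    rw [hbk]
    have := ht (k i * κ) (K.mul_mem (hk i) hκ)
    rwa [map_mul] at this
  refine int_of_quot (α g) (fun z w hz hw => ?_) hz
  obtain ⟨u, hu, hu'⟩ := exists_eigvec _ hz
  obtain ⟨v, hv, hv'⟩ := exists_eigvec' _ hw
  have hw0 := root_ne_zero _ hw
  obtain ⟨M, hM⟩ : ∃ M : Matrix (Fin n) (Fin n) ℂ, M = Matrix.vecMulVec u v := ⟨_, rfl⟩
  have hM0 : M ≠ 0 := by
    obtain ⟨i, hi⟩ := Function.ne_iff.1 hu
    obtain ⟨j, hj⟩ := Function.ne_iff.1 hv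
    intro h0
    have h1 := congrFun (congrFun h0 i) j
    rw [hM, Matrix.vecMulVec_apply] at h1
    exact (mul_ne_zero hi hj) h1
  have hv'' : v ᵥ* ((α g)⁻¹).1 = w⁻¹ • v := by
    have h1 : v = w • (v ᵥ* ((α g)⁻¹).1) := by
      rw [← Matrix.smul_vecMul, ← hv', Matrix.vecMul_vecMul, sl_mul_inv, Matrix.vecMul_one]
    calc v ᵥ* ((α g)⁻¹).1 = w⁻¹ • (w • (v ᵥ* ((α g)⁻¹).1)) := by
          rw [smul_smul, inv_mul_cancel₀ hw0, one_smul]
      _ = _ := by rw [← h1]
  have hT : (α g).1 * M * ((α g)⁻¹).1 = (z / w) • M := by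
    rw [hM, Matrix.mul_vecMulVec, hu', Matrix.vecMulVec_mul, hv'', Matrix.smul_vecMulVec,
      Matrix.vecMulVec_smul, smul_smul, div_eq_mul_inv]
  have hTj : ∀ j : ℕ, (α (g ^ j)).1 * M * ((α (g ^ j))⁻¹).1 = ((z / w) ^ j) • M := by
    intro j
    induction j with
    | zero =>
      rw [pow_zero, pow_zero, map_one, one_smul, inv_one]
      change (1 : Matrix (Fin n) (Fin n) ℂ) * M * (1 : Matrix (Fin n) (Fin n) ℂ) = M
      rw [Matrix.one_mul, Matrix.mul_one]
    | succ j ih =>
      rw [pow_succ', map_mul, _root_.mul_inv_rev]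
      change ((α g).1 * (α (g ^ j)).1) * M * (((α (g ^ j))⁻¹).1 * ((α g)⁻¹).1) = _
      calc ((α g).1 * (α (g ^ j)).1) * M * (((α (g ^ j))⁻¹).1 * ((α g)⁻¹).1)
          = (α g).1 * ((α (g ^ j)).1 * M * ((α (g ^ j))⁻¹).1) * ((α g)⁻¹).1 := by
            simp only [Matrix.mul_assoc]
        _ = _ := by
            rw [ih, Matrix.mul_smul, Matrix.smul_mul, hT, smul_smul, pow_succ]
  refine int_of_almost (gram_det b) fun j => ?_
  -- the matrix of the conjugation
  have h1 : ∀ i, (α (g ^ j)).1 * b i * ((α (g ^ j))⁻¹).1 = (α (g ^ j * k i * (g ^ j)⁻¹)).1 := by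
    intro i
    rw [hbk, map_mul, map_mul, map_inv]
    rfl
  have h2 : ∀ l, (z / w) ^ j * b.repr M l =
      ∑ i, b.repr M i * b.repr (α (g ^ j * k i * (g ^ j)⁻¹)).1 l := by
    intro l
    have h3 := congrArg (fun A => b.repr A l) (hTj j)
    simp only [map_smul, Finsupp.smul_apply, smul_eq_mul] at h3
    rw [← h3]
    conv_lhs => rw [← b.sum_repr M, Matrix.mul_sum, Matrix.sum_mul]
    rw [map_sum, Finset.sum_apply']
    refine Finset.sum_congr rfl fun i _ => ?_
    rw [Matrix.mul_smul, Matrix.smul_mul, h1, map_smul, Finsupp.smul_apply, smul_eq_mul]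
  refine eig_int (fun l i => (gram b).det * b.repr (α (g ^ j * k i * (g ^ j)⁻¹)).1 l)
    (fun l i => hcoord _ (hK.conj_mem _ (hk i) _) l) (m := fun i => b.repr M i) ?_ ?_
  · intro h0
    apply hM0
    apply b.repr.injective
    ext i
    rw [map_zero]
    exact congrFun h0 i
  · ext l
    rw [Pi.smul_apply, smul_eq_mul, mul_assoc, h2, Finset.mul_sum]
    refine Finset.sum_congr rfl fun i _ => ?_
    ring

theorem ext_trace_int (α : Γ →* SpecialLinearGroup (Fin n) ℂ) (K : Subgroup Γ) [K.Normal]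
    (hs : Submodule.span ℂ {A | ∃ k ∈ K, A = (α k).1} = ⊤)
    (ht : ∀ k ∈ K, IsIntegral ℤ (α k).1.trace) (g : Γ) : IsIntegral ℤ (α g).1.trace :=
  trace_int_of_roots _ fun _ hz => ext_int α K hs ht g hz

end Vale.Agent.P002.H252
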