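import Vale.Agent.P002.H252.Tr4

/-!
# Irreducible representations with integral traces are integral
-/

namespace Vale.Agent.P002.H252

open Matrix NumberField Vale.Agent.P002R

/-- A square subsystem of a spanning set of vectors. -/
theorem exists_sub_basis {n : ℕ} (s : Set (Fin n → ℂ)) (hs : Submodule.span ℂ s = ⊤) :
    ∃ v : Fin n → Fin n → ℂ, (∀ i, v i ∈ s) ∧ IsUnit (Matrix.of v).det := by
  classical
  obtain ⟨t, ht, h1, h2⟩ := exists_linearIndependent ℂ s
  have hf : Finite t := h2.finite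
  have := Fintype.ofFinite t
  obtain ⟨b, hb⟩ : ∃ b : Module.Basis t ℂ (Fin n → ℂ), ∀ i, b i = i :=
    ⟨Module.Basis.mk h2 (by rw [Subtype.range_coe, h1, hs]), fun i => by
      rw [Module.Basis.mk_apply]⟩
  have hcard : Fintype.card t = n := by
    rw [← Module.finrank_eq_card_basis b, Module.finrank_fin_fun]
  obtain ⟨e⟩ : Nonempty (t ≃ Fin n) := ⟨Fintype.equivFinOfCardEq hcard⟩
  refine ⟨fun i => (e.symm i).1, fun i => ht (e.symm i).2, ?_⟩
  have h3 : LinearIndependent ℂ (fun i => (e.symm i).1 : Fin n → Fin n → ℂ) :=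
    h2.comp _ e.symm.injective
  rw [← Matrix.isUnit_iff_isUnit_det]
  exact Matrix.linearIndependent_rows_iff_isUnit.1 h3

/-- The traces generate a number field. -/
theorem exists_E {Γ : Type*} [Group Γ] {n : ℕ} {J : Type} [Fintype J] [DecidableEq J]
    {α : Γ →* SpecialLinearGroup (Fin n) ℂ} {b : Module.Basis J ℂ (Matrix (Fin n) (Fin n) ℂ)}
    (hb : GB α b) (S : Finset Γ) (hS : Submonoid.closure (S : Set Γ) = ⊤)
    {B : Matrix (Fin n) (Fin n) ℂ} (hB : Alg b B) :
    ∃ E : IntermediateField ℚ ℂ, FiniteDimensional ℚ E ∧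
      ∀ g i, (b i * ((α g).1 * B)).trace ∈ E := by
  obtain ⟨E, hE⟩ : ∃ E : IntermediateField ℚ ℂ, E = IntermediateField.adjoin ℚ
      ((⋃ p : S × J × J, {b.repr ((α p.1.1).1 * b p.2.1) p.2.2}) ∪ (⋃ j, {b.repr B j}) ∪
        ⋃ p : J × J, {(b p.1 * b p.2).trace}) := ⟨_, rfl⟩
  have hfin : ((⋃ p : S × J × J, {b.repr ((α p.1.1).1 * b p.2.1) p.2.2}) ∪
      (⋃ j, {b.repr B j}) ∪ ⋃ p : J × J, {(b p.1 * b p.2).trace} : Set ℂ).Finite :=
    ((Set.finite_iUnion fun _ => Set.finite_singleton _).union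
      (Set.finite_iUnion fun _ => Set.finite_singleton _)).union
      (Set.finite_iUnion fun _ => Set.finite_singleton _)
  have hfd : FiniteDimensional ℚ E := by
    rw [hE]
    have := hfin.to_subtype
    refine IntermediateField.finiteDimensional_adjoin fun z hz => ?_
    rcases hz with (hz | hz) | hz
    · obtain ⟨p, hp⟩ := Set.mem_iUnion.1 hz
      rw [Set.mem_singleton_iff.1 hp]
      obtain ⟨g, hg⟩ := hb.mem p.2.1
      rw [hg]
      have := hb.coord_alg (p.1.1 * g) p.2.2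
      rwa [map_mul] at this
    · obtain ⟨p, hp⟩ := Set.mem_iUnion.1 hz
      rw [Set.mem_singleton_iff.1 hp]
      exact hB p
    · obtain ⟨p, hp⟩ := Set.mem_iUnion.1 hz
      rw [Set.mem_singleton_iff.1 hp]
      exact (hb.gram_int p.1 p.2).tower_top
  have h1 : ∀ s ∈ S, ∀ j l, b.repr ((α s).1 * b j) l ∈ E := by
    intro s hs j l
    rw [hE]
    exact IntermediateField.subset_adjoin _ _ (Or.inl (Or.inl
      (Set.mem_iUnion.2 ⟨(⟨s, hs⟩, j, l), rfl⟩)))
  have h2 : ∀ j, b.repr B j ∈ E := by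
    intro j
    rw [hE]
    exact IntermediateField.subset_adjoin _ _ (Or.inl (Or.inr (Set.mem_iUnion.2 ⟨j, rfl⟩)))
  have h3 : ∀ i j, (b i * b j).trace ∈ E := by
    intro i j
    rw [hE]
    exact IntermediateField.subset_adjoin _ _ (Or.inr (Set.mem_iUnion.2 ⟨(i, j), rfl⟩))
  have h4 : ∀ g, ∀ M : Matrix (Fin n) (Fin n) ℂ, (∀ l, b.repr M l ∈ E) →
      ∀ l, b.repr ((α g).1 * M) l ∈ E := by
    intro g
    have hg : g ∈ Submonoid.closure (S : Set Γ) := by
      rw [hS]
      exact Submonoid.mem_top g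
    induction hg using Submonoid.closure_induction with
    | mem s hs =>
      intro M hM l
      have h5 : (α s).1 * M = ∑ j, b.repr M j • ((α s).1 * b j) := by
        conv_lhs => rw [← b.sum_repr M, Matrix.mul_sum]
        refine Finset.sum_congr rfl fun j _ => ?_
        rw [Matrix.mul_smul]
      rw [h5, map_sum, Finsupp.finsetSum_apply]
      refine sum_mem fun j _ => ?_
      rw [map_smul, Finsupp.smul_apply, smul_eq_mul]
      exact mul_mem (hM j) (h1 s hs j l)
    | one =>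
      intro M hM l
      rw [map_one]
      change b.repr ((1 : Matrix (Fin n) (Fin n) ℂ) * M) l ∈ E
      rw [Matrix.one_mul]
      exact hM l
    | mul x y _ _ hx hy =>
      intro M hM l
      have h5 : (α (x * y)).1 = (α x).1 * (α y).1 := by
        rw [map_mul α]
        rfl
      rw [h5, Matrix.mul_assoc]
      exact hx _ (hy M hM) l
  refine ⟨E, hfd, fun g i => ?_⟩
  have h5 : (b i * ((α g).1 * B)).trace = ∑ l, b.repr ((α g).1 * B) l * (b i * b l).trace := by
    conv_lhs => rw [← b.sum_repr ((α g).1 * B), Matrix.mul_sum, Matrix.trace_sum]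
    refine Finset.sum_congr rfl fun l _ => ?_
    rw [Matrix.mul_smul, Matrix.trace_smul, smul_eq_mul]
  rw [h5]
  exact sum_mem fun l _ => mul_mem (h4 g B h2 l) (h3 i l)

/-- Submodules of `Zb ^ n` spanned by vectors with entries in a number field are finitely
generated. -/
theorem fg_of_field {n : ℕ} {Γ : Type*} (z : Γ → Fin n → Zb) (E : IntermediateField ℚ ℂ)
    (hE : FiniteDimensional ℚ E) (hz : ∀ g i, (z g i : ℂ) ∈ E) :
    (Submodule.span Zb (Set.range z)).FG := by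
  have : NumberField E := { to_charZero := inferInstance, to_finiteDimensional := hE }
  have h1 : ∀ g i, ∃ w : 𝓞 E, phiO (algebraMap E ℂ) w = (z g i : ℂ) := fun g i =>
    exists_O_of_int (hz g i) (z g i).2
  choose y hy using h1
  obtain ⟨s', hs', hs''⟩ := (Submodule.fg_span_iff_fg_span_finset_subset (R := 𝓞 E)
    (Set.range fun g i => y g i)).1 (IsNoetherian.noetherian _)
  have hch : ∀ v : s', ∃ g, (fun i => y g i) = v.1 := fun v => hs' v.2
  choose γ hγ using hch
  have h2 : Submodule.span Zb (Set.range z) = Submodule.span Zb (Set.range fun v : s' => z (γ v)) := by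
    refine le_antisymm (Submodule.span_le.2 ?_) (Submodule.span_mono ?_)
    · rintro _ ⟨g, rfl⟩
      have h3 : (fun i => y g i) ∈ Submodule.span (𝓞 E) (s' : Set (Fin n → 𝓞 E)) := by
        rw [← hs'']
        exact Submodule.subset_span ⟨g, rfl⟩
      have h4 : ∀ u ∈ Submodule.span (𝓞 E) (s' : Set (Fin n → 𝓞 E)),
          (fun i => toZb (u i)) ∈ Submodule.span Zb (Set.range fun v : s' => z (γ v)) := by
        intro u hu
        induction hu using Submodule.span_induction with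
        | mem u hu =>
          refine Submodule.subset_span ⟨⟨u, hu⟩, ?_⟩
          funext i
          apply Subtype.ext
          change (z (γ ⟨u, hu⟩) i : ℂ) = phiO (algebraMap E ℂ) (u i)
          rw [← hy, show y (γ ⟨u, hu⟩) i = u i from congrFun (hγ ⟨u, hu⟩) i]
        | zero =>
          have : (fun i => toZb ((0 : Fin n → 𝓞 E) i)) = 0 := by
            funext i
            apply Subtype.ext
            change phiO (algebraMap E ℂ) 0 = 0
            rw [map_zero]
          rw [this]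
          exact Submodule.zero_mem _
        | add u u' _ _ h h' =>
          have : (fun i => toZb ((u + u') i)) = (fun i => toZb (u i)) + fun i => toZb (u' i) := by
            funext i
            apply Subtype.ext
            change phiO (algebraMap E ℂ) (u i + u' i) = phiO (algebraMap E ℂ) (u i) +
              phiO (algebraMap E ℂ) (u' i)
            rw [map_add]
          rw [this]
          exact Submodule.add_mem _ h h'
        | smul c u _ h =>
          have : (fun i => toZb ((c • u) i)) = toZb c • fun i => toZb (u i) := by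
            funext i
            apply Subtype.ext
            change phiO (algebraMap E ℂ) (c * u i) = phiO (algebraMap E ℂ) c *
              phiO (algebraMap E ℂ) (u i)
            rw [map_mul]
          rw [this]
          exact Submodule.smul_mem _ _ h
      have h5 := h4 _ h3
      have h6 : (fun i => toZb (y g i)) = z g := by
        funext i
        apply Subtype.ext
        change phiO (algebraMap E ℂ) (y g i) = (z g i : ℂ)
        rw [hy]
      rw [h6] at h5
      exact h5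
    · rintro _ ⟨v, rfl⟩
      exact ⟨γ v, rfl⟩
  rw [h2]
  exact Submodule.fg_span (Set.finite_range _)

/-- **Irreducible representations of finitely generated groups with integral traces are conjugate
to representations over the ring of integers of a number field.** -/
theorem exists_integral {Γ : Type*} [Group Γ] [Group.FG Γ] {n : ℕ}
    (α : Γ →* SpecialLinearGroup (Fin n) ℂ)
    (hs : Submodule.span ℂ (Set.range fun g => (α g).1) = ⊤)
    (ht : ∀ g, IsIntegral ℤ (α g).1.trace) :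
    ∃ L : IntermediateField ℚ ℂ, FiniteDimensional ℚ L ∧ ∃ Q : (Matrix (Fin n) (Fin n) ℂ)ˣ,
      ∀ g i j, ∃ a : 𝓞 L, (Q.1 * (α g).1 * (Q⁻¹).1) i j = a.1.1 := by
  classical
  rcases Nat.eq_zero_or_pos n with hn | hn
  · subst hn
    exact ⟨⊥, inferInstance, 1, fun g i => i.elim0⟩
  obtain ⟨S, hS⟩ := (Monoid.fg_def (M := Γ)).1 (Group.fg_iff_monoid_fg.1 inferInstance)
  obtain ⟨J, i1, i2, b, hbm⟩ := exists_basis _ hs
  have hb : GB α b := ⟨fun j => (by
    obtain ⟨g, hg⟩ := hbm j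
    exact ⟨g, hg.symm⟩), ht⟩
  obtain ⟨B₀, w₀, f, hB₀, hw₀, hf, hB₀f⟩ := exists_rank_one hb hn
  obtain ⟨D, hD, hDi, hDB⟩ := common_den (fun j => b.repr B₀ j) hB₀
  obtain ⟨B, w, hB, hw, hBf, hBi⟩ : ∃ (B : Matrix (Fin n) (Fin n) ℂ) (w : Fin n → ℂ), Alg b B ∧
      w ≠ 0 ∧ B = Matrix.vecMulVec w f ∧ ∀ j, IsIntegral ℤ (b.repr B j) := by
    refine ⟨D • B₀, D • w₀, hB₀.smul hDi.tower_top, smul_ne_zero hD hw₀, ?_, fun j => ?_⟩
    · rw [hB₀f, Matrix.smul_vecMulVec]
    · rw [map_smul, Finsupp.smul_apply, smul_eq_mul]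
      exact hDB j
  -- the functionals
  have htr : ∀ X Y : Matrix (Fin n) (Fin n) ℂ, (X * (Y * B)).trace = (f ᵥ* X) ⬝ᵥ (Y *ᵥ w) := by
    intro X Y
    rw [hBf, Matrix.mul_vecMulVec, Matrix.mul_vecMulVec, Matrix.trace_vecMulVec,
      dotProduct_comm, Matrix.dotProduct_mulVec]
  have hspf : Submodule.span ℂ (Set.range fun j => f ᵥ* b j) = ⊤ := by
    rw [eq_top_iff]
    intro v _
    obtain ⟨i, hi⟩ := Function.ne_iff.1 hf
    obtain ⟨X, hX⟩ : ∃ X : Matrix (Fin n) (Fin n) ℂ, f ᵥ* X = v := by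
      refine ⟨Matrix.vecMulVec (Pi.single i (f i)⁻¹) v, ?_⟩
      rw [Matrix.vecMul_vecMulVec, dotProduct_single, mul_inv_cancel₀ hi, one_smul]
    rw [← hX, ← b.sum_repr X, Matrix.vecMul_sum]
    refine Submodule.sum_mem _ fun j _ => ?_
    rw [Matrix.vecMul_smul]
    exact Submodule.smul_mem _ _ (Submodule.subset_span ⟨j, rfl⟩)
  obtain ⟨φ, hφ, hφu⟩ := exists_sub_basis _ hspf
  choose c hc using hφ
  obtain ⟨Φ, hΦ⟩ := (Matrix.isUnit_iff_isUnit_det (Matrix.of φ)).2 hφu
  have hΦv : ∀ v a, (Φ.1 *ᵥ v) a = (f ᵥ* b (c a)) ⬝ᵥ v := by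
    intro v a
    have h1 : (fun j => Matrix.of φ a j) = f ᵥ* b (c a) := (hc a).symm
    rw [show Φ.1 = Matrix.of φ from hΦ, Matrix.mulVec, h1]
  have hΦtr : ∀ g a, (Φ.1 *ᵥ ((α g).1 *ᵥ w)) a = (b (c a) * ((α g).1 * B)).trace := by
    intro g a
    rw [hΦv, htr]
  have hΦint : ∀ g a, IsIntegral ℤ ((Φ.1 *ᵥ ((α g).1 *ᵥ w)) a) := by
    intro g a
    have h1 : (b (c a) * ((α g).1 * B)).trace =
        ∑ j, b.repr B j * (b (c a) * ((α g).1 * b j)).trace := by
      conv_lhs => rw [← b.sum_repr B, Matrix.mul_sum, Matrix.mul_sum, Matrix.trace_sum]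
      refine Finset.sum_congr rfl fun j _ => ?_
      rw [Matrix.mul_smul, Matrix.mul_smul, Matrix.trace_smul, smul_eq_mul]
    rw [hΦtr, h1]
    refine IsIntegral.sum _ fun j _ => (hBi j).mul ?_
    obtain ⟨g₁, hg₁⟩ := hb.mem (c a)
    obtain ⟨g₂, hg₂⟩ := hb.mem j
    rw [hg₁, hg₂]
    have := ht (g₁ * (g * g₂))
    rwa [map_mul, map_mul] at this
  obtain ⟨z, hz⟩ : ∃ z : Γ → Fin n → Zb, ∀ g a, (z g a : ℂ) = (Φ.1 *ᵥ ((α g).1 *ᵥ w)) a :=
    ⟨fun g a => ⟨_, hΦint g a⟩, fun g a => rfl⟩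
  obtain ⟨E, hE, hEt⟩ := exists_E hb S hS hB
  have hfg := fg_of_field z E hE fun g a => by
    rw [hz, hΦtr]
    exact hEt g (c a)
  have := bezoutZb
  obtain ⟨P₀, hP₀⟩ := fg_matrix n _ hfg
  obtain ⟨P, hPm⟩ : ∃ P : Matrix (Fin n) (Fin n) ℂ, ∀ i j, P i j = (P₀ i j : ℂ) :=
    ⟨fun i j => (P₀ i j : ℂ), fun i j => rfl⟩
  have hPv : ∀ (u : Fin n → Zb) a, ((P₀ *ᵥ u) a : ℂ) = (P *ᵥ fun i => (u i : ℂ)) a := by
    intro u a
    have h1 : ((P₀ *ᵥ u) a : ℂ) = (algebraMap Zb ℂ) (∑ i, P₀ a i * u i) := rfl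
    rw [h1, map_sum]
    refine Finset.sum_congr rfl fun i _ => ?_
    rw [map_mul]
    change (P₀ a i : ℂ) * (u i : ℂ) = P a i * (u i : ℂ)
    rw [hPm]
  -- the lattice spans
  have hspan : ∀ v : Fin n → ℂ, ∃ x, P *ᵥ x = v := by
    intro v
    have h1 : ∀ g, ∃ x, P *ᵥ x = Φ.1 *ᵥ ((α g).1 *ᵥ w) := by
      intro g
      obtain ⟨u, hu⟩ := (hP₀ (z g)).1 (Submodule.subset_span ⟨g, rfl⟩)
      refine ⟨fun i => (u i : ℂ), ?_⟩
      funext a
      rw [← hPv, ← hu, hz]
    obtain ⟨i, hi⟩ := Function.ne_iff.1 hw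
    obtain ⟨X, hX⟩ : ∃ X : Matrix (Fin n) (Fin n) ℂ, X *ᵥ w = (Φ⁻¹).1 *ᵥ v := by
      refine ⟨Matrix.vecMulVec ((Φ⁻¹).1 *ᵥ v) (Pi.single i (w i)⁻¹), ?_⟩
      rw [Matrix.vecMulVec_mulVec, single_dotProduct, inv_mul_cancel₀ hi, MulOpposite.op_one,
        one_smul]
    have h2 : ∀ j, ∃ x, P *ᵥ x = Φ.1 *ᵥ (b j *ᵥ w) := by
      intro j
      obtain ⟨g, hg⟩ := hb.mem j
      rw [hg]
      exact h1 g
    choose x hx using h2
    refine ⟨∑ j, b.repr X j • x j, ?_⟩
    rw [Matrix.mulVec_sum]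
    have h3 : Φ.1 *ᵥ (X *ᵥ w) = v := by
      rw [hX, Matrix.mulVec_mulVec, Φ.mul_inv, Matrix.one_mulVec]
    rw [← h3]
    conv_rhs => rw [← b.sum_repr X, Matrix.sum_mulVec, Matrix.mulVec_sum]
    refine Finset.sum_congr rfl fun j _ => ?_
    rw [Matrix.mulVec_smul, hx, Matrix.smul_mulVec, Matrix.mulVec_smul]
  have hPu : IsUnit P := by
    rw [← Matrix.mulVec_surjective_iff_isUnit]
    exact hspan
  obtain ⟨PU, hPU⟩ := hPu
  -- the conjugated representation has integral entries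
  obtain ⟨Q, hQ⟩ : ∃ Q : (Matrix (Fin n) (Fin n) ℂ)ˣ, Q = PU⁻¹ * Φ := ⟨_, rfl⟩
  have hstab : ∀ g, ∀ v ∈ Submodule.span Zb (Set.range z), ∃ v' ∈ Submodule.span Zb (Set.range z),
      (fun a => (v' a : ℂ)) = (Φ.1 * (α g).1 * (Φ⁻¹).1) *ᵥ fun a => (v a : ℂ) := by
    intro g v hv
    induction hv using Submodule.span_induction with
    | mem v hv =>
      obtain ⟨g', rfl⟩ := hv
      refine ⟨z (g * g'), Submodule.subset_span ⟨_, rfl⟩, ?_⟩
      have h1 : (fun a => (z g' a : ℂ)) = Φ.1 *ᵥ ((α g').1 *ᵥ w) := funext fun a => hz g' a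
      have h2 : (fun a => (z (g * g') a : ℂ)) = Φ.1 *ᵥ ((α (g * g')).1 *ᵥ w) :=
        funext fun a => hz (g * g') a
      have h3 : (α (g * g')).1 = (α g).1 * (α g').1 := by
        rw [map_mul α]
        rfl
      rw [h1, h2, h3]
      simp only [Matrix.mulVec_mulVec, Matrix.mul_assoc]
      rw [← Matrix.mul_assoc (Φ⁻¹).1, Φ.inv_mul, Matrix.one_mul]
    | zero =>
      refine ⟨0, Submodule.zero_mem _, ?_⟩
      have h1 : (fun a => (((0 : Fin n → Zb) a : Zb) : ℂ)) = 0 := rfl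
      rw [h1, Matrix.mulVec_zero]
    | add u u' _ _ h h' =>
      obtain ⟨v, hv, h1⟩ := h
      obtain ⟨v', hv', h1'⟩ := h'
      refine ⟨v + v', Submodule.add_mem _ hv hv', ?_⟩
      have h2 : (fun a => (((v + v') a : Zb) : ℂ)) = (fun a => (v a : ℂ)) + fun a => (v' a : ℂ) :=
        rfl
      have h3 : (fun a => (((u + u') a : Zb) : ℂ)) = (fun a => (u a : ℂ)) + fun a => (u' a : ℂ) :=
        rfl
      rw [h2, h3, Matrix.mulVec_add, h1, h1']
    | smul t u _ h =>
      obtain ⟨v, hv, h1⟩ := h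
      refine ⟨t • v, Submodule.smul_mem _ t hv, ?_⟩
      have h2 : (fun a => (((t • v) a : Zb) : ℂ)) = (t : ℂ) • fun a => (v a : ℂ) := rfl
      have h3 : (fun a => (((t • u) a : Zb) : ℂ)) = (t : ℂ) • fun a => (u a : ℂ) := rfl
      rw [h2, h3, Matrix.mulVec_smul, h1]
  have hent : ∀ g i j, IsIntegral ℤ ((Q.1 * (α g).1 * (Q⁻¹).1) i j) := by
    intro g i j
    have h0 : Q.1 * (α g).1 * (Q⁻¹).1 = (PU⁻¹).1 * ((Φ.1 * (α g).1 * (Φ⁻¹).1) * P) := by
      rw [hQ, ← hPU, _root_.mul_inv_rev, inv_inv, Units.val_mul, Units.val_mul]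
      simp only [Matrix.mul_assoc]
    obtain ⟨v', hv', h1⟩ := hstab g (P₀ *ᵥ Pi.single j 1) ((hP₀ _).2 ⟨_, rfl⟩)
    obtain ⟨u, rfl⟩ := (hP₀ v').1 hv'
    have h2 : (fun a => ((P₀ *ᵥ Pi.single j 1 : Fin n → Zb) a : ℂ)) = P *ᵥ Pi.single j 1 := by
      funext a
      rw [hPv]
      congr 2
      funext i
      rw [Pi.single_apply, Pi.single_apply]
      split_ifs <;> rfl
    have h3 : (fun a => ((P₀ *ᵥ u) a : ℂ)) = P *ᵥ fun i => (u i : ℂ) := funext fun a => hPv u a
    rw [h2, h3] at h1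
    have h4 : (Q.1 * (α g).1 * (Q⁻¹).1) *ᵥ Pi.single j 1 = fun i => (u i : ℂ) := by
      rw [h0, ← Matrix.mulVec_mulVec, ← Matrix.mulVec_mulVec, ← h1, ← hPU, Matrix.mulVec_mulVec,
        PU.inv_mul, Matrix.one_mulVec]
    have h5 := congrFun h4 i
    rw [Matrix.mulVec_single_one] at h5
    change (Q.1 * (α g).1 * (Q⁻¹).1) i j = (u i : ℂ) at h5
    rw [h5]
    exact (u i).2
  -- the number field
  obtain ⟨L, hL⟩ : ∃ L : IntermediateField ℚ ℂ, L = IntermediateField.adjoin ℚ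
      (⋃ p : S × Fin n × Fin n, {(Q.1 * (α p.1.1).1 * (Q⁻¹).1) p.2.1 p.2.2}) := ⟨_, rfl⟩
  have hfd : FiniteDimensional ℚ L := by
    rw [hL]
    have hfin : (⋃ p : S × Fin n × Fin n,
        {(Q.1 * (α p.1.1).1 * (Q⁻¹).1) p.2.1 p.2.2} : Set ℂ).Finite :=
      Set.finite_iUnion fun _ => Set.finite_singleton _
    have := hfin.to_subtype
    refine IntermediateField.finiteDimensional_adjoin fun z hz => ?_
    obtain ⟨p, hp⟩ := Set.mem_iUnion.1 hz
    rw [Set.mem_singleton_iff.1 hp]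
    exact (hent _ _ _).tower_top
  have hmem : ∀ g i j, (Q.1 * (α g).1 * (Q⁻¹).1) i j ∈ L := by
    intro g
    have hg : g ∈ Submonoid.closure (S : Set Γ) := by
      rw [hS]
      exact Submonoid.mem_top g
    induction hg using Submonoid.closure_induction with
    | mem s hs =>
      intro i j
      rw [hL]
      exact IntermediateField.subset_adjoin _ _ (Set.mem_iUnion.2 ⟨(⟨s, hs⟩, i, j), rfl⟩)
    | one =>
      intro i j
      rw [map_one]
      change (Q.1 * (1 : Matrix (Fin n) (Fin n) ℂ) * (Q⁻¹).1) i j ∈ L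
      rw [Matrix.mul_one, Q.mul_inv, Matrix.one_apply]
      split_ifs
      · exact L.one_mem
      · exact L.zero_mem
    | mul x y _ _ hx hy =>
      intro i j
      have h1 : (α (x * y)).1 = (α x).1 * (α y).1 := by
        rw [map_mul α]
        rfl
      have h2 : Q.1 * (α (x * y)).1 * (Q⁻¹).1 =
          (Q.1 * (α x).1 * (Q⁻¹).1) * (Q.1 * (α y).1 * (Q⁻¹).1) := by
        rw [h1]
        calc Q.1 * ((α x).1 * (α y).1) * (Q⁻¹).1
            = Q.1 * (α x).1 * 1 * (α y).1 * (Q⁻¹).1 := by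
              simp only [Matrix.mul_assoc, Matrix.one_mul]
          _ = _ := by
              rw [← Q.inv_mul]
              simp only [Matrix.mul_assoc]
      rw [h2, Matrix.mul_apply]
      exact sum_mem fun l _ => mul_mem (hx i l) (hy l j)
  refine ⟨L, hfd, Q, fun g i j => ?_⟩
  obtain ⟨a, ha⟩ := exists_O_of_int (hmem g i j) (hent g i j)
  exact ⟨a, ha.symm⟩

end Vale.Agent.P002.H252
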