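import Vale.Agent.P002.H252.Ba5
import Vale.Agent.P002.H252.Tr5

/-!
# The set of semisimple representations with given classes is constructible
-/

namespace Vale.Agent.P002.H252

open Matrix Vale.Agent.P002R.Orb Vale.Agent.P002.H326J

theorem indep_iff_minor {d : ℕ} {K : Type} [Finite K] (v : Fin d → K → ℂ) :
    LinearIndependent ℂ v ↔ ∃ c : Fin d → K, (Matrix.of fun a b => v a (c b)).det ≠ 0 := by
  constructor
  · intro h
    have hs : Submodule.span ℂ (Set.range fun (k : K) (a : Fin d) => v a k) = ⊤ := by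
      by_contra hne
      obtain ⟨f, hf0, hf⟩ := Submodule.exists_le_ker_of_lt_top _ (lt_top_iff_ne_top.2 hne)
      apply hf0
      have h1 : ∀ x : Fin d → ℂ, f x = ∑ a, f (Pi.single a 1) * x a := by
        intro x
        conv_lhs => rw [← Finset.univ_sum_single x]
        rw [map_sum]
        refine Finset.sum_congr rfl fun a _ => ?_
        have h2 : (Pi.single a (x a) : Fin d → ℂ) = x a • Pi.single a 1 := by
          rw [← Pi.single_smul, smul_eq_mul, mul_one]
        rw [h2, map_smul, smul_eq_mul, mul_comm]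
      have h2 : ∑ a, f (Pi.single a 1) • v a = 0 := by
        funext k
        have h3 : f (fun a => v a k) = 0 := hf (Submodule.subset_span ⟨k, rfl⟩)
        rw [h1] at h3
        rw [Finset.sum_apply]
        exact h3
      have h3 := Fintype.linearIndependent_iff.1 h _ h2
      refine LinearMap.ext fun x => ?_
      rw [h1, LinearMap.zero_apply]
      exact Finset.sum_eq_zero fun a _ => by rw [h3 a, zero_mul]
    obtain ⟨u, hu, hdet⟩ := exists_sub_basis _ hs
    choose c hc using hu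
    refine ⟨c, ?_⟩
    have h1 : (Matrix.of fun a b => v a (c b)) = (Matrix.of u).transpose := by
      ext a b
      rw [Matrix.transpose_apply, Matrix.of_apply, Matrix.of_apply, ← hc b]
    rw [h1, Matrix.det_transpose]
    exact hdet.ne_zero
  · rintro ⟨c, hc⟩
    rw [Fintype.linearIndependent_iff]
    intro g hg i
    by_contra hgi
    refine hc (Matrix.exists_vecMul_eq_zero_iff.1 ⟨g, fun h => hgi (congrFun h i), ?_⟩)
    funext b
    have h1 := congrFun hg (c b)
    rw [Finset.sum_apply] at h1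
    exact h1

theorem indep_iff_minor' {d r : ℕ} (v : Fin d → Matrix (Fin r) (Fin r) ℂ) :
    LinearIndependent ℂ v ↔
      ∃ c : Fin d → Fin r × Fin r, (Matrix.of fun a b => v a (c b).1 (c b).2).det ≠ 0 := by
  have h1 : LinearIndependent ℂ v ↔
      LinearIndependent ℂ (fun (a : Fin d) (p : Fin r × Fin r) => v a p.1 p.2) := by
    obtain ⟨e, he⟩ : ∃ e : Matrix (Fin r) (Fin r) ℂ ≃ₗ[ℂ] (Fin r × Fin r → ℂ),
        ∀ M p, e M p = M p.1 p.2 :=
      ⟨(LinearEquiv.curry ℂ ℂ (Fin r) (Fin r)).symm, fun M p => rfl⟩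
    have h2 : (fun (a : Fin d) (p : Fin r × Fin r) => v a p.1 p.2) = e ∘ v := by
      funext a p
      exact (he _ _).symm
    rw [h2]
    exact (LinearMap.linearIndependent_iff e.toLinearMap e.ker).symm
  rw [h1, indep_iff_minor]

variable {ι : Type} {r : ℕ}

/-- the value of a representation of the free group, as a matrix -/
def matHom (X : ι → SpecialLinearGroup (Fin r) ℂ) : FreeGroup ι →* Matrix (Fin r) (Fin r) ℂ where
  toFun w := (FreeGroup.lift X w).1
  map_one' := by rw [map_one]; rfl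
  map_mul' x y := by rw [map_mul]; rfl

theorem matHom_apply (X : ι → SpecialLinearGroup (Fin r) ℂ) (w : FreeGroup ι) :
    matHom X w = (FreeGroup.lift X w).1 := rfl

theorem isInv_iff (X : ι → SpecialLinearGroup (Fin r) ℂ) (W : Submodule ℂ (Fin r → ℂ)) :
    IsInv X W ↔ ∀ w, ∀ v ∈ W, Matrix.toLin' (matHom X w) v ∈ W := by
  constructor
  · intro h w
    induction w using FreeGroup.induction_on with
    | C1 =>
      intro v hv
      rw [map_one, Matrix.toLin'_one, LinearMap.id_apply]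
      exact hv
    | of p =>
      intro v hv
      have h1 : matHom X (FreeGroup.of p) = (X p).1 := by
        rw [matHom_apply, FreeGroup.lift_apply_of]
      rw [h1, Matrix.toLin'_apply]
      exact h p v hv
    | inv_of p hp =>
      intro v hv
      -- `X p` maps `W` onto `W`
      have h1 : Function.Injective (Matrix.toLin' (matHom X (FreeGroup.of p))) := by
        have h2 : Matrix.toLin' (matHom X (FreeGroup.of p)⁻¹) ∘ₗ
            Matrix.toLin' (matHom X (FreeGroup.of p)) = LinearMap.id := by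
          rw [← Matrix.toLin'_mul, ← map_mul, inv_mul_cancel, map_one, Matrix.toLin'_one]
        exact Function.LeftInverse.injective (g := Matrix.toLin' (matHom X (FreeGroup.of p)⁻¹))
          fun v => LinearMap.congr_fun h2 v
      obtain ⟨f, hf⟩ : ∃ f : W →ₗ[ℂ] W, ∀ v : W, (f v : Fin r → ℂ) =
          Matrix.toLin' (matHom X (FreeGroup.of p)) v.1 :=
        ⟨(Matrix.toLin' (matHom X (FreeGroup.of p))).restrict hp, fun v => rfl⟩
      have h2 : Function.Injective f := fun a b hab => Subtype.ext (h1 (by rw [← hf, ← hf, hab]))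
      obtain ⟨u, hu⟩ := LinearMap.surjective_of_injective h2 ⟨v, hv⟩
      have h3 : Matrix.toLin' (matHom X (FreeGroup.of p)) u.1 = v := by
        rw [← hf, hu]
      rw [← h3]
      have h4 : Matrix.toLin' (matHom X (FreeGroup.of p)⁻¹)
          (Matrix.toLin' (matHom X (FreeGroup.of p)) u.1) = u.1 := by
        rw [← LinearMap.comp_apply, ← Matrix.toLin'_mul, ← map_mul, inv_mul_cancel, map_one,
          Matrix.toLin'_one, LinearMap.id_apply]
      rw [h4]
      exact u.2
    | mul x y hx hy =>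
      intro v hv
      rw [map_mul, Matrix.toLin'_mul, LinearMap.comp_apply]
      exact hx _ (hy v hv)
  · intro h p v hv
    have h1 := h (FreeGroup.of p) v hv
    rw [matHom_apply, FreeGroup.lift_apply_of, Matrix.toLin'_apply] at h1
    exact h1

theorem ss_iff (X : ι → SpecialLinearGroup (Fin r) ℂ) :
    (∀ W, IsInv X W → ∃ W', IsInv X W' ∧ IsCompl W W') ↔
      SSf fun w => Matrix.toLin' (matHom X w) := by
  unfold SSf
  constructor
  · intro h W hW
    obtain ⟨W', h1, h2⟩ := h W ((isInv_iff X W).2 hW)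
    exact ⟨W', (isInv_iff X W').1 h1, h2⟩
  · intro h W hW
    obtain ⟨W', h1, h2⟩ := h W ((isInv_iff X W).1 hW)
    exact ⟨W', (isInv_iff X W').2 h1, h2⟩

/-- restriction of the variables -/
theorem lift_comp_inl {κ : Type} (X : ι ⊕ κ → SpecialLinearGroup (Fin r) ℂ) (w : FreeGroup ι) :
    FreeGroup.lift (fun p => X (Sum.inl p)) w = FreeGroup.lift X (FreeGroup.map Sum.inl w) := by
  have h : FreeGroup.lift (fun p => X (Sum.inl p)) =
      (FreeGroup.lift X).comp (FreeGroup.map Sum.inl) := by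
    apply FreeGroup.ext_hom
    intro p
    rw [FreeGroup.lift_apply_of, MonoidHom.comp_apply, FreeGroup.map.of, FreeGroup.lift_apply_of]
  rw [h]
  rfl

theorem BPT_YW [Finite ι] (R : Set (FreeGroup ι)) {s : ℕ} (w : Fin s → FreeGroup ι)
    (C : Fin s → SpecialLinearGroup (Fin r) ℂ)
    (P : Set (MvPolynomial (ι × Fin r × Fin r) ℂ)) :
    BPT {X ∈ YW R w C | ∃ F ∈ P, value F X ≠ 0} := by
  -- words in the variables
  obtain ⟨e, he⟩ : ∃ e : FreeGroup ι → FreeGroup (ι ⊕ Fin s), e = FreeGroup.map Sum.inl :=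
    ⟨_, rfl⟩
  have hword : ∀ (x : FreeGroup ι) (X : ι ⊕ Fin s → SpecialLinearGroup (Fin r) ℂ),
      FreeGroup.lift (fun p => X (Sum.inl p)) x = FreeGroup.lift X (e x) := fun x X => by
    rw [he, lift_comp_inl]
  have hw : ∀ x i j, PFn fun X : ι ⊕ Fin s → SpecialLinearGroup (Fin r) ℂ =>
      (FreeGroup.lift (fun p => X (Sum.inl p)) x).1 i j := by
    intro x i j
    obtain ⟨F, hF⟩ := PFn.word (ι := ι ⊕ Fin s) (r := r) (e x) i j
    refine ⟨F, fun X => ?_⟩
    rw [← hF]
    change (FreeGroup.lift (fun p => X (Sum.inl p)) x).1 i j = _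
    rw [hword]
  -- the closed conditions
  obtain ⟨J, hJ⟩ : ∃ J : ℕ → Set ((ι ⊕ Fin s → SpecialLinearGroup (Fin r) ℂ) → ℂ),
      ∀ d, J d = {f | ∃ x ∈ R, ∃ i j, f = fun X =>
          (FreeGroup.lift (fun p => X (Sum.inl p)) x).1 i j - (1 : Matrix (Fin r) (Fin r) ℂ) i j} ∪
        {f | ∃ k i j, f = fun X => (∑ l, (FreeGroup.lift (fun p => X (Sum.inl p)) (w k)).1 i l *
          (X (Sum.inr k)).1 l j) - ∑ l, (X (Sum.inr k)).1 i l * (C k).1 l j} ∪
        {f | ∃ (v : Fin (d + 1) → FreeGroup ι) (c : Fin (d + 1) → Fin r × Fin r), f = fun X =>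
          (Matrix.of fun a b => (FreeGroup.lift (fun p => X (Sum.inl p)) (v a)).1
            (c b).1 (c b).2).det} := ⟨_, fun d => rfl⟩
  have hJP : ∀ d, ∀ f ∈ J d, PFn f := by
    intro d f hf
    rw [hJ] at hf
    rcases hf with (⟨x, -, i, j, rfl⟩ | ⟨k, i, j, rfl⟩) | ⟨v, c, rfl⟩
    · exact (hw x i j).sub (PFn.const _)
    · have h1 : ∀ i j, PFn fun X : ι ⊕ Fin s → SpecialLinearGroup (Fin r) ℂ =>
          (X (Sum.inr k)).1 i j := fun i j => ⟨MvPolynomial.X (Sum.inr k, i, j), fun X => by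
        rw [value_eq, MvPolynomial.eval_X]
        rfl⟩
      exact (PFn.sum _ fun l => (hw _ i l).mul (h1 l j)).sub
        (PFn.sum _ fun l => (h1 i l).mul (PFn.const _))
    · exact PFn.det fun a b => hw _ _ _
  -- the open conditions
  obtain ⟨Q, hQ⟩ : ∃ Q : ℕ → Set ((ι ⊕ Fin s → SpecialLinearGroup (Fin r) ℂ) → ℂ),
      ∀ d, Q d = {f | ∃ u : Fin d → FreeGroup ι, ∃ F ∈ P, f = fun X =>
        (gramW (matHom fun p => X (Sum.inl p)) u).det * value F (fun p => X (Sum.inl p))} :=
    ⟨_, fun d => rfl⟩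
  have hQP : ∀ d, ∀ f ∈ Q d, PFn f := by
    intro d f hf
    rw [hQ] at hf
    obtain ⟨u, F, -, rfl⟩ := hf
    refine PFn.mul (PFn.det (M := fun i j (X : ι ⊕ Fin s → SpecialLinearGroup (Fin r) ℂ) =>
      (FreeGroup.lift (fun p => X (Sum.inl p)) (u i * u j)).1.trace) fun i j => ?_) ?_
    · exact PFn.sum _ fun k => hw _ k k
    · refine ⟨MvPolynomial.rename (fun p => (Sum.inl p.1, p.2)) F, fun X => ?_⟩
      rw [value_eq, MvPolynomial.eval_rename]
      rfl
  have key : {X ∈ YW R w C | ∃ F ∈ P, value F X ≠ 0} =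
      ⋃ d : Fin (r * r + 1), (fun (X : ι ⊕ Fin s → SpecialLinearGroup (Fin r) ℂ) (p : ι) =>
        X (Sum.inl p)) '' {X ∈ {X | ∀ f ∈ J d, f X = 0} | ∃ f ∈ Q d, f X ≠ 0} := by
    ext X
    rw [Set.mem_iUnion]
    constructor
    · rintro ⟨⟨⟨hrel, hss⟩, hc⟩, F, hF, hFX⟩
      obtain ⟨d, hd, hE, u, hu⟩ := (crit (matHom X)).1 ((ss_iff X).1 hss)
      have hc' : ∀ k, ∃ g : SpecialLinearGroup (Fin r) ℂ,
          FreeGroup.lift X (w k) * g = g * C k := by
        intro k
        obtain ⟨g, hg⟩ := isConj_iff.1 (hc k)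
        exact ⟨g, by rw [← hg]; group⟩
      choose g hg using hc'
      refine ⟨⟨d, by omega⟩, Sum.elim X g, ⟨?_, ?_⟩, ?_⟩
      · intro f hf
        rw [hJ] at hf
        rcases hf with (⟨x, hx, i, j, rfl⟩ | ⟨k, i, j, rfl⟩) | ⟨v, c, rfl⟩
        · have h1 := hrel x hx
          change (FreeGroup.lift X x).1 i j - _ = 0
          rw [h1]
          exact sub_self _
        · have h1 := congrArg (fun M : SpecialLinearGroup (Fin r) ℂ => M.1 i j) (hg k)
          exact sub_eq_zero.2 h1
        · have h1 := hE v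
          rw [indep_iff_minor'] at h1
          by_contra hne
          exact h1 ⟨c, hne⟩
      · refine ⟨fun X => (gramW (matHom fun p => X (Sum.inl p)) u).det *
          value F (fun p => X (Sum.inl p)), ?_, ?_⟩
        · rw [hQ]
          exact ⟨u, F, hF, rfl⟩
        · exact mul_ne_zero hu hFX
      · rfl
    · rintro ⟨⟨d, hd⟩, X', ⟨hX1, hX2⟩, rfl⟩
      obtain ⟨f, hf, hfX⟩ := hX2
      rw [hQ] at hf
      obtain ⟨u, F, hF, rfl⟩ := hf
      have hu : (gramW (matHom fun p => X' (Sum.inl p)) u).det ≠ 0 := left_ne_zero_of_mul hfX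
      have hFX : value F (fun p => X' (Sum.inl p)) ≠ 0 := right_ne_zero_of_mul hfX
      have hX1' : ∀ f ∈ J d, f X' = 0 := hX1
      rw [hJ] at hX1'
      refine ⟨⟨⟨fun x hx => ?_, ?_⟩, fun k => ?_⟩, F, hF, hFX⟩
      · ext i j
        exact sub_eq_zero.1 (hX1' _ (Or.inl (Or.inl ⟨x, hx, i, j, rfl⟩)))
      · rw [ss_iff, crit]
        refine ⟨d, by omega, fun v hv => ?_, u, hu⟩
        rw [indep_iff_minor'] at hv
        obtain ⟨c, hc⟩ := hv
        exact hc (hX1' _ (Or.inr ⟨v, c, rfl⟩))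
      · have h1 : FreeGroup.lift (fun p => X' (Sum.inl p)) (w k) * X' (Sum.inr k) =
            X' (Sum.inr k) * C k := by
          ext i j
          exact sub_eq_zero.1 (hX1' _ (Or.inl (Or.inr ⟨k, i, j, rfl⟩)))
        exact isConj_iff.2 ⟨X' (Sum.inr k), by rw [← h1]; group⟩
  rw [key]
  exact BPT.iUnion fun d => ((BPT_closed (J d) (hJP d)).inter_open (Q d) (hQP d)).restr Sum.inl

end Vale.Agent.P002.H252
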