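import Mathlib

/-!
# Constructible sets and countable coverings
-/

namespace Vale.Agent.P002.H252

open Cardinal

/-- a field that is a countably generated algebra over `ℂ` -/
theorem surjective_of_countable {κ : Type} [Field κ] [Algebra ℂ κ] (s : Set κ) (hs : s.Countable)
    (h : Algebra.adjoin ℂ s = ⊤) : Function.Surjective (algebraMap ℂ κ) := by
  have h1 : Module.rank ℂ κ ≤ ℵ₀ := by
    have h2 := Algebra.rank_adjoin_le (R := ℂ) s
    rw [h] at h2
    have h3 : Module.rank ℂ (⊤ : Subalgebra ℂ κ) = Module.rank ℂ κ :=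
      (Subalgebra.topEquiv (R := ℂ) (A := κ)).toLinearEquiv.rank_eq
    rw [h3] at h2
    exact h2.trans (max_le hs.le_aleph0 le_rfl)
  have h2 : ∀ x : κ, IsAlgebraic ℂ x := by
    intro x
    by_contra hx
    have hx' : Transcendental ℂ x := hx
    have h3 := hx'.linearIndependent_sub_inv.cardinal_le_rank
    have h4 := h3.trans h1
    have h5 : Cardinal.mk ℂ = Cardinal.continuum := Cardinal.mk_complex
    rw [h5] at h4
    exact absurd h4 (not_le.2 Cardinal.aleph0_lt_continuum)
  have : Algebra.IsAlgebraic ℂ κ := ⟨h2⟩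
  exact (IsAlgClosed.algebraMap_bijective_of_isIntegral (k := ℂ) (K := κ)).2

/-- A point of an irreducible variety at which countably many functions do not vanish. -/
theorem exists_point {σ : Type} [Finite σ] (P : Ideal (MvPolynomial σ ℂ)) [hP : P.IsPrime]
    (a : ℕ → MvPolynomial σ ℂ) (ha : ∀ n, a n ∉ P) :
    ∃ x : σ → ℂ, (∀ f ∈ P, MvPolynomial.eval x f = 0) ∧ ∀ n, MvPolynomial.eval x (a n) ≠ 0 := by
  classical
  obtain ⟨D, hD1, hD2, hD3⟩ : ∃ D : Type, ∃ _ : CommRing D, ∃ _ : Algebra ℂ D,
      ∃ f : MvPolynomial σ ℂ →ₐ[ℂ] D, IsDomain D ∧ Function.Surjective f ∧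
        ∀ x, f x = 0 ↔ x ∈ P :=
    ⟨MvPolynomial σ ℂ ⧸ P, inferInstance, inferInstance, Ideal.Quotient.mkₐ ℂ P, inferInstance,
      Ideal.Quotient.mk_surjective, fun x => Ideal.Quotient.eq_zero_iff_mem⟩
  obtain ⟨f, hdom, hsurj, hker⟩ := hD3
  obtain ⟨S, hS⟩ : ∃ S : Submonoid D, S = Submonoid.closure (Set.range fun n => f (a n)) :=
    ⟨_, rfl⟩
  have hS0 : S ≤ nonZeroDivisors D := by
    rw [hS, Submonoid.closure_le]
    rintro _ ⟨n, rfl⟩
    exact mem_nonZeroDivisors_of_ne_zero fun h => ha n ((hker _).1 h)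
  obtain ⟨E, hE⟩ : ∃ E : Type, E = Localization S := ⟨_, rfl⟩
  have hnt : Nontrivial (Localization S) := by
    have h1 : Function.Injective (algebraMap D (Localization S)) := IsLocalization.injective _ hS0
    exact h1.nontrivial
  obtain ⟨M, hM⟩ := Ideal.exists_maximal (Localization S)
  let κ := Localization S ⧸ M
  let := Ideal.Quotient.field M
  let g : Localization S →ₐ[ℂ] κ := Ideal.Quotient.mkₐ ℂ M
  let q : MvPolynomial σ ℂ →ₐ[ℂ] κ := (g.comp (IsScalarTower.toAlgHom ℂ D (Localization S))).comp f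
  have hq0 : ∀ x ∈ P, q x = 0 := by
    intro x hx
    change g (algebraMap D (Localization S) (f x)) = 0
    rw [(hker x).2 hx, map_zero, map_zero]
  have hqa : ∀ n, q (a n) ≠ 0 := by
    intro n h
    have h1 : IsUnit (algebraMap D (Localization S) (f (a n))) :=
      IsLocalization.map_units (Localization S)
        (⟨f (a n), hS ▸ Submonoid.subset_closure ⟨n, rfl⟩⟩ : S)
    have h2 : IsUnit (q (a n)) := h1.map g
    rw [h] at h2
    exact not_isUnit_zero h2
  obtain ⟨s, hs⟩ : ∃ s : Set κ, s = (Set.range fun i : σ => q (MvPolynomial.X i)) ∪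
      Set.range fun n => (q (a n))⁻¹ := ⟨_, rfl⟩
  have hsc : s.Countable := by
    rw [hs]
    exact (Set.countable_range _).union (Set.countable_range _)
  have hq : ∀ p, q p ∈ Algebra.adjoin ℂ s := by
    intro p
    have h1 : q p ∈ Algebra.adjoin ℂ (Set.range fun i : σ => q (MvPolynomial.X i)) := by
      rw [Algebra.adjoin_range_eq_range_aeval]
      refine ⟨p, ?_⟩
      have h2 : MvPolynomial.aeval (fun i : σ => q (MvPolynomial.X i)) = q := by
        apply MvPolynomial.algHom_ext
        intro i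
        rw [MvPolynomial.aeval_X]
      exact congrFun (congrArg DFunLike.coe h2) p
    exact Algebra.adjoin_mono (hs ▸ Set.subset_union_left) h1
  have htop : Algebra.adjoin ℂ s = ⊤ := by
    rw [eq_top_iff]
    rintro x -
    obtain ⟨y, rfl⟩ := Ideal.Quotient.mk_surjective x
    obtain ⟨⟨d, t⟩, rfl⟩ := IsLocalization.mk'_surjective S y
    obtain ⟨p, rfl⟩ := hsurj d
    -- `t` is a product of the `f (a n)`
    have key : ∀ t ∈ S, ∃ u ∈ Algebra.adjoin ℂ s, u * g (algebraMap D (Localization S) t) = 1 := by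
      intro t ht
      rw [hS] at ht
      induction ht using Submonoid.closure_induction with
      | mem x hx =>
        obtain ⟨n, rfl⟩ := hx
        refine ⟨(q (a n))⁻¹, Algebra.subset_adjoin (hs ▸ Or.inr ⟨n, rfl⟩), ?_⟩
        exact inv_mul_cancel₀ (hqa n)
      | one => exact ⟨1, one_mem _, by rw [map_one, map_one, mul_one]⟩
      | mul x y _ _ hx hy =>
        obtain ⟨u, hu, hu'⟩ := hx
        obtain ⟨v, hv, hv'⟩ := hy
        refine ⟨u * v, mul_mem hu hv, ?_⟩
        rw [map_mul, map_mul]
        linear_combination hu' * (v * g (algebraMap D (Localization S) y)) + hv'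
    obtain ⟨u, hu, hut⟩ := key t.1 t.2
    have h3 : g (IsLocalization.mk' (Localization S) (f p) t) = q p * u := by
      have h4 : g (IsLocalization.mk' (Localization S) (f p) t) *
          g (algebraMap D (Localization S) t.1) = q p := by
        rw [← map_mul, IsLocalization.mk'_spec]
        rfl
      rw [← h4, mul_assoc, mul_comm _ u, hut, mul_one]
    change g (IsLocalization.mk' (Localization S) (f p) t) ∈ _
    rw [h3]
    exact mul_mem (hq p) hu
  have hsur := surjective_of_countable s hsc htop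
  choose x hx using fun i : σ => hsur (q (MvPolynomial.X i))
  have hev : ∀ p, algebraMap ℂ κ (MvPolynomial.eval x p) = q p := by
    intro p
    have h1 : (Algebra.ofId ℂ κ).comp (MvPolynomial.aeval x) = q := by
      apply MvPolynomial.algHom_ext
      intro i
      rw [AlgHom.comp_apply, MvPolynomial.aeval_X]
      exact hx i
    have h2 := congrFun (congrArg DFunLike.coe h1) p
    rw [← h2]
    rfl
  have hinj : Function.Injective (algebraMap ℂ κ) := (algebraMap ℂ κ).injective
  refine ⟨x, fun p hp => hinj ?_, fun n h => hqa n ?_⟩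
  · rw [hev, hq0 p hp, map_zero]
  · rw [← hev, h, map_zero]

end Vale.Agent.P002.H252
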