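import Mathlib

/-!
# Semisimple modules and traces
-/

namespace Vale.Agent.P002.H252

open Module

variable {B : Type} [Ring B] [Algebra ℂ B] {V : Type} [AddCommGroup V] [Module ℂ V]

/-- every invariant subspace has an invariant complement -/
def SSf {N : Type} (f : N → End ℂ V) : Prop :=
  ∀ W : Submodule ℂ V, (∀ x, ∀ w ∈ W, f x w ∈ W) →
    ∃ W' : Submodule ℂ V, (∀ x, ∀ w ∈ W', f x w ∈ W') ∧ IsCompl W W'

/-- the module structure defined by a homomorphism to the endomorphism ring -/
@[reducible] def modOf (f : B →ₐ[ℂ] End ℂ V) : Module B V := Module.compHom V f.toRingHom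

theorem towerOf (f : B →ₐ[ℂ] End ℂ V) :
    letI := modOf f
    IsScalarTower ℂ B V := by
  let := modOf f
  refine ⟨fun c b v => ?_⟩
  change f (c • b) v = c • f b v
  rw [map_smul, LinearMap.smul_apply]

theorem semisimple_of_SSf (f : B →ₐ[ℂ] End ℂ V) (h : SSf f) :
    letI := modOf f
    IsSemisimpleModule B V := by
  let := modOf f
  have := towerOf f
  refine { exists_isCompl := fun W => ?_ }
  obtain ⟨W', h1, h2⟩ := h (W.restrictScalars ℂ) fun b w hw => W.smul_mem b hw
  refine ⟨⟨⟨⟨W', fun {a b} ha hb => W'.add_mem ha hb⟩, W'.zero_mem⟩, fun b w hw => h1 b w hw⟩, ?_⟩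
  constructor
  · rw [disjoint_iff, eq_bot_iff]
    intro v hv
    have h3 := h2.disjoint.le_bot (x := v) ⟨hv.1, hv.2⟩
    exact h3
  · rw [codisjoint_iff, eq_top_iff]
    intro v _
    have h3 : v ∈ W.restrictScalars ℂ ⊔ W' := h2.codisjoint.eq_top ▸ Submodule.mem_top
    obtain ⟨x, hx, y, hy, rfl⟩ := Submodule.mem_sup.1 h3
    exact Submodule.add_mem_sup hx hy

theorem SSf_of_semisimple (f : B →ₐ[ℂ] End ℂ V)
    (h : letI := modOf f; IsSemisimpleModule B V) : SSf f := by
  let := modOf f
  have := towerOf f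
  intro W hW
  obtain ⟨W', hW'⟩ := h.exists_isCompl
    (⟨⟨⟨W, fun {a b} ha hb => W.add_mem ha hb⟩, W.zero_mem⟩, fun b w hw => hW b w hw⟩ :
      Submodule B V)
  refine ⟨W'.restrictScalars ℂ, fun b w hw => W'.smul_mem b hw, ?_⟩
  constructor
  · rw [disjoint_iff, eq_bot_iff]
    intro v hv
    exact hW'.disjoint.le_bot (x := v) ⟨hv.1, hv.2⟩
  · rw [codisjoint_iff, eq_top_iff]
    intro v _
    have h3 : v ∈ (⊤ : Submodule B V) := Submodule.mem_top
    rw [← hW'.codisjoint.eq_top] at h3
    obtain ⟨x, hx, y, hy, rfl⟩ := Submodule.mem_sup.1 h3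
    exact Submodule.add_mem_sup hx hy

variable [FiniteDimensional ℂ V]

theorem semisimpleRing (f : B →ₐ[ℂ] End ℂ V) (hf : Function.Injective f) (h : SSf f) :
    IsSemisimpleRing B := by
  let := modOf f
  have := semisimple_of_SSf f h
  obtain ⟨b⟩ : Nonempty (Basis (Fin (finrank ℂ V)) ℂ V) := ⟨finBasis ℂ V⟩
  let g : B →ₗ[B] (Fin (finrank ℂ V) → V) :=
    { toFun := fun a i => f a (b i)
      map_add' := fun x y => by
        funext i
        rw [map_add]
        rfl
      map_smul' := fun x y => by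
        funext i
        rw [smul_eq_mul, map_mul]
        rfl }
  refine IsSemisimpleModule.of_injective g fun x y hxy => hf ?_
  exact b.ext fun i => congrFun hxy i

theorem trace_nondeg (f : B →ₐ[ℂ] End ℂ V) (hf : Function.Injective f) (h : SSf f) (a : B)
    (ha : ∀ b, LinearMap.trace ℂ V (f (b * a)) = 0) : a = 0 := by
  have := semisimpleRing f hf h
  let I : Ideal B :=
    { carrier := {a | ∀ b, LinearMap.trace ℂ V (f (b * a)) = 0}
      add_mem' := fun {x y} hx hy b => by
        rw [mul_add, map_add, map_add, hx b, hy b, add_zero]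
      zero_mem' := fun b => by rw [mul_zero, map_zero, map_zero]
      smul_mem' := fun c x hx b => by
        rw [smul_eq_mul, ← mul_assoc]
        exact hx (b * c) }
  obtain ⟨e, he, hI⟩ := IsSemisimpleRing.ideal_eq_span_idempotent I
  have h1 : e ∈ I := hI ▸ Ideal.mem_span_singleton_self e
  have h2 : LinearMap.trace ℂ V (f e) = 0 := by
    have := h1 1
    rwa [one_mul] at this
  have h3 : IsIdempotentElem (f e) := he.map f
  have h4 : f e = 0 := LinearMap.IsIdempotentElem.eq_zero_of_trace_eq_zero h3 h2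
  have h5 : e = 0 := hf (by rw [h4, map_zero])
  have h6 : a ∈ I := ha
  rw [hI, h5, Ideal.span_singleton_eq_bot.2 rfl] at h6
  exact h6

/-- the converse -/
theorem SSf_of_nondeg (f : B →ₐ[ℂ] End ℂ V) (hf : Function.Injective f)
    (h : ∀ a : B, (∀ b, LinearMap.trace ℂ V (f (b * a)) = 0) → a = 0) : SSf f := by
  have hfd : FiniteDimensional ℂ B := FiniteDimensional.of_injective f.toLinearMap hf
  have hart : IsArtinianRing B := IsArtinianRing.of_finite ℂ B
  have h1 : Ring.jacobson B = ⊥ := by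
    rw [eq_bot_iff]
    intro a ha
    rw [Ideal.mem_bot]
    refine h a fun b => ?_
    have h2 : b * a ∈ Ring.jacobson B := Ideal.mul_mem_left _ _ ha
    obtain ⟨n, hn⟩ := (inferInstance : IsSemiprimaryRing B).isNilpotent
    have h3 : (b * a) ^ n ∈ (Ring.jacobson B) ^ n := Ideal.pow_mem_pow h2 n
    rw [hn, Ideal.zero_eq_bot, Ideal.mem_bot] at h3
    have h4 : IsNilpotent (f (b * a)) := ⟨n, by rw [← map_pow, h3, map_zero]⟩
    exact (LinearMap.isNilpotent_trace_of_isNilpotent h4).eq_zero
  have h2 : IsSemisimpleRing B := IsArtinianRing.isSemisimpleRing_iff_jacobson.2 h1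
  let := modOf f
  exact SSf_of_semisimple f inferInstance

end Vale.Agent.P002.H252
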