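import Vale.Agent.P002.H252.Ba1

/-!
# Constructible sets: countable closed coverings have finite subcoverings
-/

namespace Vale.Agent.P002.H252

open MvPolynomial

variable {σ τ : Type} [Finite σ] [Finite τ]

/-- Every covering of `S` by countably many Zariski closed sets has a finite subcovering. -/
def BP (S : Set (σ → ℂ)) : Prop :=
  ∀ A : ℕ → Set (MvPolynomial σ ℂ), (∀ x ∈ S, ∃ n, ∀ f ∈ A n, eval x f = 0) →
    ∃ F : Finset ℕ, ∀ x ∈ S, ∃ n ∈ F, ∀ f ∈ A n, eval x f = 0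

theorem BP_closed (J : Set (MvPolynomial σ ℂ)) : BP {x | ∀ f ∈ J, eval x f = 0} := by
  classical
  intro A hA
  obtain ⟨I, hI⟩ : ∃ I, I = Ideal.span J := ⟨_, rfl⟩
  have hfin : I.minimalPrimes.Finite := Ideal.finite_minimalPrimes_of_isNoetherianRing _ I
  have h1 : ∀ P : I.minimalPrimes, ∃ n, A n ⊆ (P.1 : Set (MvPolynomial σ ℂ)) := by
    intro P
    by_contra hcon
    push Not at hcon
    have h2 : ∀ n, ∃ a ∈ A n, a ∉ P.1 := fun n => Set.not_subset.1 (hcon n)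
    choose a ha ha' using h2
    have hP : P.1.IsPrime := P.2.1.1
    obtain ⟨x, hx1, hx2⟩ := exists_point P.1 a ha'
    obtain ⟨n, hn⟩ := hA x fun f hf => hx1 f (P.2.1.2 (hI ▸ Ideal.subset_span hf))
    exact hx2 n (hn _ (ha n))
  choose n hn using h1
  have := hfin.to_subtype
  have := Fintype.ofFinite I.minimalPrimes
  refine ⟨Finset.univ.image n, fun x hx => ?_⟩
  have h2 : I ≤ RingHom.ker (eval x) := by
    rw [hI, Ideal.span_le]
    intro f hf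
    exact hx f hf
  have h3 : (RingHom.ker (eval x)).IsPrime := RingHom.ker_isPrime _
  obtain ⟨P, hP, hPx⟩ := Ideal.exists_minimalPrimes_le h2
  exact ⟨n ⟨P, hP⟩, Finset.mem_image_of_mem _ (Finset.mem_univ _), fun f hf => hPx (hn ⟨P, hP⟩ hf)⟩

omit [Finite σ] in
theorem BP.inter_open {S : Set (σ → ℂ)} (hS : BP S) (P : Set (MvPolynomial σ ℂ)) :
    BP {x ∈ S | ∃ f ∈ P, eval x f ≠ 0} := by
  classical
  intro A hA
  obtain ⟨F, hF⟩ := hS (fun n => Nat.casesOn n P A) (by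
    intro x hx
    by_cases h : ∃ f ∈ P, eval x f ≠ 0
    · obtain ⟨n, hn⟩ := hA x ⟨hx, h⟩
      exact ⟨n + 1, hn⟩
    · push Not at h
      exact ⟨0, h⟩)
  refine ⟨F.image Nat.pred, fun x hx => ?_⟩
  obtain ⟨n, hn, hn'⟩ := hF x hx.1
  rcases n with _ | n
  · obtain ⟨f, hf, hf'⟩ := hx.2
    exact absurd (hn' f hf) hf'
  · exact ⟨n, Finset.mem_image.2 ⟨n + 1, hn, rfl⟩, hn'⟩

omit [Finite σ] [Finite τ] in
theorem BP.image {S : Set (σ → ℂ)} (hS : BP S) (p : τ → MvPolynomial σ ℂ) :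
    BP ((fun x i => eval x (p i)) '' S) := by
  intro A hA
  have key : ∀ (x : σ → ℂ) (f : MvPolynomial τ ℂ), eval x (bind₁ p f) =
      eval (fun i => eval x (p i)) f := by
    intro x f
    exact eval₂Hom_bind₁ (RingHom.id ℂ) x p f
  obtain ⟨F, hF⟩ := hS (fun n => (bind₁ p) '' (A n)) (by
    intro x hx
    obtain ⟨n, hn⟩ := hA _ ⟨x, hx, rfl⟩
    refine ⟨n, ?_⟩
    rintro _ ⟨f, hf, rfl⟩
    rw [key]
    exact hn f hf)
  refine ⟨F, ?_⟩
  rintro _ ⟨x, hx, rfl⟩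
  obtain ⟨n, hn, hn'⟩ := hF x hx
  refine ⟨n, hn, fun f hf => ?_⟩
  rw [← key]
  exact hn' _ ⟨f, hf, rfl⟩

omit [Finite σ] in
theorem BP.iUnion {κ : Type} [Finite κ] {S : κ → Set (σ → ℂ)} (hS : ∀ k, BP (S k)) :
    BP (⋃ k, S k) := by
  classical
  intro A hA
  have := Fintype.ofFinite κ
  have h1 : ∀ k, ∃ F : Finset ℕ, ∀ x ∈ S k, ∃ n ∈ F, ∀ f ∈ A n, eval x f = 0 := fun k =>
    hS k A fun x hx => hA x (Set.mem_iUnion.2 ⟨k, hx⟩)
  choose F hF using h1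
  refine ⟨Finset.univ.biUnion F, fun x hx => ?_⟩
  obtain ⟨k, hk⟩ := Set.mem_iUnion.1 hx
  obtain ⟨n, hn, hn'⟩ := hF k x hk
  exact ⟨n, Finset.mem_biUnion.2 ⟨k, Finset.mem_univ _, hn⟩, hn'⟩

end Vale.Agent.P002.H252
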