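import Vale.Agent.P002.H252.Ba3
import Vale.Agent.P002.H252.Ba4
import Vale.Agent.P002.H326J.DefsV

/-!
# Constructible sets of representations
-/

namespace Vale.Agent.P002.H252

open Matrix Vale.Agent.P002R.Orb Vale.Agent.P002.H326J

variable {ι κ : Type} {r : ℕ}

/-- the coordinates of a tuple of matrices -/
def coords (X : ι → SpecialLinearGroup (Fin r) ℂ) : ι × Fin r × Fin r → ℂ :=
  fun p => (X p.1).1 p.2.1 p.2.2

theorem value_eq (F : MvPolynomial (ι × Fin r × Fin r) ℂ) (X : ι → SpecialLinearGroup (Fin r) ℂ) :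
    value F X = MvPolynomial.eval (coords X) F := rfl

/-- polynomial functions -/
def PFn (f : (ι → SpecialLinearGroup (Fin r) ℂ) → ℂ) : Prop :=
  ∃ F : MvPolynomial (ι × Fin r × Fin r) ℂ, ∀ X, f X = value F X

theorem PFn.const (c : ℂ) : PFn (ι := ι) (r := r) fun _ => c :=
  ⟨MvPolynomial.C c, fun X => by rw [value_eq, MvPolynomial.eval_C]⟩

theorem PFn.add {f g : (ι → SpecialLinearGroup (Fin r) ℂ) → ℂ} (hf : PFn f) (hg : PFn g) :
    PFn fun X => f X + g X := by
  obtain ⟨F, hF⟩ := hf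
  obtain ⟨G, hG⟩ := hg
  exact ⟨F + G, fun X => by
    rw [value_eq, map_add, ← value_eq, ← value_eq, ← hF, ← hG]⟩

theorem PFn.mul {f g : (ι → SpecialLinearGroup (Fin r) ℂ) → ℂ} (hf : PFn f) (hg : PFn g) :
    PFn fun X => f X * g X := by
  obtain ⟨F, hF⟩ := hf
  obtain ⟨G, hG⟩ := hg
  exact ⟨F * G, fun X => by
    rw [value_eq, map_mul, ← value_eq, ← value_eq, ← hF, ← hG]⟩

theorem PFn.sub {f g : (ι → SpecialLinearGroup (Fin r) ℂ) → ℂ} (hf : PFn f) (hg : PFn g) :
    PFn fun X => f X - g X := by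
  obtain ⟨F, hF⟩ := hf
  obtain ⟨G, hG⟩ := hg
  exact ⟨F - G, fun X => by
    rw [value_eq, map_sub, ← value_eq, ← value_eq, ← hF, ← hG]⟩

theorem PFn.sum {J : Type*} (s : Finset J) {f : J → (ι → SpecialLinearGroup (Fin r) ℂ) → ℂ}
    (hf : ∀ j, PFn (f j)) : PFn fun X => ∑ j ∈ s, f j X := by
  choose F hF using hf
  exact ⟨∑ j ∈ s, F j, fun X => by
    rw [value_eq, map_sum]
    exact Finset.sum_congr rfl fun j _ => hF j X⟩

theorem PFn.det {J : Type*} [Fintype J] [DecidableEq J]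
    {M : J → J → (ι → SpecialLinearGroup (Fin r) ℂ) → ℂ} (hM : ∀ i j, PFn (M i j)) :
    PFn fun X => (Matrix.of fun i j => M i j X).det := by
  choose F hF using hM
  refine ⟨(Matrix.of F).det, fun X => ?_⟩
  have h : (Matrix.of fun i j => M i j X) =
      (MvPolynomial.eval (coords X)).mapMatrix (Matrix.of F) := by
    ext i j
    exact hF i j X
  rw [value_eq, RingHom.map_det, ← h]

/-- the entries of the value of a word are polynomials -/
theorem PFn.word (w : FreeGroup ι) :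
    ∀ i j, PFn (ι := ι) (r := r) fun X => (FreeGroup.lift X w).1 i j := by
  induction w using FreeGroup.induction_on with
  | C1 =>
    intro i j
    have h : (fun X : ι → SpecialLinearGroup (Fin r) ℂ => (FreeGroup.lift X 1).1 i j) =
        fun _ => (1 : Matrix (Fin r) (Fin r) ℂ) i j := by
      funext X
      rw [map_one]
      rfl
    rw [h]
    exact PFn.const _
  | of p =>
    intro i j
    refine ⟨MvPolynomial.X (p, i, j), fun X => ?_⟩
    have h : FreeGroup.lift X (FreeGroup.of p) = X p := FreeGroup.lift_apply_of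
    rw [value_eq, MvPolynomial.eval_X]
    change (FreeGroup.lift X (FreeGroup.of p)).1 i j = _
    rw [h]
    rfl
  | inv_of p _ =>
    intro i j
    refine ⟨(Matrix.adjugate (Matrix.of fun a b => MvPolynomial.X (p, a, b))) i j, fun X => ?_⟩
    have h1 : (FreeGroup.lift X (FreeGroup.of p)⁻¹).1 = (X p).1.adjugate := by
      rw [map_inv, FreeGroup.lift_apply_of]
      rfl
    change (FreeGroup.lift X (FreeGroup.of p)⁻¹).1 i j = _
    rw [h1, value_eq]
    have h2 := RingHom.map_adjugate (MvPolynomial.eval (coords X))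
      (Matrix.of fun a b : Fin r => (MvPolynomial.X (p, a, b) : MvPolynomial (ι × Fin r × Fin r) ℂ))
    have h3 := congrFun (congrFun h2 i) j
    have h4 : (MvPolynomial.eval (coords X)).mapMatrix (Matrix.of fun a b : Fin r =>
        (MvPolynomial.X (p, a, b) : MvPolynomial (ι × Fin r × Fin r) ℂ)) = (X p).1 := by
      ext a b
      simp only [RingHom.mapMatrix_apply, Matrix.map_apply, Matrix.of_apply, MvPolynomial.eval_X]
      rfl
    rw [h4] at h3
    rw [← h3]
    rfl
  | mul x y hx hy =>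
    intro i j
    have h : (fun X : ι → SpecialLinearGroup (Fin r) ℂ => (FreeGroup.lift X (x * y)).1 i j) =
        fun X => ∑ k, (FreeGroup.lift X x).1 i k * (FreeGroup.lift X y).1 k j := by
      funext X
      rw [map_mul]
      rfl
    rw [h]
    exact PFn.sum _ fun k => (hx i k).mul (hy k j)

theorem PFn.trace (w : FreeGroup ι) :
    PFn (ι := ι) (r := r) fun X => (FreeGroup.lift X w).1.trace :=
  PFn.sum _ fun i => PFn.word w i i

/-- the property `BP` for sets of tuples of matrices -/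
def BPT (S : Set (ι → SpecialLinearGroup (Fin r) ℂ)) : Prop := BP (coords '' S)

theorem BPT_closed [Finite ι] (J : Set ((ι → SpecialLinearGroup (Fin r) ℂ) → ℂ))
    (hJ : ∀ f ∈ J, PFn f) : BPT {X | ∀ f ∈ J, f X = 0} := by
  choose F hF using hJ
  obtain ⟨D, hD⟩ : ∃ D : ι → MvPolynomial (ι × Fin r × Fin r) ℂ, ∀ x p,
      MvPolynomial.eval x (D p) = (Matrix.of fun i j => x (p, i, j)).det - 1 := by
    refine ⟨fun p => (Matrix.of fun i j : Fin r => (MvPolynomial.X (p, i, j) :
      MvPolynomial (ι × Fin r × Fin r) ℂ)).det - 1, fun x p => ?_⟩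
    rw [map_sub, map_one, RingHom.map_det]
    congr 2
    ext i j
    simp
  have h1 : coords '' {X | ∀ f ∈ J, f X = 0} =
      {x | ∀ g ∈ (Set.range D) ∪ {G | ∃ f, ∃ hf : f ∈ J, G = F f hf},
        MvPolynomial.eval x g = 0} := by
    ext x
    constructor
    · rintro ⟨X, hX, rfl⟩ g hg
      rcases hg with ⟨p, rfl⟩ | ⟨f, hf, rfl⟩
      · rw [hD, sub_eq_zero]
        exact (X p).2
      · rw [← value_eq, ← hF f hf]
        exact hX f hf
    · intro hx
      have hx1 : ∀ p, (Matrix.of fun i j => x (p, i, j)).det = 1 := fun p => by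
        have := hx (D p) (Or.inl ⟨p, rfl⟩)
        rwa [hD, sub_eq_zero] at this
      obtain ⟨X, hX⟩ : ∃ X : ι → SpecialLinearGroup (Fin r) ℂ, coords X = x :=
        ⟨fun p => ⟨Matrix.of fun i j => x (p, i, j), hx1 p⟩, rfl⟩
      refine ⟨X, fun f hf => ?_, hX⟩
      rw [hF f hf, value_eq, hX]
      exact hx _ (Or.inr ⟨f, hf, rfl⟩)
  unfold BPT
  rw [h1]
  exact BP_closed _

theorem BPT.inter_open {S : Set (ι → SpecialLinearGroup (Fin r) ℂ)} (hS : BPT S)
    (P : Set ((ι → SpecialLinearGroup (Fin r) ℂ) → ℂ)) (hP : ∀ f ∈ P, PFn f) :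
    BPT {X ∈ S | ∃ f ∈ P, f X ≠ 0} := by
  choose F hF using hP
  have h1 : coords '' {X ∈ S | ∃ f ∈ P, f X ≠ 0} =
      {x ∈ coords '' S | ∃ g ∈ {G | ∃ f, ∃ hf : f ∈ P, G = F f hf}, MvPolynomial.eval x g ≠ 0} := by
    ext x
    constructor
    · rintro ⟨X, ⟨hX, f, hf, hf'⟩, rfl⟩
      refine ⟨⟨X, hX, rfl⟩, _, ⟨f, hf, rfl⟩, ?_⟩
      rw [← value_eq, ← hF f hf]
      exact hf'
    · rintro ⟨⟨X, hX, rfl⟩, _, ⟨f, hf, rfl⟩, h⟩
      refine ⟨X, ⟨hX, f, hf, ?_⟩, rfl⟩
      rw [hF f hf]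
      exact h
  unfold BPT
  rw [h1]
  exact BP.inter_open hS _

theorem BPT.restr {S : Set (κ → SpecialLinearGroup (Fin r) ℂ)} (hS : BPT S) (a : ι → κ) :
    BPT ((fun X p => X (a p)) '' S) := by
  have h1 : coords '' ((fun (X : κ → SpecialLinearGroup (Fin r) ℂ) (p : ι) => X (a p)) '' S) =
      (fun x (p : ι × Fin r × Fin r) => MvPolynomial.eval x
        (MvPolynomial.X (a p.1, p.2) : MvPolynomial (κ × Fin r × Fin r) ℂ)) '' (coords '' S) := by
    rw [Set.image_image, Set.image_image]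
    refine Set.image_congr fun X _ => ?_
    funext p
    rw [MvPolynomial.eval_X]
    rfl
  unfold BPT
  rw [h1]
  exact BP.image hS _

theorem BPT.iUnion {J : Type} [Finite J] {S : J → Set (ι → SpecialLinearGroup (Fin r) ℂ)}
    (hS : ∀ k, BPT (S k)) : BPT (⋃ k, S k) := by
  unfold BPT
  rw [Set.image_iUnion]
  exact BP.iUnion hS

end Vale.Agent.P002.H252
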