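import Vale.Agent.P002.H2.DefsM

/-!
# Definitions for the uniform theorem
-/

namespace Vale.Agent.P002.H252

open Matrix Vale.Agent.P002R.Orb Vale.Agent.P002.H326J Vale.Agent.P002.H2

variable {ι : Type} {r s : ℕ}

/-- `W` is an irreducible subrepresentation of `X`. -/
def IsIrrSub (X : ι → SpecialLinearGroup (Fin r) ℂ) (W : Submodule ℂ (Fin r → ℂ)) : Prop :=
  W ≠ ⊥ ∧ IsInv X W ∧ ∀ W' ≤ W, IsInv X W' → W' = ⊥ ∨ W' = W

/-- Every irreducible subrepresentation of `X` has one of the allowed types. -/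
def IsTyped (R : Set (FreeGroup ι)) (w : Fin s → FreeGroup ι)
    (X : ι → SpecialLinearGroup (Fin r) ℂ) : Prop :=
  ∀ W, IsIrrSub X W → ∃ D : TypeDatum (PresentedGroup R),
    D.Valid (fun j => PresentedGroup.mk R (w j)) ∧ HasType D X W

/-- The set of points of `U` at which some polynomial of the set `P` does not vanish. -/
def OpenIn (U : Set (ι → SpecialLinearGroup (Fin r) ℂ))
    (P : Set (MvPolynomial (ι × Fin r × Fin r) ℂ)) : Set (ι → SpecialLinearGroup (Fin r) ℂ) :=
  {X ∈ U | ∃ F ∈ P, value F X ≠ 0}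

/-- The set `T` is Zariski dense in `U`. -/
def IsDenseIn (T U : Set (ι → SpecialLinearGroup (Fin r) ℂ)) : Prop :=
  ∀ F : MvPolynomial (ι × Fin r × Fin r) ℂ, (∀ X ∈ T, value F X = 0) → ∀ X ∈ U, value F X = 0

end Vale.Agent.P002.H252
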