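import Vale.Agent.P002.H252.Ba6
import Vale.Agent.P002.H252.DefsC

/-!
# One number field for countably many families
-/

namespace Vale.Agent.P002.H252

open Matrix Vale.Agent.P002R.Orb Vale.Agent.P002.H326J

variable {ι : Type} {r : ℕ}

theorem intRep_mono {L L' : IntermediateField ℚ ℂ} (h : L ≤ L')
    {X : ι → SpecialLinearGroup (Fin r) ℂ} (hX : IsIntegralRep L X) : IsIntegralRep L' X := by
  intro p i j
  obtain ⟨a, ha⟩ := hX p i j
  have h1 : IsIntegral ℤ (IntermediateField.inclusion h a.1) :=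
    a.2.map ((IntermediateField.inclusion h : L →ₐ[ℚ] L').restrictScalars ℤ)
  exact ⟨⟨IntermediateField.inclusion h a.1, h1⟩, ha⟩

theorem uniform {Y : Set (ι → SpecialLinearGroup (Fin r) ℂ)}
    (P : Set (MvPolynomial (ι × Fin r × Fin r) ℂ)) (hBP : BPT (OpenIn Y P))
    (T : ℕ → Set (ι → SpecialLinearGroup (Fin r) ℂ))
    (hd : ∀ n, ∃ L : IntermediateField ℚ ℂ, FiniteDimensional ℚ L ∧ IsDenseRep L (T n))
    (hTY : ∀ n, T n ⊆ Y)
    (B : ℕ → Set (MvPolynomial (ι × Fin r × Fin r) ℂ))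
    (hB : ∀ n, IsDenseIn (OpenIn (OpenIn Y P) (B n)) (OpenIn Y P))
    (hcov : ∀ X ∈ OpenIn Y P, (∀ n, ∃ F ∈ B n, value F X ≠ 0) → ∃ n, X ∈ T n) :
    ∃ L : IntermediateField ℚ ℂ, FiniteDimensional ℚ L ∧ IsDenseRep L (OpenIn Y P) := by
  classical
  choose L hL hLd using hd
  obtain ⟨A, hA⟩ : ∃ A : ℕ → Set (MvPolynomial (ι × Fin r × Fin r) ℂ),
      ∀ n, A n = {F : MvPolynomial (ι × Fin r × Fin r) ℂ | ∀ X ∈ T n, value F X = 0} :=
    ⟨_, fun n => rfl⟩
  obtain ⟨E, hE⟩ : ∃ E : ℕ → Set (MvPolynomial (ι × Fin r × Fin r) ℂ),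
      ∀ n, E (2 * n) = A n ∧ E (2 * n + 1) = B n := by
    refine ⟨fun n => if n % 2 = 0 then A (n / 2) else B (n / 2), fun n => ⟨?_, ?_⟩⟩
    · have h1 : 2 * n % 2 = 0 := by omega
      have h2 : 2 * n / 2 = n := by omega
      simp only [h1, h2, if_true]
    · have h1 : (2 * n + 1) % 2 ≠ 0 := by omega
      have h2 : (2 * n + 1) / 2 = n := by omega
      simp only [h1, h2, if_false]
  obtain ⟨G, hG⟩ := hBP E (by
    rintro _ ⟨X, hX, rfl⟩
    by_cases hXB : ∀ n, ∃ F ∈ B n, value F X ≠ 0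
    · obtain ⟨n, hn⟩ := hcov X hX hXB
      refine ⟨2 * n, fun f hf => ?_⟩
      rw [(hE n).1, hA] at hf
      exact hf X hn
    · push Not at hXB
      obtain ⟨n, hn⟩ := hXB
      refine ⟨2 * n + 1, fun f hf => ?_⟩
      rw [(hE n).2] at hf
      exact hn f hf)
  obtain ⟨N, hN⟩ : ∃ N, ∀ n ∈ G, n ≤ N := ⟨G.sup id, fun n hn => Finset.le_sup (f := id) hn⟩
  -- the field
  obtain ⟨M, hM, hML⟩ : ∃ M : IntermediateField ℚ ℂ, FiniteDimensional ℚ M ∧ ∀ n ≤ N, L n ≤ M := by
    clear hN
    induction N with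
    | zero => exact ⟨L 0, hL 0, fun n hn => by rw [Nat.le_zero.1 hn]⟩
    | succ N ih =>
      obtain ⟨M, hM, h⟩ := ih
      refine ⟨M ⊔ L (N + 1), ?_, fun n hn => ?_⟩
      · have := hL (N + 1)
        exact IntermediateField.finiteDimensional_sup _ _
      · rcases Nat.lt_or_ge N n with h1 | h1
        · have h2 : n = N + 1 := by omega
          rw [h2]
          exact le_sup_right
        · exact (h n h1).trans le_sup_left
  refine ⟨M, hM, fun F hF => ?_⟩
  -- `F` vanishes on the part of `T n` in the open set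
  have h1 : ∀ n ≤ N, ∀ X ∈ OpenIn Y P, (∀ f ∈ A n, value f X = 0) → value F X = 0 := by
    intro n hn X hX hXn
    obtain ⟨Q, hQ, hQX⟩ := hX.2
    have h2 : F * Q ∈ A n := by
      rw [hA]
      refine hLd n _ fun X' hX' hX'' => ?_
      rw [value_eq, map_mul, ← value_eq, ← value_eq]
      by_cases h3 : value Q X' = 0
      · rw [h3, mul_zero]
      · rw [hF X' ⟨hTY n hX', Q, hQ, h3⟩ (intRep_mono (hML n hn) hX''), zero_mul]
    have h3 := hXn _ h2
    rw [value_eq, map_mul, ← value_eq, ← value_eq] at h3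
    exact (mul_eq_zero.1 h3).resolve_right hQX
  -- the exceptional sets
  have h2 : ∀ k : ℕ, ∀ f : MvPolynomial (ι × Fin r × Fin r) ℂ,
      (∀ X ∈ OpenIn Y P, (∀ n < k, ∃ g ∈ B n, value g X ≠ 0) → value f X = 0) →
      ∀ X ∈ OpenIn Y P, value f X = 0 := by
    intro k
    induction k with
    | zero => exact fun f hf X hX => hf X hX fun n hn => absurd hn (Nat.not_lt_zero n)
    | succ k ih =>
      intro f hf
      refine ih f fun X hX hXk => ?_
      -- separate off the `k`-th
      by_cases hfin : ∀ g ∈ B k, value g X = 0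
      swap
      · push Not at hfin
        obtain ⟨g, hg, hgX⟩ := hfin
        exact hf X hX fun n hn => by
          rcases Nat.lt_succ_iff_lt_or_eq.1 hn with h3 | h3
          · exact hXk n h3
          · rw [h3]
            exact ⟨g, hg, hgX⟩
      · -- multiply with polynomials which do not vanish at `X`
        choose! g hg hgX using hXk
        have h4 : ∀ X' ∈ OpenIn Y P, value (f * ∏ n ∈ Finset.range k, g n) X' = 0 := by
          refine hB k _ fun X' hX' => ?_
          rw [value_eq, map_mul, ← value_eq, map_prod]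
          by_cases h5 : ∀ n < k, value (g n) X' ≠ 0
          · rw [hf X' hX'.1 fun n hn => ?_, zero_mul]
            rcases Nat.lt_succ_iff_lt_or_eq.1 hn with h6 | h6
            · exact ⟨g n, hg n h6, h5 n h6⟩
            · rw [h6]
              exact hX'.2
          · push Not at h5
            obtain ⟨n, hn, hn'⟩ := h5
            rw [Finset.prod_eq_zero (Finset.mem_range.2 hn) hn', mul_zero]
        have h5 := h4 X hX
        rw [value_eq, map_mul, ← value_eq, map_prod] at h5
        refine (mul_eq_zero.1 h5).resolve_right (Finset.prod_ne_zero_iff.2 fun n hn => ?_)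
        exact hgX n (Finset.mem_range.1 hn)
  refine h2 (N + 1) F fun X hX hXB => ?_
  obtain ⟨n, hn, hn'⟩ := hG _ ⟨X, hX, rfl⟩
  rcases Nat.even_or_odd' n with ⟨m, rfl | rfl⟩
  · rw [(hE m).1] at hn'
    exact h1 m (by have := hN _ hn; omega) X hX hn'
  · rw [(hE m).2] at hn'
    obtain ⟨g, hg, hgX⟩ := hXB m (by have := hN _ hn; omega)
    exact absurd (hn' g hg) hgX

end Vale.Agent.P002.H252
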