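import Vale.Agent.P002.H2.DefsT

/-!
# There are countably many common kernels
-/

namespace Vale.Agent.P002.H252

open Vale.Agent.P002.H2

theorem countable_fg {Γ : Type} [Group Γ] [Countable Γ] : {H : Subgroup Γ | H.FG}.Countable := by
  have h1 : {H : Subgroup Γ | H.FG} ⊆ Set.range fun s : Finset Γ => Subgroup.closure (s : Set Γ) := by
    rintro H ⟨s, hs⟩
    exact ⟨s, hs⟩
  exact (Set.countable_range _).mono h1

theorem countable_finiteIndex {Γ : Type} [Group Γ] [Countable Γ] [Group.FG Γ] :
    {H : Subgroup Γ | H.FiniteIndex}.Countable := by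
  refine countable_fg.mono fun H hH => ?_
  have : H.FiniteIndex := hH
  exact (Group.fg_iff_subgroup_fg H).1 inferInstance

theorem countable_hom {Γ Δ : Type} [Group Γ] [Group.FG Γ] [Group Δ] [Countable Δ] :
    Countable (Γ →* Δ) := by
  obtain ⟨s, hs, hf⟩ := Group.fg_iff.1 (inferInstance : Group.FG Γ)
  have := hf.to_subtype
  refine Function.Injective.countable (f := fun (φ : Γ →* Δ) (x : s) => φ x.1) fun φ ψ h => ?_
  refine MonoidHom.eq_of_eqOn_dense hs fun x hx => ?_
  exact congrFun h ⟨x, hx⟩

theorem countable_free {ι : Type} [Finite ι] : Countable (FreeGroup ι) :=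
  Function.Surjective.countable (f := FreeGroup.mk) Quot.mk_surjective

theorem countable_presented {ι : Type} [Finite ι] (R : Set (FreeGroup ι)) :
    Countable (PresentedGroup R) := by
  have := countable_free (ι := ι)
  exact Function.Surjective.countable (f := PresentedGroup.mk R) QuotientGroup.mk_surjective

theorem fg_presented {ι : Type} [Finite ι] (R : Set (FreeGroup ι)) :
    Group.FG (PresentedGroup R) :=
  Group.fg_of_surjective (f := PresentedGroup.mk R) QuotientGroup.mk_surjective

/-- the kernels of homomorphisms from subgroups of finite index to orbifold groups of curves -/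
def kers (Γ : Type) [Group Γ] : Set (Subgroup Γ) :=
  {N | ∃ H : Subgroup Γ, H.FiniteIndex ∧ ∃ (g n : ℕ) (m : Fin n → ℕ) (φ : H →* OrbGroup g n m),
    N = φ.ker.map H.subtype}

theorem countable_kers {Γ : Type} [Group Γ] [Countable Γ] [Group.FG Γ] : (kers Γ).Countable := by
  have h1 : kers Γ = ⋃ H ∈ {H : Subgroup Γ | H.FiniteIndex}, ⋃ g : ℕ, ⋃ n : ℕ, ⋃ m : Fin n → ℕ,
      Set.range fun φ : H →* OrbGroup g n m => φ.ker.map H.subtype := by
    ext N
    simp only [kers, Set.mem_iUnion, Set.mem_range, Set.mem_ofPred_eq]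
    constructor
    · rintro ⟨H, hH, g, n, m, φ, rfl⟩
      exact ⟨H, hH, g, n, m, φ, rfl⟩
    · rintro ⟨H, hH, g, n, m, φ, rfl⟩
      exact ⟨H, hH, g, n, m, φ, rfl⟩
  rw [h1]
  refine countable_finiteIndex.biUnion fun H hH => ?_
  have : H.FiniteIndex := hH
  have : Group.FG H := inferInstance
  refine Set.countable_iUnion fun g => Set.countable_iUnion fun n => Set.countable_iUnion fun m => ?_
  have : Countable (OrbGroup g n m) := countable_presented _
  have : Countable (H →* OrbGroup g n m) := countable_hom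
  exact Set.countable_range _

theorem countable_K {Γ : Type} [Group Γ] [Countable Γ] [Group.FG Γ] :
    {K : Subgroup Γ | ∃ O : OrbFamily Γ, O.K = K}.Countable := by
  have h1 : {K : Subgroup Γ | ∃ O : OrbFamily Γ, O.K = K} ⊆
      (fun S : Set (Subgroup Γ) => sInf S) '' {S | S.Finite ∧ S ⊆ kers Γ} := by
    rintro K ⟨O, rfl⟩
    refine ⟨Set.range fun i : O.I => (O.φ i).ker.map (MulAction.stabilizer Γ i).subtype,
      ⟨Set.finite_range _, ?_⟩, rfl⟩
    rintro _ ⟨i, rfl⟩
    refine ⟨MulAction.stabilizer Γ i, ?_, O.g i, O.n i, O.m i, O.φ i, rfl⟩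
    have : Finite (MulAction.orbit Γ i) := inferInstance
    refine ⟨?_⟩
    rw [MulAction.index_stabilizer]
    exact Nat.card_ne_zero.2 ⟨⟨i, MulAction.mem_orbit_self i⟩, this⟩
  exact ((Set.countable_ofPred_finite_subset countable_kers).image _).mono h1

end Vale.Agent.P002.H252
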