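import Vale.Agent.P002.H252.Ba8

/-!
# Characters are determined by finitely many values
-/

namespace Vale.Agent.P002.H252

open Matrix

variable {ι : Type} {d : ℕ}

/-- the entries of the matrices of the generators and their inverses -/
def pt (σ : FreeGroup ι →* Matrix (Fin d) (Fin d) ℂ) : (ι ⊕ ι) × Fin d × Fin d → ℂ := fun p =>
  Sum.elim (fun i => σ (FreeGroup.of i) p.2.1 p.2.2) (fun i => σ (FreeGroup.of i)⁻¹ p.2.1 p.2.2) p.1

theorem exists_word_poly (w : FreeGroup ι) :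
    ∃ M : Fin d → Fin d → MvPolynomial ((ι ⊕ ι) × Fin d × Fin d) ℂ,
      ∀ (σ : FreeGroup ι →* Matrix (Fin d) (Fin d) ℂ) i j,
        σ w i j = MvPolynomial.eval (pt σ) (M i j) := by
  induction w using FreeGroup.induction_on with
  | C1 =>
    refine ⟨fun i j => MvPolynomial.C ((1 : Matrix (Fin d) (Fin d) ℂ) i j), fun σ i j => ?_⟩
    rw [map_one, MvPolynomial.eval_C]
  | of p =>
    refine ⟨fun i j => MvPolynomial.X (Sum.inl p, i, j), fun σ i j => ?_⟩
    rw [MvPolynomial.eval_X]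
    rfl
  | inv_of p _ =>
    refine ⟨fun i j => MvPolynomial.X (Sum.inr p, i, j), fun σ i j => ?_⟩
    rw [MvPolynomial.eval_X]
    rfl
  | mul x y hx hy =>
    obtain ⟨M, hM⟩ := hx
    obtain ⟨M', hM'⟩ := hy
    refine ⟨fun i j => ∑ k, M i k * M' k j, fun σ i j => ?_⟩
    rw [map_mul, Matrix.mul_apply, map_sum]
    refine Finset.sum_congr rfl fun k _ => ?_
    rw [map_mul, hM, hM']

theorem exists_trace_poly (w : FreeGroup ι) :
    ∃ F : MvPolynomial ((ι ⊕ ι) × Fin d × Fin d) ℂ,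
      ∀ σ : FreeGroup ι →* Matrix (Fin d) (Fin d) ℂ, (σ w).trace = MvPolynomial.eval (pt σ) F := by
  obtain ⟨M, hM⟩ := exists_word_poly (d := d) w
  refine ⟨∑ i, M i i, fun σ => ?_⟩
  rw [map_sum]
  exact Finset.sum_congr rfl fun i _ => hM σ i i

/-- The values of a character on a set are determined by finitely many of them. -/
theorem exists_finite_test [Finite ι] (d : ℕ) (S : Set (FreeGroup ι)) :
    ∃ Φ : Finset (FreeGroup ι), (Φ : Set (FreeGroup ι)) ⊆ S ∧
      ∀ σ σ' : FreeGroup ι →* Matrix (Fin d) (Fin d) ℂ,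
        (∀ x ∈ Φ, (σ x).trace = (σ' x).trace) → ∀ x ∈ S, (σ x).trace = (σ' x).trace := by
  classical
  choose F hF using fun w : FreeGroup ι => exists_trace_poly (d := d) w
  obtain ⟨T, hT⟩ : ∃ T : FreeGroup ι → MvPolynomial
      (((ι ⊕ ι) × Fin d × Fin d) ⊕ ((ι ⊕ ι) × Fin d × Fin d)) ℂ,
      ∀ w, T w = MvPolynomial.rename Sum.inl (F w) - MvPolynomial.rename Sum.inr (F w) :=
    ⟨_, fun w => rfl⟩
  have hev : ∀ (σ σ' : FreeGroup ι →* Matrix (Fin d) (Fin d) ℂ) (w : FreeGroup ι),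
      MvPolynomial.eval (Sum.elim (pt σ) (pt σ')) (T w) = (σ w).trace - (σ' w).trace := by
    intro σ σ' w
    rw [hT, map_sub, MvPolynomial.eval_rename, MvPolynomial.eval_rename, hF w σ, hF w σ']
    rfl
  have hfg : (Ideal.span (T '' S)).FG := IsNoetherian.noetherian _
  obtain ⟨Ψ, hΨ, hΨs⟩ := (Submodule.fg_span_iff_fg_span_finset_subset _).1 hfg
  have h1 : ∀ f ∈ Ψ, ∃ x ∈ S, T x = f := fun f hf => hΨ hf
  choose! x hx hx' using h1
  refine ⟨Ψ.image x, ?_, fun σ σ' h w hw => ?_⟩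
  · intro y hy
    obtain ⟨f, hf, rfl⟩ := Finset.mem_image.1 hy
    exact hx f hf
  · have h2 : T w ∈ Ideal.span (Ψ : Set (MvPolynomial
        (((ι ⊕ ι) × Fin d × Fin d) ⊕ ((ι ⊕ ι) × Fin d × Fin d)) ℂ)) := by
      have h3 : T w ∈ Ideal.span (T '' S) := Ideal.subset_span ⟨w, hw, rfl⟩
      exact hΨs.le h3
    have h3 : Ideal.span (Ψ : Set (MvPolynomial
        (((ι ⊕ ι) × Fin d × Fin d) ⊕ ((ι ⊕ ι) × Fin d × Fin d)) ℂ)) ≤
        RingHom.ker (MvPolynomial.eval (Sum.elim (pt σ) (pt σ'))) := by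
      rw [Ideal.span_le]
      intro f hf
      have h4 := h (x f) (Finset.mem_image_of_mem _ hf)
      have h5 := hev σ σ' (x f)
      rw [hx' f hf, h4, sub_self] at h5
      exact h5
    have h4 : MvPolynomial.eval (Sum.elim (pt σ) (pt σ')) (T w) = 0 := h3 h2
    rw [hev, sub_eq_zero] at h4
    exact h4

/-- The span of the values on a set is the span of finitely many of them. -/
theorem exists_finite_span (σ : FreeGroup ι → Matrix (Fin d) (Fin d) ℂ) (S : Set (FreeGroup ι)) :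
    ∃ Φ : Finset (FreeGroup ι), (Φ : Set (FreeGroup ι)) ⊆ S ∧
      Submodule.span ℂ (σ '' S) ≤ Submodule.span ℂ (σ '' (Φ : Set (FreeGroup ι))) := by
  classical
  have hfg : (Submodule.span ℂ (σ '' S)).FG := IsNoetherian.noetherian _
  obtain ⟨Ψ, hΨ, hΨs⟩ := (Submodule.fg_span_iff_fg_span_finset_subset _).1 hfg
  have h1 : ∀ f ∈ Ψ, ∃ x ∈ S, σ x = f := fun f hf => hΨ hf
  choose! x hx hx' using h1
  refine ⟨Ψ.image x, ?_, ?_⟩
  · intro y hy
    obtain ⟨f, hf, rfl⟩ := Finset.mem_image.1 hy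
    exact hx f hf
  · rw [hΨs]
    refine Submodule.span_mono fun f hf => ⟨x f, ?_, hx' f hf⟩
    exact Finset.mem_coe.2 (Finset.mem_image_of_mem _ hf)

theorem countable_int : Countable {z : ℂ // IsIntegral ℤ z} := by
  have h1 : {z : ℂ | IsIntegral ℤ z} ⊆ {z : ℂ | IsAlgebraic ℤ z} := fun z hz => hz.isAlgebraic
  exact ((Algebraic.countable ℤ ℂ).mono h1).to_subtype

end Vale.Agent.P002.H252
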