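import Vale.Agent.P002.H252.DefsC
import Vale.Agent.P002.H252.Ba9

/-!
# Countably many types suffice
-/

namespace Vale.Agent.P002.H252

open Matrix Vale.Agent.P002R.Orb Vale.Agent.P002.H326J Vale.Agent.P002.H2

variable {ι : Type} {r s : ℕ}

/-- the set of all types whose normal subgroup is normally finitely generated and whose function is
a character -/
def dataSet (R : Set (FreeGroup ι)) (w : Fin s → FreeGroup ι) :
    Set (TypeDatum (PresentedGroup R)) :=
  {D | D.Valid (fun j => PresentedGroup.mk R (w j)) ∧ ∃ S : Finset (FreeGroup ι),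
    D.N = Subgroup.normalClosure (PresentedGroup.mk R '' (S : Set (FreeGroup ι))) ∧
      ∃ σ : FreeGroup ι →* Matrix (Fin D.d) (Fin D.d) ℂ,
        ∀ y (h : PresentedGroup.mk R y ∈ D.N), (σ y).trace = D.t ⟨PresentedGroup.mk R y, h⟩}

theorem dataSet_countable [Finite ι] (R : Set (FreeGroup ι)) (w : Fin s → FreeGroup ι) :
    (dataSet R w).Countable := by
  have hc1 := countable_presented R
  have hc2 := countable_free (ι := ι)
  have hfg := fg_presented R
  obtain ⟨NS, hNS⟩ : ∃ NS : Finset (FreeGroup ι) → Subgroup (PresentedGroup R), ∀ S,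
      NS S = Subgroup.normalClosure (PresentedGroup.mk R '' (S : Set (FreeGroup ι))) :=
    ⟨_, fun S => rfl⟩
  choose Φ hΦ1 hΦ2 using fun (d : ℕ) (S : Finset (FreeGroup ι)) =>
    exists_finite_test d {y : FreeGroup ι | PresentedGroup.mk R y ∈ NS S}
  obtain ⟨E, hE⟩ : ∃ E : ∀ (K : Subgroup (PresentedGroup R)) (d : ℕ) (S : Finset (FreeGroup ι))
      (_ : {x // x ∈ Φ d S} → {z : ℂ // IsIntegral ℤ z}), Set (TypeDatum (PresentedGroup R)),
      ∀ K d S c, E K d S c = {D | D.K = K ∧ D.d = d ∧ D.N = NS S ∧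
        ∃ σ : FreeGroup ι →* Matrix (Fin D.d) (Fin D.d) ℂ,
          (∀ y (h : PresentedGroup.mk R y ∈ D.N), (σ y).trace = D.t ⟨PresentedGroup.mk R y, h⟩) ∧
            ∀ x : {x // x ∈ Φ d S}, (σ x.1).trace = (c x).1} :=
    ⟨_, fun K d S c => rfl⟩
  have hsub : ∀ K d S c, (E K d S c).Subsingleton := by
    intro K d S c D hD D' hD'
    rw [hE] at hD hD'
    obtain ⟨rfl, rfl, h1, σ, h2, h3⟩ := hD
    obtain ⟨h4, h5, h6, σ', h7, h8⟩ := hD'
    rcases D with ⟨d, K, N, t⟩
    rcases D' with ⟨d', K', N', t'⟩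
    change K' = K at h4
    change d' = d at h5
    change N = NS S at h1
    change N' = NS S at h6
    subst h4 h5 h1 h6
    congr 1
    funext x
    obtain ⟨x, hx⟩ := x
    obtain ⟨y, rfl⟩ := QuotientGroup.mk_surjective x
    have h9 := hΦ2 d' S σ σ' (fun x hx => by rw [h3 ⟨x, hx⟩, h8 ⟨x, hx⟩]) y hx
    exact (h2 y hx).symm.trans (h9.trans (h7 y hx))
  have hcov : dataSet R w ⊆ ⋃ K ∈ {K : Subgroup (PresentedGroup R) | ∃ O : OrbFamily
      (PresentedGroup R), O.K = K}, ⋃ d : ℕ, ⋃ S : Finset (FreeGroup ι), ⋃ c, E K d S c := by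
    rintro D ⟨⟨hD1, hD2, ⟨O, hO, hD4⟩, hD3⟩, S, hS, σ, hσ⟩
    simp only [Set.mem_iUnion]
    have hmem : ∀ x : {x // x ∈ Φ D.d S}, PresentedGroup.mk R x.1 ∈ D.N := by
      intro x
      have := hΦ1 D.d S x.2
      rw [hS, ← hNS]
      exact this
    refine ⟨D.K, ⟨O, hO⟩, D.d, S, fun x => ⟨(σ x.1).trace, ?_⟩, ?_⟩
    · rw [hσ x.1 (hmem x)]
      exact hD3 _
    · rw [hE]
      exact ⟨rfl, rfl, hS.trans (hNS S).symm, σ, hσ, fun x => rfl⟩
  refine Set.Countable.mono hcov ?_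
  refine countable_K.biUnion fun K _ => Set.countable_iUnion fun d => Set.countable_iUnion fun S => ?_
  have := countable_int
  exact Set.countable_iUnion fun c => (hsub K d S c).countable

/-- every subrepresentation which has a type has one of the types in the countable set -/
theorem exists_type (R : Set (FreeGroup ι)) (w : Fin s → FreeGroup ι)
    (X : ι → SpecialLinearGroup (Fin r) ℂ) (W : Submodule ℂ (Fin r → ℂ))
    (D : TypeDatum (PresentedGroup R)) (hD : D.Valid (fun j => PresentedGroup.mk R (w j)))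
    (hT : HasType D X W) : ∃ D ∈ dataSet R w, HasType D X W := by
  rcases D with ⟨d, K, N, t⟩
  obtain ⟨hN, hNK, hO, ht⟩ := hD
  obtain ⟨e, σ', he, hr, heσ', hd, hirr, htr, B, hB, hBi, m, hm⟩ := hT
  change N.Normal at hN
  change N ≤ K at hNK
  change ∀ x : N, IsIntegral ℤ (t x) at ht
  change ∃ O : OrbFamily (PresentedGroup R), O.K = K ∧ _ at hO
  change (Fin d → ℂ) →ₗ[ℂ] (Fin r → ℂ) at e
  change FreeGroup ι → Matrix (Fin d) (Fin d) ℂ at σ'
  change ∀ (x : FreeGroup ι) (h : PresentedGroup.mk R x ∈ N),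
    (σ' x).trace = t ⟨PresentedGroup.mk R x, h⟩ at htr
  change B ≤ K at hB
  change B.relIndex K ≠ 0 at hBi
  change 0 < d at hd
  have hinj : ∀ A A' : Matrix (Fin d) (Fin d) ℂ, (∀ v, e (A *ᵥ v) = e (A' *ᵥ v)) → A = A' := by
    intro A A' h
    apply Matrix.toLin'.injective
    refine LinearMap.ext fun v => he ?_
    rw [Matrix.toLin'_apply, Matrix.toLin'_apply]
    exact h v
  -- `σ'` is multiplicative
  obtain ⟨σ, hσσ⟩ : ∃ σ : FreeGroup ι →* Matrix (Fin d) (Fin d) ℂ, ∀ x, σ x = σ' x := by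
    refine ⟨{ toFun := σ', map_one' := ?_, map_mul' := fun x y => ?_ }, fun x => rfl⟩
    · refine hinj _ _ fun v => ?_
      rw [← heσ', map_one, Matrix.one_mulVec]
      exact Matrix.one_mulVec _
    · refine hinj _ _ fun v => ?_
      rw [← heσ', map_mul, ← Matrix.mulVec_mulVec, ← heσ', ← heσ', Matrix.mulVec_mulVec]
      rfl
  obtain rfl : σ' = fun x => σ x := funext fun x => (hσσ x).symm
  obtain ⟨Φ, hΦ, hΦs⟩ := exists_finite_span (fun x => σ x)
    {y : FreeGroup ι | PresentedGroup.mk R y ∈ N}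
  obtain ⟨N', hN'⟩ : ∃ N' : Subgroup (PresentedGroup R),
      N' = Subgroup.normalClosure (PresentedGroup.mk R '' (Φ : Set (FreeGroup ι))) := ⟨_, rfl⟩
  have hNN : N' ≤ N := by
    rw [hN']
    refine Subgroup.normalClosure_le_normal ?_
    rintro _ ⟨y, hy, rfl⟩
    exact hΦ hy
  refine ⟨⟨d, K, N', fun x => t ⟨x.1, hNN x.2⟩⟩, ⟨⟨?_, hNN.trans hNK, hO, fun x => ht _⟩, Φ, hN',
    σ, fun y hy => htr y (hNN hy)⟩, e, fun x => σ x, he, hr, heσ', hd, hirr,
    fun y hy => htr y (hNN hy), B, hB, hBi, m, fun x hx => ?_⟩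
  · change N'.Normal
    rw [hN']
    exact Subgroup.normalClosure_normal
  · have h1 : Submodule.span ℂ {A | ∃ y, PresentedGroup.mk R y ∈ N ∧ A = σ y} ≤
        Submodule.span ℂ ((fun x => σ x) '' (Φ : Set (FreeGroup ι))) := by
      refine le_trans (Submodule.span_mono ?_) hΦs
      rintro _ ⟨y, hy, rfl⟩
      exact ⟨y, hy, rfl⟩
    refine Submodule.span_mono ?_ (h1 (hm x hx))
    rintro _ ⟨y, hy, rfl⟩
    refine ⟨y, ?_, rfl⟩
    change PresentedGroup.mk R y ∈ N'
    rw [hN']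
    exact Subgroup.subset_normalClosure ⟨y, hy, rfl⟩

end Vale.Agent.P002.H252
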