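import Vale.Agent.P002.H252.Bb1
import Vale.Agent.P002.H252.Ba7
import Vale.Agent.P002.H2.A6

/-!
# From the types to the uniform theorem
-/

namespace Vale.Agent.P002.H252

open Matrix Vale.Agent.P002R.Orb Vale.Agent.P002.H326J Vale.Agent.P002.H2

variable {ι : Type} {r s : ℕ}

theorem exists_decomp_X (X : ι → SpecialLinearGroup (Fin r) ℂ)
    (hss : ∀ W, IsInv X W → ∃ W', IsInv X W' ∧ IsCompl W W') :
    ∃ (k : ℕ) (U : Fin k → Submodule ℂ (Fin r → ℂ)), (∀ a, IsIrrSub X (U a)) ∧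
      (⨆ a, U a) = ⊤ ∧ ∑ a, Module.finrank ℂ (U a) = r := by
  have key : ∀ W, InvAll (fun p => Matrix.toLin' (X p).1) W ↔ IsInv X W := by
    intro W
    unfold InvAll IsInv
    simp only [Matrix.toLin'_apply]
  obtain ⟨k, U, h1, h2, h3⟩ := exists_decomp (fun p => Matrix.toLin' (X p).1) fun W hW => by
    obtain ⟨W', h1, h2⟩ := hss W ((key W).1 hW)
    exact ⟨W', (key W').2 h1, h2⟩
  refine ⟨k, U, fun a => ⟨(h1 a).1, (key _).1 (h1 a).2.1, fun W' hW' hi => ?_⟩, h2, ?_⟩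
  · exact (h1 a).2.2 W' hW' ((key W').2 hi)
  · rw [h3, Module.finrank_fin_fun]

theorem uniform_type [Finite ι] (R : Set (FreeGroup ι)) (w : Fin s → FreeGroup ι)
    (C : Fin s → SpecialLinearGroup (Fin r) ℂ)
    (hmulti : ∀ (k : ℕ) (D : Fin k → TypeDatum (PresentedGroup R)),
      (∀ a, (D a).Valid fun j => PresentedGroup.mk R (w j)) →
        ∃ L : IntermediateField ℚ ℂ, FiniteDimensional ℚ L ∧ IsDenseRep L (YMulti R w C k D))
    (P : Set (MvPolynomial (ι × Fin r × Fin r) ℂ))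
    (B : ℕ → Set (MvPolynomial (ι × Fin r × Fin r) ℂ))
    (hB : ∀ n, IsDenseIn (OpenIn (OpenIn (YW R w C) P) (B n)) (OpenIn (YW R w C) P))
    (hT : ∀ X ∈ OpenIn (YW R w C) P, (∀ n, ∃ F ∈ B n, value F X ≠ 0) → IsTyped R w X) :
    ∃ L : IntermediateField ℚ ℂ, FiniteDimensional ℚ L ∧ IsDenseRep L (OpenIn (YW R w C) P) := by
  have hc := (dataSet_countable R w).to_subtype
  obtain ⟨E, hE⟩ : ∃ E : ℕ → Σ k : ℕ, (Fin k → dataSet R w), Function.Surjective E := by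
    have : Nonempty (Σ k : ℕ, (Fin k → dataSet R w)) := ⟨⟨0, fun a => a.elim0⟩⟩
    exact exists_surjective_nat _
  refine uniform P (BPT_YW R w C P) (fun n => YMulti R w C _ fun a => ((E n).2 a).1)
    (fun n => hmulti _ _ fun a => ((E n).2 a).2.1) (fun n X hX => hX.1) B hB fun X hX hXB => ?_
  obtain ⟨k, U, h1, h2, h3⟩ := exists_decomp_X X hX.1.1.2
  have h4 : ∀ a, ∃ D ∈ dataSet R w, HasType D X (U a) := fun a => by
    obtain ⟨D, hD, hDT⟩ := hT X hX hXB (U a) (h1 a)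
    exact exists_type R w X (U a) D hD hDT
  choose D hD hDT using h4
  obtain ⟨n, hn⟩ := hE ⟨k, fun a => ⟨D a, hD a⟩⟩
  refine ⟨n, ?_⟩
  rw [hn]
  exact ⟨hX.1, U, hDT, h2, h3⟩

end Vale.Agent.P002.H252
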