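import Vale.Agent.P002.H252.Bb2
import Vale.Agent.P002.H2.TI
import Vale.Agent.P002.H2.TJ

/-!
# Representations which are typed
-/

namespace Vale.Agent.P002.H252

open Matrix Vale.Agent.P002R.Orb Vale.Agent.P002.H326J Vale.Agent.P002.H2

variable {ι : Type} {r s : ℕ}

/-- an invariant subspace in coordinates -/
theorem exists_coord (X : ι → SpecialLinearGroup (Fin r) ℂ) (W : Submodule ℂ (Fin r → ℂ))
    (hW : ∀ w, ∀ v ∈ W, (FreeGroup.lift X w).1 *ᵥ v ∈ W) :
    ∃ (e : (Fin (Module.finrank ℂ W) → ℂ) →ₗ[ℂ] (Fin r → ℂ))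
      (σ : FreeGroup ι →* Matrix (Fin (Module.finrank ℂ W)) (Fin (Module.finrank ℂ W)) ℂ),
      Function.Injective e ∧ LinearMap.range e = W ∧
        ∀ x v, (FreeGroup.lift X x).1 *ᵥ e v = e (σ x *ᵥ v) := by
  obtain ⟨b, -⟩ : ∃ b : Module.Basis (Fin (Module.finrank ℂ W)) ℂ W, True :=
    ⟨Module.finBasis ℂ W, trivial⟩
  obtain ⟨f, hf⟩ : ∃ f : FreeGroup ι →* Module.End ℂ W, ∀ x (v : W),
      ((f x v : W) : Fin r → ℂ) = (FreeGroup.lift X x).1 *ᵥ v.1 := by
    refine ⟨{ toFun := fun x => (Matrix.toLin' (FreeGroup.lift X x).1).restrict (hW x)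
              map_one' := ?_
              map_mul' := fun x y => ?_ }, fun x v => rfl⟩
    · refine LinearMap.ext fun v => Subtype.ext ?_
      change (FreeGroup.lift X 1).1 *ᵥ v.1 = v.1
      rw [map_one]
      exact Matrix.one_mulVec _
    · refine LinearMap.ext fun v => Subtype.ext ?_
      change (FreeGroup.lift X (x * y)).1 *ᵥ v.1 =
        (FreeGroup.lift X x).1 *ᵥ ((FreeGroup.lift X y).1 *ᵥ v.1)
      rw [map_mul, Matrix.mulVec_mulVec]
      rfl
  refine ⟨W.subtype ∘ₗ b.equivFun.symm.toLinearMap,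
    (LinearMap.toMatrixAlgEquiv b).toAlgHom.toRingHom.toMonoidHom.comp f, ?_, ?_, fun x v => ?_⟩
  · exact (Submodule.subtype_injective W).comp b.equivFun.symm.injective
  · rw [LinearMap.range_comp, LinearEquiv.range, Submodule.map_top, Submodule.range_subtype]
  · change (FreeGroup.lift X x).1 *ᵥ (b.equivFun.symm v : W).1 =
      ((b.equivFun.symm (LinearMap.toMatrixAlgEquiv b (f x) *ᵥ v) : W) : Fin r → ℂ)
    rw [← hf]
    congr 1
    rw [LinearEquiv.eq_symm_apply]
    have h1 := LinearMap.toMatrix_mulVec_repr b b (f x) (b.equivFun.symm v)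
    have h2 : (b.repr (b.equivFun.symm v) : Fin (Module.finrank ℂ W) → ℂ) = v :=
      b.equivFun.apply_symm_apply v
    rw [h2] at h1
    exact h1.symm

theorem trace_int {d : ℕ} (A : Matrix (Fin d) (Fin d) ℂ)
    (h : ∀ v ≠ 0, ∀ c : ℂ, A *ᵥ v = c • v → IsIntegral ℤ c) : IsIntegral ℤ A.trace := by
  rw [Matrix.trace_eq_sum_roots_charpoly]
  have h1 : ∀ c ∈ A.charpoly.roots, IsIntegral ℤ c := by
    intro c hc
    have h2 : A.charpoly.IsRoot c := Polynomial.isRoot_of_mem_roots hc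
    have h3 : (Matrix.scalar (Fin d) c - A).det = 0 := by
      rw [← Matrix.eval_charpoly]
      exact h2
    obtain ⟨v, hv, hv'⟩ := Matrix.exists_mulVec_eq_zero_iff.2 h3
    refine h v hv c ?_
    rw [Matrix.sub_mulVec, sub_eq_zero] at hv'
    rw [← hv', Matrix.scalar_apply]
    funext i
    rw [Matrix.mulVec_diagonal]
    rfl
  exact multiset_sum_mem (S := integralClosure ℤ ℂ) _ h1

theorem root_of_eigenvector {d : ℕ} {A : Matrix (Fin d) (Fin d) ℂ} {v : Fin d → ℂ} (hv : v ≠ 0)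
    {c : ℂ} (h : A *ᵥ v = c • v) : A.charpoly.IsRoot c := by
  rw [Polynomial.IsRoot, Matrix.eval_charpoly]
  refine Matrix.exists_mulVec_eq_zero_iff.1 ⟨v, hv, ?_⟩
  rw [Matrix.sub_mulVec, sub_eq_zero, h, Matrix.scalar_apply]
  funext i
  rw [Matrix.mulVec_diagonal]
  rfl

/-- A sufficient condition for `X` to be typed, with one family and one normal subgroup for all
subrepresentations. -/
theorem isTyped_of_eig (R : Set (FreeGroup ι)) (w : Fin s → FreeGroup ι)
    (X : ι → SpecialLinearGroup (Fin r) ℂ) (hX : IsRep R X)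
    (O : OrbFamily (PresentedGroup R)) (hO : ∀ j, O.IsPeripheral (PresentedGroup.mk R (w j)))
    (N : Subgroup (PresentedGroup R)) (hN : N.Normal) (hNK : N ≤ O.K)
    (hint : ∀ y, PresentedGroup.mk R y ∈ N → ∀ c, (FreeGroup.lift X y).1.charpoly.IsRoot c →
      IsIntegral ℤ c)
    (hB : ∃ B : Subgroup (PresentedGroup R), B ≤ O.K ∧ B.relIndex O.K ≠ 0 ∧
      ∃ m : ℕ, ∀ x : FreeGroup ι, PresentedGroup.mk R x ∈ (derivedSeries B m).map B.subtype →
        (FreeGroup.lift X x).1 ∈ Submodule.span ℂ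
          {A | ∃ y, PresentedGroup.mk R y ∈ N ∧ A = (FreeGroup.lift X y).1}) :
    IsTyped R w X := by
  intro W hW
  have hWi : ∀ w, ∀ v ∈ W, (FreeGroup.lift X w).1 *ᵥ v ∈ W := fun w v hv => by
    have := (isInv_iff X W).1 hW.2.1 w v hv
    rwa [Matrix.toLin'_apply] at this
  obtain ⟨d, hd, e, σ, he, hr, heσ⟩ : ∃ (d : ℕ) (_ : 0 < d) (e : (Fin d → ℂ) →ₗ[ℂ] (Fin r → ℂ))
      (σ : FreeGroup ι →* Matrix (Fin d) (Fin d) ℂ), Function.Injective e ∧
      LinearMap.range e = W ∧ ∀ x v, (FreeGroup.lift X x).1 *ᵥ e v = e (σ x *ᵥ v) :=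
    ⟨_, Nat.pos_of_ne_zero fun h => hW.1 (Submodule.finrank_eq_zero.1 h), exists_coord X W hWi⟩
  have hinj : ∀ A A' : Matrix (Fin d) (Fin d) ℂ, (∀ v, e (A *ᵥ v) = e (A' *ᵥ v)) → A = A' := by
    intro A A' h
    apply Matrix.toLin'.injective
    refine LinearMap.ext fun v => he ?_
    rw [Matrix.toLin'_apply, Matrix.toLin'_apply]
    exact h v
  have hσ : ∀ x y, PresentedGroup.mk R x = PresentedGroup.mk R y → σ x = σ y := by
    intro x y hxy
    obtain ⟨f, hf⟩ : ∃ f : PresentedGroup R →* SpecialLinearGroup (Fin r) ℂ,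
        ∀ x, f (PresentedGroup.mk R x) = FreeGroup.lift X x :=
      ⟨PresentedGroup.toGroup hX, fun x => rfl⟩
    have h1 : FreeGroup.lift X x = FreeGroup.lift X y := by rw [← hf, ← hf, hxy]
    refine hinj _ _ fun v => ?_
    rw [← heσ, ← heσ, h1]
  obtain ⟨g, hg⟩ : ∃ g : PresentedGroup R → FreeGroup ι, ∀ x, PresentedGroup.mk R (g x) = x :=
    ⟨fun x => (QuotientGroup.mk_surjective x).choose,
      fun x => (QuotientGroup.mk_surjective x).choose_spec⟩
  have htr : ∀ y, PresentedGroup.mk R y ∈ N → IsIntegral ℤ (σ y).trace := by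
    intro y hy
    refine trace_int _ fun v hv c hc => hint y hy c (root_of_eigenvector (v := e v) ?_ ?_)
    · exact fun h => hv (he (by rw [h, map_zero]))
    · rw [heσ, hc, map_smul]
  obtain ⟨B, hB, hBi, m, hm⟩ := hB
  refine ⟨⟨d, O.K, N, fun x => (σ (g x.1)).trace⟩, ⟨hN, hNK, ⟨O, rfl, hO⟩, fun x => ?_⟩,
    e, σ, he, hr, heσ, hd, fun V hV => ?_, fun y hy => ?_, B, hB, hBi, m, fun x hx => ?_⟩
  · refine htr _ ?_
    rw [hg]
    exact x.2
  · -- irreducibility
    have h1 : V.map e ≤ W := by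
      rw [← hr]
      exact LinearMap.map_le_range
    have h2 : IsInv X (V.map e) := by
      rw [isInv_iff]
      rintro x _ ⟨v, hv, rfl⟩
      rw [Matrix.toLin'_apply, matHom_apply, heσ]
      exact ⟨_, hV x v hv, rfl⟩
    rcases hW.2.2 _ h1 h2 with h3 | h3
    · refine Or.inl (eq_bot_iff.2 fun v hv => ?_)
      have h4 : e v ∈ V.map e := ⟨v, hv, rfl⟩
      rw [h3, Submodule.mem_bot] at h4
      exact (Submodule.mem_bot ℂ).2 (he (by rw [h4, map_zero]))
    · refine Or.inr (eq_top_iff.2 fun v _ => ?_)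
      have h4 : e v ∈ V.map e := h3 ▸ hr ▸ LinearMap.mem_range_self e v
      obtain ⟨u, hu, hu'⟩ := h4
      rwa [← he hu']
  · change (σ y).trace = (σ (g (PresentedGroup.mk R y))).trace
    rw [hσ _ y (hg _)]
  · have h1 : ∀ A ∈ Submodule.span ℂ {A | ∃ y, PresentedGroup.mk R y ∈ N ∧
        A = (FreeGroup.lift X y).1}, ∃ A' ∈ Submodule.span ℂ {A | ∃ y, PresentedGroup.mk R y ∈ N ∧
          A = σ y}, ∀ v, A *ᵥ e v = e (A' *ᵥ v) := by
      intro A hA
      induction hA using Submodule.span_induction with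
      | mem A hA =>
        obtain ⟨y, hy, rfl⟩ := hA
        exact ⟨σ y, Submodule.subset_span ⟨y, hy, rfl⟩, heσ y⟩
      | zero =>
        exact ⟨0, Submodule.zero_mem _, fun v => by
          rw [Matrix.zero_mulVec, Matrix.zero_mulVec, map_zero]⟩
      | add A A₂ _ _ h2 h3 =>
        obtain ⟨A', h2, h4⟩ := h2
        obtain ⟨A₂', h3, h5⟩ := h3
        exact ⟨A' + A₂', Submodule.add_mem _ h2 h3, fun v => by
          rw [Matrix.add_mulVec, Matrix.add_mulVec, map_add, h4, h5]⟩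
      | smul c A _ h2 =>
        obtain ⟨A', h2, h4⟩ := h2
        exact ⟨c • A', Submodule.smul_mem _ _ h2, fun v => by
          rw [Matrix.smul_mulVec, Matrix.smul_mulVec, map_smul, h4]⟩
    obtain ⟨A', hA', hA'e⟩ := h1 _ (hm x hx)
    have h2 : σ x = A' := hinj _ _ fun v => by rw [← heσ, hA'e]
    rw [h2]
    exact hA'

/-- The points of `YRel` are typed. -/
theorem isTyped_of_yrel (R : Set (FreeGroup ι)) (w : Fin s → FreeGroup ι)
    (C : Fin s → SpecialLinearGroup (Fin r) ℂ)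
    (O : OrbFamily (PresentedGroup R)) (hO : ∀ j, O.IsPeripheral (PresentedGroup.mk R (w j)))
    (N : Subgroup (PresentedGroup R)) (hN : N.Normal) (hNK : N ≤ O.K) (t : N → ℂ)
    (ht : ∀ x, IsIntegral ℤ (t x)) (X : ι → SpecialLinearGroup (Fin r) ℂ)
    (hX : X ∈ YRel R w C O.K N t) : IsTyped R w X := by
  obtain ⟨⟨⟨⟨hrel, hss⟩, hC⟩, htr⟩, hB⟩ := hX
  refine isTyped_of_eig R w X hrel O hO N hN hNK ?_ hB
  have hss' : SSOn ⊤ (FreeGroup.lift X) := by
    intro W hW
    obtain ⟨W', h1, h2⟩ := hss W ((isInv_iff X W).2 fun x v hv => by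
      rw [Matrix.toLin'_apply]
      exact hW x trivial v hv)
    refine ⟨W', fun x _ v hv => ?_, h2⟩
    have := (isInv_iff X W').1 h1 x v hv
    rwa [Matrix.toLin'_apply] at this
  have hZ : (N.comap (PresentedGroup.mk R)).Normal := hN.comap _
  intro y hy c hc
  exact (eig_of_trace (N.comap (PresentedGroup.mk R)) (FreeGroup.lift X)
    (ss_normal _ hZ _ hss') (fun z hz => by
      rw [htr z hz]
      exact ht _) y hy c hc).1

end Vale.Agent.P002.H252
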