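import Vale.Agent.P002.H252.Sysm

/-!
# Connectedness of the system of words of a covering, after deleting a tree
-/

namespace Vale.Agent.P002.H252

open NAut

namespace Cov

variable {g n : ℕ} {m : Fin n → ℕ} {D : Type} [Group D] {δ : G0 g n → D}
  {hD : IsOrb g n m D δ} {H : Subgroup D} (K : Cov hD H)

/-- the letters of the tree -/
def T (e : (D ⧸ H) × G0 g n) : Prop :=
  ∃ y, y ≠ ((1 : D) : D ⧸ H) ∧ treeLet δ H K.par K.lab y = e

/-- the value of a function on faces along the word with suffix `w` -/
noncomputable def Th [Fintype (D ⧸ H)] (k u : D ⧸ H → ℚ) (w : List (G0 g n × Bool)) : ℚ :=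
  ∑ x, k x * u (evalB δ w • x)

theorem th_true [Fintype (D ⧸ H)] (k u : D ⧸ H → ℚ) (s : G0 g n) (v : List (G0 g n × Bool)) :
    Th (δ := δ) k u ((s, true) :: v) - Th (δ := δ) k u v =
      ∑ y, k ((evalB δ v)⁻¹ • y) * (u (δ s • y) - u y) := by
  unfold Th
  rw [← Finset.sum_sub_distrib]
  refine Fintype.sum_equiv (MulAction.toPerm (evalB δ v)) _ _ fun x => ?_
  simp [sg, mul_smul, mul_sub]

theorem th_false [Fintype (D ⧸ H)] (k u : D ⧸ H → ℚ) (s : G0 g n) (v : List (G0 g n × Bool)) :
    Th (δ := δ) k u ((s, false) :: v) - Th (δ := δ) k u v =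
      - ∑ y, k ((evalB δ v)⁻¹ • δ s • y) * (u (δ s • y) - u y) := by
  unfold Th
  rw [← Finset.sum_sub_distrib, ← Finset.sum_neg_distrib]
  refine Fintype.sum_equiv (MulAction.toPerm ((δ s)⁻¹ * evalB δ v)) _ _ fun x => ?_
  simp [sg, mul_smul]
  ring

/-- telescoping along the surface word -/
theorem telescope (G : G0 g n × Bool → ℚ) (Θ : List (G0 g n × Bool) → ℚ)
    (hG : ∀ pre d v, word0 g n = pre ++ d :: v → G d = Θ (d :: v) - Θ v) :
    ∀ w pre, word0 g n = pre ++ w → (w.map G).sum = Θ w - Θ [] := by
  intro w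
  induction w with
  | nil => intro pre _; simp
  | cons d w ih =>
    intro pre h
    rw [List.map_cons, List.sum_cons, ih (pre ++ [d]) (by rw [h]; simp), hG pre d w h]
    ring

theorem sum_word0 (G : G0 g n × Bool → ℚ) : ((word0 g n).map G).sum =
    ∑ s, G (s, true) + ∑ q : Fin g × Bool, G (Sum.inl q, false) := by
  classical
  rw [← List.sum_toFinset G nodup_word0]
  have h1 : (word0 g n).toFinset = (Finset.univ : Finset (G0 g n)).image (fun s => (s, true)) ∪
      (Finset.univ : Finset (Fin g × Bool)).image (fun q => (Sum.inl q, false)) := by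
    ext ⟨s, b⟩
    rw [List.mem_toFinset, Finset.mem_union, Finset.mem_image, Finset.mem_image]
    constructor
    · intro h
      cases b
      · right
        rcases s with q | j
        · exact ⟨q, Finset.mem_univ _, rfl⟩
        · exact absurd h (not_mem_word0 j)
      · left
        exact ⟨s, Finset.mem_univ _, rfl⟩
    · rintro (⟨s', -, h⟩ | ⟨q, -, h⟩)
      · rw [← h]; exact mem_word0_true s'
      · rw [← h]; exact mem_word0_false q
  rw [h1, Finset.sum_union, Finset.sum_image, Finset.sum_image]
  · intro a _ b _ h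
    simpa using h
  · intro a _ b _ h
    simpa using h
  · rw [Finset.disjoint_left]
    intro x hx hx'
    rw [Finset.mem_image] at hx hx'
    obtain ⟨s, -, rfl⟩ := hx
    obtain ⟨q, -, h⟩ := hx'
    simp at h

theorem conn_full [H.FiniteIndex] (k : (D ⧸ H) ⊕ K.Cyc → ℚ)
    (hk : ∀ e : (D ⧸ H) × G0 g n, ¬ K.T e → ∀ i j, Sum.inl (e, true) ∈ K.wfull i →
      Sum.inl (e, false) ∈ K.wfull j → k i = k j) : ∀ i j, k i = k j := by
  classical
  have : Fintype (D ⧸ H) := Fintype.ofFinite _
  have hT' : ∀ s : G0 g n, ∃ pre v, word0 g n = pre ++ (s, true) :: v := fun s =>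
    List.append_of_mem (mem_word0_true s)
  have hF' : ∀ q : Fin g × Bool, ∃ pre v, word0 g n = pre ++ (Sum.inl q, false) :: v := fun q =>
    List.append_of_mem (mem_word0_false q)
  choose pT vT hvT using hT'
  choose pF vF hvF using hF'
  let k0 : D ⧸ H → ℚ := fun x => k (Sum.inl x)
  let A : (D ⧸ H) × G0 g n → ℚ := fun e => k0 ((evalB δ (vT e.2))⁻¹ • e.1)
  let B : (D ⧸ H) × G0 g n → ℚ := fun e => match e.2 with
    | Sum.inl q => k0 ((evalB δ (vF q))⁻¹ • δ (Sum.inl q) • e.1)
    | Sum.inr j => k (Sum.inr (K.cyc j e.1))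
  have hAmem : ∀ e : (D ⧸ H) × G0 g n, Sum.inl (e, true) ∈
      K.wfull (Sum.inl ((evalB δ (vT e.2))⁻¹ • e.1)) := by
    rintro ⟨y, s⟩
    change _ ∈ K.fword _
    rw [mem_fword]
    refine ⟨pT s, _, vT s, hvT s, ?_⟩
    rw [smul_inv_smul]
    simp [letB]
  have hAB : ∀ e, ¬ K.T e → A e = B e := by
    rintro ⟨y, s⟩ he
    rcases s with q | j
    · refine hk _ he _ (Sum.inl ((evalB δ (vF q))⁻¹ • δ (Sum.inl q) • y)) (hAmem _) ?_
      change _ ∈ K.fword _
      rw [mem_fword]
      refine ⟨pF q, _, vF q, hvF q, ?_⟩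
      rw [smul_inv_smul]
      simp [letB]
    · refine hk _ he _ (Sum.inr (K.cyc j y)) (hAmem _) ?_
      change _ ∈ K.zword _
      rw [mem_zword]
      right
      obtain ⟨i, hi, hiy⟩ := K.exists_pow j y
      refine ⟨i, hi, ?_⟩
      change _ = Sum.inl ((δ (Sum.inr j) ^ i • K.rep (K.cyc j y), Sum.inr j), false)
      rw [hiy]
  -- orthogonality to coboundaries
  have horth : ∀ u : D ⧸ H → ℚ, ∑ e : (D ⧸ H) × G0 g n, (A e - B e) * (u (δ e.2 • e.1) - u e.1) =
      0 := by
    intro u
    let Θ : List (G0 g n × Bool) → ℚ := Th (δ := δ) k0 u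
    let G : G0 g n × Bool → ℚ := fun d => match d with
      | (s, true) => Θ ((s, true) :: vT s) - Θ (vT s)
      | (Sum.inl q, false) => Θ ((Sum.inl q, false) :: vF q) - Θ (vF q)
      | (Sum.inr j, false) => 0
    have hG : ∀ pre d v, word0 g n = pre ++ d :: v → G d = Θ (d :: v) - Θ v := by
      rintro pre ⟨s, b⟩ v h
      cases b
      · rcases s with q | j
        · rw [suffix_unique nodup_word0 h (hvF q)]
        · exact absurd (by rw [h]; simp) (not_mem_word0 (g := g) j)
      · rw [suffix_unique nodup_word0 h (hvT s)]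
    have h1 := telescope G Θ hG (word0 g n) [] rfl
    have h2 : Θ (word0 g n) = Θ [] := by
      change ∑ x, _ = ∑ x, _
      refine Finset.sum_congr rfl fun x _ => ?_
      rw [hD.rel, evalB_nil]
    rw [h2, sub_self, sum_word0] at h1
    have h3 : ∀ s, G (s, true) = ∑ y, A (y, s) * (u (δ s • y) - u y) := fun s =>
      th_true k0 u s (vT s)
    have h4 : ∀ q, G (Sum.inl q, false) =
        - ∑ y, B (y, Sum.inl q) * (u (δ (Sum.inl q) • y) - u y) := fun q =>
      th_false k0 u (Sum.inl q) (vF q)
    have h5 : ∀ j, ∑ y, B (y, Sum.inr j) * (u (δ (Sum.inr j) • y) - u y) = 0 := by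
      intro j
      simp only [mul_sub, Finset.sum_sub_distrib]
      rw [sub_eq_zero]
      refine Fintype.sum_equiv (MulAction.toPerm (δ (Sum.inr j))) _ _ fun y => ?_
      change k (Sum.inr (K.cyc j y)) * u (δ (Sum.inr j) • y) =
        k (Sum.inr (K.cyc j (δ (Sum.inr j) • y))) * u (δ (Sum.inr j) • y)
      rw [K.cyc_smul]
    simp only [h3, h4, Finset.sum_neg_distrib] at h1
    rw [Fintype.sum_prod_type_right]
    simp only [sub_mul, Finset.sum_sub_distrib]
    rw [Fintype.sum_sum_type (fun s => ∑ y, B (y, s) * (u (δ s • y) - u y))]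
    simp only [h5, Finset.sum_const_zero, add_zero]
    linarith
  -- a function with prescribed coboundary on the tree
  obtain ⟨u, -, hu⟩ := tree_rec (x0 := ((1 : D) : D ⧸ H)) K.dist K.par K.hdist (0 : ℚ)
    (fun y c => if (K.lab y).2 then
      c + (A (treeLet δ H K.par K.lab y) - B (treeLet δ H K.par K.lab y)) else
      c - (A (treeLet δ H K.par K.lab y) - B (treeLet δ H K.par K.lab y)))
  have hdu : ∀ e, K.T e → u (δ e.2 • e.1) - u e.1 = A e - B e := by
    rintro e ⟨y, hy, rfl⟩
    have h1 := hu y hy
    have h2 := K.hlab y hy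
    obtain ⟨⟨s, b⟩, hsb⟩ : ∃ d, d = K.lab y := ⟨_, rfl⟩
    cases b
    · have h3 : treeLet δ H K.par K.lab y = (y, s) := by
        rw [← hsb] at h2
        simp only [sg, Bool.false_eq_true, if_false] at h2
        simp only [treeLet, letB, ← hsb, Bool.false_eq_true, if_false, ← h2]
      rw [← hsb, h3] at h1
      rw [← hsb] at h2
      simp only [sg, Bool.false_eq_true, if_false] at h1 h2
      rw [h3]
      have h4 : δ s • y = K.par y := by
        conv_lhs => rw [h2]
        rw [smul_inv_smul]
      simp only [h4]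
      rw [h1]
      ring
    · have h3 : treeLet δ H K.par K.lab y = (K.par y, s) := by
        simp only [treeLet, letB, ← hsb, if_true]
      rw [← hsb, h3] at h1
      rw [← hsb] at h2
      simp only [sg, if_true] at h1 h2
      rw [h3]
      simp only
      rw [← h2, h1]
      ring
  have hzero : ∀ e, A e = B e := by
    have h1 := horth u
    have h2 : ∀ e ∈ (Finset.univ : Finset ((D ⧸ H) × G0 g n)),
        (A e - B e) * (u (δ e.2 • e.1) - u e.1) = (A e - B e) ^ 2 := by
      intro e _
      by_cases he : K.T e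
      · rw [hdu e he]; ring
      · rw [hAB e he]; ring
    rw [Finset.sum_congr rfl h2, Finset.sum_eq_zero_iff_of_nonneg fun e _ => sq_nonneg _] at h1
    intro e
    have := h1 e (Finset.mem_univ e)
    have h3 : A e - B e = 0 := by simpa using this
    linarith
  -- the stabilizer of the colouring
  let St : Subgroup D :=
    { carrier := {d | ∀ x, k0 (d • x) = k0 x}
      one_mem' := fun x => by rw [one_smul]
      mul_mem' := fun {a b} ha hb x => by rw [mul_smul, ha, hb]
      inv_mem' := fun {a} ha x => by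
        have := ha (a⁻¹ • x)
        rw [smul_inv_smul] at this
        exact this.symm }
  have hSt : ∀ d, d ∈ St ↔ ∀ x, k0 (d • x) = k0 x := fun d => Iff.rfl
  -- the letters `c_j`
  have hc : ∀ (cs : List (Fin n)) (pre : List (G0 g n × Bool)),
      word0 g n = pre ++ cs.map (cLet g n) → evalB δ (cs.map (cLet g n)) ∈ St ∧
        ∀ j ∈ cs, δ (Sum.inr j) ∈ St ∧ ∀ x, k (Sum.inr (K.cyc j x)) = k0 x := by
    intro cs
    induction cs with
    | nil => intro pre _; exact ⟨by simp [St.one_mem], by simp⟩
    | cons j cs ih =>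
      intro pre h
      obtain ⟨h1, h2⟩ := ih (pre ++ [cLet g n j]) (by rw [h]; simp)
      rw [List.map_cons] at h
      have h3 : vT (Sum.inr j) = cs.map (cLet g n) :=
        suffix_unique nodup_word0 (hvT (Sum.inr j)) h
      have h4 : ∀ x, k (Sum.inr (K.cyc j x)) = k0 x := by
        intro x
        have h5 := hzero (x, Sum.inr j)
        change k0 ((evalB δ (vT (Sum.inr j)))⁻¹ • x) = k (Sum.inr (K.cyc j x)) at h5
        rw [← h5, h3, (hSt _).1 (St.inv_mem h1)]
      have h6 : δ (Sum.inr j) ∈ St := by
        rw [hSt]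
        intro x
        rw [← h4, K.cyc_smul, h4]
      refine ⟨?_, ?_⟩
      · rw [List.map_cons, evalB_cons]
        exact St.mul_mem h6 h1
      · intro i hi
        rcases List.mem_cons.1 hi with rfl | hi
        · exact ⟨h6, h4⟩
        · exact h2 i hi
  have hcall := hc (List.finRange n) _ rfl
  -- the blocks
  have hb : ∀ (ls : List (Fin g)) (pre : List (G0 g n × Bool)),
      word0 g n = pre ++ (ls.flatMap (block g n) ++ (List.finRange n).map (cLet g n)) →
        evalB δ (ls.flatMap (block g n) ++ (List.finRange n).map (cLet g n)) ∈ St ∧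
        ∀ l ∈ ls, ∀ b, δ (Sum.inl (l, b)) ∈ St := by
    intro ls
    induction ls with
    | nil => intro pre _; exact ⟨by simpa using hcall.1, by simp⟩
    | cons l ls ih =>
      intro pre h
      set V := ls.flatMap (block g n) ++ (List.finRange n).map (cLet g n) with hV
      have h' : word0 g n = pre ++ (Sum.inl (l, false), true) :: (Sum.inl (l, true), true) ::
          (Sum.inl (l, false), false) :: (Sum.inl (l, true), false) :: V := by
        rw [h, hV, List.flatMap_cons, block]
        simp
      obtain ⟨h1, h2⟩ := ih (pre ++ [(Sum.inl (l, false), true), (Sum.inl (l, true), true),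
        (Sum.inl (l, false), false), (Sum.inl (l, true), false)]) (by rw [h']; simp)
      have e1 : vT (Sum.inl (l, false)) = (Sum.inl (l, true), true) ::
          (Sum.inl (l, false), false) :: (Sum.inl (l, true), false) :: V :=
        suffix_unique nodup_word0 (hvT _) h'
      have e2 : vT (Sum.inl (l, true)) = (Sum.inl (l, false), false) ::
          (Sum.inl (l, true), false) :: V :=
        suffix_unique nodup_word0 (p' := pre ++ [(Sum.inl (l, false), true)]) (hvT _)
          (by rw [h']; simp)
      have e3 : vF (l, false) = (Sum.inl (l, true), false) :: V :=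
        suffix_unique nodup_word0 (p' := pre ++ [(Sum.inl (l, false), true),
          (Sum.inl (l, true), true)]) (hvF _) (by rw [h']; simp)
      have e4 : vF (l, true) = V :=
        suffix_unique nodup_word0 (p' := pre ++ [(Sum.inl (l, false), true),
          (Sum.inl (l, true), true), (Sum.inl (l, false), false)]) (hvF _) (by rw [h']; simp)
      set a := δ (Sum.inl (l, false)) with ha
      set b := δ (Sum.inl (l, true)) with hbb
      set W := evalB δ V with hW
      have hga : (b⁻¹ * W)⁻¹ * a * (b * a⁻¹ * b⁻¹ * W) ∈ St := by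
        rw [hSt]
        intro x
        have h5 := hzero ((b * a⁻¹ * b⁻¹ * W) • x, Sum.inl (l, false))
        change k0 ((evalB δ (vT (Sum.inl (l, false))))⁻¹ • (b * a⁻¹ * b⁻¹ * W) • x) =
          k0 ((evalB δ (vF (l, false)))⁻¹ • δ (Sum.inl (l, false)) • (b * a⁻¹ * b⁻¹ * W) • x) at h5
        rw [e1, e3] at h5
        simp only [evalB_cons, sg, Bool.false_eq_true, if_false, if_true, ← ha, ← hbb, ← hW,
          ← mul_smul] at h5
        have h6 : (b * (a⁻¹ * (b⁻¹ * W)))⁻¹ * (b * a⁻¹ * b⁻¹ * W) = 1 := by group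
        rw [h6, one_smul] at h5
        rw [h5, mul_assoc]
      have hgb : W⁻¹ * b * (a⁻¹ * b⁻¹ * W) ∈ St := by
        rw [hSt]
        intro x
        have h5 := hzero ((a⁻¹ * b⁻¹ * W) • x, Sum.inl (l, true))
        change k0 ((evalB δ (vT (Sum.inl (l, true))))⁻¹ • (a⁻¹ * b⁻¹ * W) • x) =
          k0 ((evalB δ (vF (l, true)))⁻¹ • δ (Sum.inl (l, true)) • (a⁻¹ * b⁻¹ * W) • x) at h5
        rw [e2, e4] at h5
        simp only [evalB_cons, sg, Bool.false_eq_true, if_false, ← ha, ← hbb, ← hW,
          ← mul_smul] at h5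
        have h6 : (a⁻¹ * (b⁻¹ * W))⁻¹ * (a⁻¹ * b⁻¹ * W) = 1 := by group
        rw [h6, one_smul] at h5
        rw [h5, mul_assoc]
      have hga' : b * a * b * a⁻¹ * b⁻¹ ∈ St := by
        have := St.mul_mem (St.mul_mem h1 hga) (St.inv_mem h1)
        convert this using 1
        group
      have hgb' : b * a⁻¹ * b⁻¹ ∈ St := by
        have := St.mul_mem (St.mul_mem h1 hgb) (St.inv_mem h1)
        convert this using 1
        group
      have hba : b * a ∈ St := by
        have := St.mul_mem hga' (St.inv_mem hgb')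
        convert this using 1
        group
      have hb' : b ∈ St := by
        have := St.mul_mem hgb' hba
        convert this using 1
        group
      have ha' : a ∈ St := by
        have := St.mul_mem (St.inv_mem hb') hba
        convert this using 1
        group
      refine ⟨?_, ?_⟩
      · have h7 : evalB δ ((l :: ls).flatMap (block g n) ++ (List.finRange n).map (cLet g n)) =
            a * b * a⁻¹ * b⁻¹ * W := by
          rw [List.flatMap_cons, List.append_assoc, ← hV, block]
          simp only [List.cons_append, List.nil_append, evalB_cons, sg, Bool.false_eq_true,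
            if_false, if_true, ← ha, ← hbb, ← hW]
          group
        rw [h7]
        exact St.mul_mem (St.mul_mem (St.mul_mem (St.mul_mem ha' hb') (St.inv_mem ha'))
          (St.inv_mem hb')) h1
      · intro l' hl'
        rcases List.mem_cons.1 hl' with rfl | hl'
        · intro e
          cases e
          · exact ha'
          · exact hb'
        · exact h2 l' hl'
  have hball := hb (List.finRange g) [] rfl
  have htop : St = ⊤ := by
    rw [eq_top_iff, ← hD.gen, Subgroup.closure_le]
    rintro _ ⟨s, rfl⟩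
    rcases s with ⟨l, b⟩ | j
    · exact hball.2 l (List.mem_finRange l) b
    · exact (hcall.2 j (List.mem_finRange j)).1
  have hconst : ∀ x, k0 x = k0 ((1 : D) : D ⧸ H) := by
    intro x
    have h1 : K.t x ∈ St := by rw [htop]; trivial
    rw [hSt] at h1
    rw [← h1 ((1 : D) : D ⧸ H), K.t_smul]
  have hall : ∀ i, k i = k0 ((1 : D) : D ⧸ H) := by
    rintro (x | O)
    · exact hconst x
    · rw [← K.cyc_rep O, (hcall.2 O.1 (List.mem_finRange _)).2, hconst]
  intro i j
  rw [hall i, hall j]

end Cov

end Vale.Agent.P002.H252
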