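import Vale.Agent.P002.H252.Merge

/-!
# Orbicurve groups; lifting words to a covering; Reidemeister-Schreier
-/

namespace Vale.Agent.P002.H252

open NAut

/-- Generators of an orbicurve group: `inl (l, false) = a_l`, `inl (l, true) = b_l`,
`inr j = c_j`. -/
abbrev G0 (g n : ℕ) := (Fin g × Bool) ⊕ Fin n

/-- the block `a b a⁻¹ b⁻¹` -/
def block (g n : ℕ) (l : Fin g) : List (G0 g n × Bool) :=
  [(Sum.inl (l, false), true), (Sum.inl (l, true), true), (Sum.inl (l, false), false),
    (Sum.inl (l, true), false)]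

/-- the letter `c_j` -/
def cLet (g n : ℕ) (j : Fin n) : G0 g n × Bool := (Sum.inr j, true)

/-- the word `∏ [a_l, b_l] * ∏ c_j` -/
def word0 (g n : ℕ) : List (G0 g n × Bool) :=
  (List.finRange g).flatMap (block g n) ++ (List.finRange n).map (cLet g n)

section evalB

variable {ι : Type} {D : Type} [Group D]

/-- the value of a word -/
def evalB (δ : ι → D) (w : List (ι × Bool)) : D := (w.map fun d => sg d.2 (δ d.1)).prod

@[simp] theorem evalB_nil (δ : ι → D) : evalB δ [] = 1 := rfl

@[simp] theorem evalB_cons (δ : ι → D) (d : ι × Bool) (w : List (ι × Bool)) :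
    evalB δ (d :: w) = sg d.2 (δ d.1) * evalB δ w := by
  simp [evalB]

@[simp] theorem evalB_append (δ : ι → D) (v w : List (ι × Bool)) :
    evalB δ (v ++ w) = evalB δ v * evalB δ w := by
  simp [evalB]

theorem map_evalB {D' : Type} [Group D'] (θ : D →* D') (δ : ι → D) (w : List (ι × Bool)) :
    θ (evalB δ w) = evalB (fun s => θ (δ s)) w := by
  induction w with
  | nil => simp
  | cons d w ih => simp [ih, map_sg]

end evalB

section lift

variable {ι X : Type} {D : Type} [Group D] [MulAction D X]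

/-- the letter over `d` with starting point `y` -/
def letB (δ : ι → D) (d : ι × Bool) (y : X) : (X × ι) × Bool :=
  if d.2 then ((y, d.1), true) else (((δ d.1)⁻¹ • y, d.1), false)

/-- the lift of a word (read from the right) with starting point `x` -/
def liftW (δ : ι → D) (x : X) : List (ι × Bool) → List ((X × ι) × Bool)
  | [] => []
  | d :: w => letB δ d (evalB δ w • x) :: liftW δ x w

theorem liftW_append (δ : ι → D) (x : X) (v w : List (ι × Bool)) :
    liftW δ x (v ++ w) = liftW δ (evalB δ w • x) v ++ liftW δ x w := by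
  induction v with
  | nil => rfl
  | cons d v ih => simp [liftW, ih, mul_smul]

variable {Q : Type} [Group Q]

/-- the permutation of `X × Q` attached to a generator -/
def permQ (δ : ι → D) (f : X × ι → Q) (s : ι) : Equiv.Perm (X × Q) where
  toFun z := (δ s • z.1, f (z.1, s) * z.2)
  invFun z := ((δ s)⁻¹ • z.1, (f ((δ s)⁻¹ • z.1, s))⁻¹ * z.2)
  left_inv z := by simp
  right_inv z := by simp

theorem permQ_apply (δ : ι → D) (f : X × ι → Q) (s : ι) (x : X) (q : Q) :
    permQ δ f s (x, q) = (δ s • x, f (x, s) * q) := rfl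

theorem permQ_inv_apply (δ : ι → D) (f : X × ι → Q) (s : ι) (x : X) (q : Q) :
    (permQ δ f s)⁻¹ (x, q) = ((δ s)⁻¹ • x, (f ((δ s)⁻¹ • x, s))⁻¹ * q) := rfl

theorem evalB_permQ (δ : ι → D) (f : X × ι → Q) (w : List (ι × Bool)) (x : X) (q : Q) :
    evalB (permQ δ f) w (x, q) = (evalB δ w • x, evalB f (liftW δ x w) * q) := by
  induction w with
  | nil => simp [liftW]
  | cons d w ih =>
    obtain ⟨s, b⟩ := d
    rw [evalB_cons, Equiv.Perm.mul_apply, ih, liftW, evalB_cons, evalB_cons]
    cases b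
    · change (permQ δ f s)⁻¹ _ = _
      rw [permQ_inv_apply]
      simp [letB, sg, mul_smul, mul_assoc]
    · change (permQ δ f s) _ = _
      rw [permQ_apply]
      simp [letB, sg, mul_smul, mul_assoc]

theorem permQ_comm (δ : ι → D) (f : X × ι → Q) (s : ι) (x : X) (q q' : Q) :
    permQ δ f s (x, q * q') = ((permQ δ f s (x, q)).1, (permQ δ f s (x, q)).2 * q') := by
  simp [permQ_apply, mul_assoc]

end lift

/-- `D` is the orbicurve group of genus `g` with marked points `j : Fin n` of order `m j`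
(punctures if `m j = 0`), with standard generators `δ`. -/
structure IsOrb (g n : ℕ) (m : Fin n → ℕ) (D : Type) [Group D] (δ : G0 g n → D) : Prop where
  rel : evalB δ (word0 g n) = 1
  tors : ∀ j, δ (Sum.inr j) ^ m j = 1
  gen : Subgroup.closure (Set.range δ) = ⊤
  univ : ∀ (Q : Type) [Group Q] (η : G0 g n → Q), evalB η (word0 g n) = 1 →
    (∀ j, η (Sum.inr j) ^ m j = 1) → ∃ Φ : D →* Q, ∀ s, Φ (δ s) = η s

section tree

/-- Recursion along a tree given by parents. -/
theorem tree_rec {X : Type} {x0 : X} (dist : X → ℕ) (par : X → X)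
    (hpar : ∀ y, y ≠ x0 → dist (par y) < dist y) {α : Type} (b : α) (step : X → α → α) :
    ∃ F : X → α, F x0 = b ∧ ∀ y, y ≠ x0 → F y = step y (F (par y)) := by
  classical
  let F : X → α := WellFounded.fix (measure dist).wf
    (fun y ih => if h : y = x0 then b else step y (ih (par y) (hpar y h)))
  refine ⟨F, ?_, fun y hy => ?_⟩
  · change WellFounded.fix _ _ _ = _
    rw [WellFounded.fix_eq]
    simp
  · change WellFounded.fix _ _ _ = _
    rw [WellFounded.fix_eq]
    simp only [hy, dif_neg, not_false_eq_true]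
    rfl

variable {ι : Type} {D : Type} [Group D] (δ : ι → D) (H : Subgroup D)

theorem exists_evalB (hgen : Subgroup.closure (Set.range δ) = ⊤) (x : D) :
    ∃ w : List (ι × Bool), evalB δ w = x := by
  have hx : x ∈ Subgroup.closure (Set.range δ) := by rw [hgen]; trivial
  induction hx using Subgroup.closure_induction with
  | mem x hx =>
    obtain ⟨s, rfl⟩ := hx
    exact ⟨[(s, true)], by simp [sg]⟩
  | one => exact ⟨[], rfl⟩
  | mul x y _ _ hx hy =>
    obtain ⟨v, rfl⟩ := hx
    obtain ⟨w, rfl⟩ := hy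
    exact ⟨v ++ w, by simp⟩
  | inv x _ hx =>
    obtain ⟨v, rfl⟩ := hx
    refine ⟨(v.map fun d => (d.1, !d.2)).reverse, ?_⟩
    clear * -
    induction v with
    | nil => simp
    | cons d v ih =>
      rw [List.map_cons, List.reverse_cons, evalB_append, ih, evalB_cons]
      obtain ⟨s, b⟩ := d
      cases b <;> simp [sg]

/-- the letter of the edge from `par y` to `y` -/
def treeLet (par : D ⧸ H → D ⧸ H) (lab : D ⧸ H → ι × Bool) (y : D ⧸ H) : (D ⧸ H) × ι :=
  (letB δ (lab y) (par y)).1

theorem exists_tree [Nonempty ι] (hgen : Subgroup.closure (Set.range δ) = ⊤) :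
    ∃ (dist : D ⧸ H → ℕ) (par : D ⧸ H → D ⧸ H) (lab : D ⧸ H → ι × Bool),
      (∀ y, y ≠ ((1 : D) : D ⧸ H) → dist (par y) < dist y) ∧
      (∀ y, y ≠ ((1 : D) : D ⧸ H) → y = sg (lab y).2 (δ (lab y).1) • par y) := by
  classical
  let x0 : D ⧸ H := ((1 : D) : D ⧸ H)
  have hex : ∀ y : D ⧸ H, ∃ k : ℕ, ∃ w : List (ι × Bool), w.length = k ∧ evalB δ w • x0 = y := by
    intro y
    obtain ⟨x, rfl⟩ := QuotientGroup.mk_surjective y
    obtain ⟨w, hw⟩ := exists_evalB δ hgen x
    refine ⟨w.length, w, rfl, ?_⟩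
    rw [hw]
    change ((x * 1 : D) : D ⧸ H) = _
    rw [mul_one]
  let dist : D ⧸ H → ℕ := fun y => Nat.find (hex y)
  have key : ∀ y, y ≠ x0 → ∃ (d : ι × Bool) (y' : D ⧸ H), dist y' < dist y ∧
      y = sg d.2 (δ d.1) • y' := by
    intro y hy
    obtain ⟨w, hw, hwy⟩ := Nat.find_spec (hex y)
    obtain _ | ⟨d, w⟩ := w
    · rw [evalB_nil, one_smul] at hwy
      exact absurd hwy.symm hy
    · refine ⟨d, evalB δ w • x0, ?_, ?_⟩
      · refine lt_of_le_of_lt (Nat.find_min' (hex _) ⟨w, rfl, rfl⟩) ?_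
        change _ < Nat.find (hex y)
        rw [← hw]
        simp
      · rw [← hwy, evalB_cons, mul_smul]
  have key' : ∀ y, ∃ (d : ι × Bool) (y' : D ⧸ H), y ≠ x0 → dist y' < dist y ∧
      y = sg d.2 (δ d.1) • y' := by
    intro y
    by_cases hy : y = x0
    · exact ⟨(Classical.arbitrary ι, true), y, fun h => absurd hy h⟩
    · obtain ⟨d, y', h⟩ := key y hy
      exact ⟨d, y', fun _ => h⟩
  choose lab par h using key'
  exact ⟨dist, par, lab, fun y hy => (h y hy).1, fun y hy => (h y hy).2⟩

end tree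

end Vale.Agent.P002.H252
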