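import Vale.Agent.P002.H252.NF

/-!
# Merging the faces of a connected quadratic system
-/

namespace Vale.Agent.P002.H252

variable {κ γ Φ : Type}

/-- A quadratic system of words `w i`, `i ∈ F`: all letters of all words are different, and
`a`, `a⁻¹` occur exactly for `a ∈ s`. -/
structure Sys (s : Finset κ) (F : Finset Φ) (w : Φ → List (Letter κ γ)) : Prop where
  nodup : ∀ i ∈ F, (w i).Nodup
  disj : ∀ i ∈ F, ∀ j ∈ F, i ≠ j → ∀ x ∈ w i, x ∉ w j
  sub : ∀ i ∈ F, ∀ a e, Sum.inl (a, e) ∈ w i → a ∈ s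
  cov : ∀ a ∈ s, ∀ e, ∃ i ∈ F, Sum.inl (a, e) ∈ w i

/-- Connectedness. -/
def Conn (s : Finset κ) (F : Finset Φ) (w : Φ → List (Letter κ γ)) : Prop :=
  ∀ col : Φ → Prop, (∀ a ∈ s, ∀ i ∈ F, ∀ j ∈ F, Sum.inl (a, true) ∈ w i →
    Sum.inl (a, false) ∈ w j → (col i ↔ col j)) → ∀ i ∈ F, ∀ j ∈ F, (col i ↔ col j)

/-- the conclusion of the merging theorem -/
def MConcl (s : Finset κ) (F : Finset Φ) (w : Φ → List (Letter κ γ)) : Prop :=
  ∃ (T : NAut κ γ) (M : Finset κ) (l : List (Letter κ γ)), M ⊆ s ∧ M.card + 1 = F.card ∧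
    (∃ s' : Finset κ, (∀ a, a ∈ s' ↔ a ∈ s ∧ a ∉ M) ∧ Quad s' l) ∧ (∀ c, Sum.inr c ∈ l ↔ ∃ i ∈ F, Sum.inr c ∈ w i) ∧
    (∀ (Q : Type) [Group Q] (p : (κ → Q) × (γ → Q)) (a : κ), a ∉ s →
      (T.toFun Q p).1 a = p.1 a) ∧
    ∀ (Q : Type) [Group Q] (p : (κ → Q) × (γ → Q)), (∀ i ∈ F, ev p (w i) = 1) ↔
      (∀ a ∈ M, (T.toFun Q p).1 a = 1) ∧ ev (T.toFun Q p) l = 1

theorem mconcl_step {s : Finset κ} {F : Finset Φ} {w : Φ → List (Letter κ γ)} (hS : Sys s F w)
    (hC : Conn s F w) {i j : Φ} (hi : i ∈ F) (hj : j ∈ F) (hij : i ≠ j) (a : κ) (e : Bool)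
    (hai : Sum.inl (a, e) ∈ w i) (haj : Sum.inl (a, !e) ∈ w j)
    (ih : ∀ (s' : Finset κ) (F' : Finset Φ) (w' : Φ → List (Letter κ γ)), F'.card < F.card →
      F'.Nonempty → Sys s' F' w' → Conn s' F' w' → MConcl s' F' w') : MConcl s F w := by
  classical
  have has : a ∈ s := hS.sub i hi a e hai
  obtain ⟨P, R, hP⟩ := List.append_of_mem hai
  obtain ⟨U, V, hU⟩ := List.append_of_mem haj
  set W : List (Letter κ γ) := U ++ (R ++ (P ++ V)) with hW
  let w' : Φ → List (Letter κ γ) := Function.update w i W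
  have hw'i : w' i = W := Function.update_self _ _ _
  have hw' : ∀ k, k ≠ i → w' k = w k := fun k hk => Function.update_of_ne hk _ _
  have hndi := hS.nodup i hi
  have hndj := hS.nodup j hj
  have hdis := hS.disj i hi j hj hij
  have hdis' := hS.disj j hj i hi hij.symm
  -- the letters of the merged word
  have hmemW : ∀ x, x ∈ W ↔ (x ∈ w i ∧ x ≠ Sum.inl (a, e)) ∨ (x ∈ w j ∧ x ≠ Sum.inl (a, !e)) := by
    intro x
    have h1 : Sum.inl (a, e) ∉ P ++ R := by
      have := hndi
      rw [hP, List.nodup_middle, List.nodup_cons] at this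
      exact this.1
    have h2 : Sum.inl (a, !e) ∉ U ++ V := by
      have := hndj
      rw [hU, List.nodup_middle, List.nodup_cons] at this
      exact this.1
    rw [hP, hU]
    simp only [hW, List.mem_append, List.mem_cons]
    simp only [List.mem_append, not_or] at h1 h2
    constructor
    · rintro (h | h | h | h)
      · exact Or.inr ⟨Or.inl h, fun h' => h2.1 (h' ▸ h)⟩
      · exact Or.inl ⟨Or.inr (Or.inr h), fun h' => h1.2 (h' ▸ h)⟩
      · exact Or.inl ⟨Or.inl h, fun h' => h1.1 (h' ▸ h)⟩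
      · exact Or.inr ⟨Or.inr (Or.inr h), fun h' => h2.2 (h' ▸ h)⟩
    · rintro (⟨h | h | h, h'⟩ | ⟨h | h | h, h'⟩)
      · exact Or.inr (Or.inr (Or.inl h))
      · exact absurd h h'
      · exact Or.inr (Or.inl h)
      · exact Or.inl h
      · exact absurd h h'
      · exact Or.inr (Or.inr (Or.inr h))
  have hnotaW : ∀ e', Sum.inl (a, e') ∉ W := by
    intro e' h
    rw [hmemW] at h
    rcases h with ⟨h1, h2⟩ | ⟨h1, h2⟩
    · rcases Bool.eq_or_eq_not e' e with h3 | h3
      · exact h2 (by rw [h3])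
      · rw [h3] at h1
        exact hdis _ h1 haj
    · rcases Bool.eq_or_eq_not e' e with h3 | h3
      · rw [h3] at h1
        exact hdis _ hai h1
      · exact h2 (by rw [h3])
  have hWnd : W.Nodup := by
    have h1 : (w i ++ w j).Nodup := by
      rw [List.nodup_append]
      exact ⟨hndi, hndj, fun x hx y hy hxy => hdis x hx (hxy ▸ hy)⟩
    have h2 : (w i ++ w j).Perm (Sum.inl (a, e) :: Sum.inl (a, !e) :: W) := by
      rw [hP, hU, hW]
      have : ∀ {α : Type} (A A' : α) (P R U V : List α), ((P ++ A :: R) ++ (U ++ A' :: V)).Perm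
          (A :: A' :: (U ++ (R ++ (P ++ V)))) := by
        intro α A A' P R U V
        classical
        rw [List.perm_iff_count]
        intro u
        simp only [List.count_append, List.count_cons]
        omega
      exact this _ _ _ _ _ _
    have h3 := h2.nodup_iff.1 h1
    exact (List.nodup_cons.1 (List.nodup_cons.1 h3).2).2
  have hnotak : ∀ k ∈ F, k ≠ i → k ≠ j → ∀ e', Sum.inl (a, e') ∉ w k := by
    intro k hk hki hkj e' h
    rcases Bool.eq_or_eq_not e' e with h3 | h3
    · rw [h3] at h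
      exact hS.disj k hk i hi hki _ h hai
    · rw [h3] at h
      exact hS.disj k hk j hj hkj _ h haj
  -- the new system
  have hmemF : ∀ {k}, k ∈ F.erase j ↔ k ≠ j ∧ k ∈ F := Finset.mem_erase
  have hiF' : i ∈ F.erase j := hmemF.2 ⟨hij, hi⟩
  have hS' : Sys (s.erase a) (F.erase j) w' := by
    refine ⟨fun k hk => ?_, fun k hk m hm hkm x hx hx' => ?_, fun k hk b e' hb => ?_,
      fun b hb e' => ?_⟩
    · by_cases h : k = i
      · rw [h, hw'i]; exact hWnd
      · rw [hw' k h]; exact hS.nodup k (hmemF.1 hk).2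
    · obtain ⟨hk1, hk2⟩ := hmemF.1 hk
      obtain ⟨hm1, hm2⟩ := hmemF.1 hm
      by_cases h : k = i
      · rw [h, hw'i, hmemW] at hx
        have hmi : m ≠ i := fun h' => hkm (h.trans h'.symm)
        rw [hw' m hmi] at hx'
        rcases hx with hx | hx
        · exact hS.disj i hi m hm2 hmi.symm x hx.1 hx'
        · exact hS.disj j hj m hm2 hm1.symm x hx.1 hx'
      · rw [hw' k h] at hx
        by_cases h' : m = i
        · rw [h', hw'i, hmemW] at hx'
          rcases hx' with hx' | hx'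
          · exact hS.disj i hi k hk2 (Ne.symm h) x hx'.1 hx
          · exact hS.disj j hj k hk2 hk1.symm x hx'.1 hx
        · rw [hw' m h'] at hx'
          exact hS.disj k hk2 m hm2 hkm x hx hx'
    · obtain ⟨hk1, hk2⟩ := hmemF.1 hk
      rw [Finset.mem_erase]
      by_cases h : k = i
      · rw [h, hw'i] at hb
        refine ⟨fun h' => hnotaW e' (h' ▸ hb), ?_⟩
        rw [hmemW] at hb
        rcases hb with hb | hb
        · exact hS.sub i hi b e' hb.1
        · exact hS.sub j hj b e' hb.1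
      · rw [hw' k h] at hb
        exact ⟨fun h' => hnotak k hk2 h hk1 e' (h' ▸ hb), hS.sub k hk2 b e' hb⟩
    · rw [Finset.mem_erase] at hb
      obtain ⟨k, hk, hk'⟩ := hS.cov b hb.2 e'
      by_cases h : k = j
      · refine ⟨i, hiF', ?_⟩
        rw [hw'i, hmemW]
        refine Or.inr ⟨h ▸ hk', fun h' => hb.1 ?_⟩
        simp only [Sum.inl.injEq, Prod.mk.injEq] at h'
        exact h'.1
      · refine ⟨k, hmemF.2 ⟨h, hk⟩, ?_⟩
        by_cases h' : k = i
        · rw [h', hw'i, hmemW]
          refine Or.inl ⟨h' ▸ hk', fun h'' => hb.1 ?_⟩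
          simp only [Sum.inl.injEq, Prod.mk.injEq] at h''
          exact h''.1
        · rw [hw' k h']
          exact hk'
  have htr : ∀ b ∈ s.erase a, ∀ e', ∀ k ∈ F, Sum.inl (b, e') ∈ w k →
      Sum.inl (b, e') ∈ w' (if k = j then i else k) := by
    intro b hb e' k hk hk'
    rw [Finset.mem_erase] at hb
    have hne : ∀ e'', (Sum.inl (b, e') : Letter κ γ) ≠ Sum.inl (a, e'') := fun e'' h => hb.1 (by
      simp only [Sum.inl.injEq, Prod.mk.injEq] at h
      exact h.1)
    by_cases h : k = j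
    · rw [if_pos h, hw'i, hmemW]
      exact Or.inr ⟨h ▸ hk', hne _⟩
    · rw [if_neg h]
      by_cases h' : k = i
      · rw [h', hw'i, hmemW]
        exact Or.inl ⟨h' ▸ hk', hne _⟩
      · rw [hw' k h']
        exact hk'
  have hC' : Conn (s.erase a) (F.erase j) w' := by
    intro col hcol k hk m hm
    have h1 := hC (fun k => col (if k = j then i else k)) ?_ k (hmemF.1 hk).2 m (hmemF.1 hm).2
    · simpa only [if_neg (hmemF.1 hk).1, if_neg (hmemF.1 hm).1] using h1
    · intro b hb k hk m hm hbk hbm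
      have hF' : ∀ k ∈ F, (if k = j then i else k) ∈ F.erase j := by
        intro k hk
        by_cases h : k = j
        · rw [if_pos h]; exact hiF'
        · rw [if_neg h]; exact hmemF.2 ⟨h, hk⟩
      by_cases hba : b = a
      · subst hba
        have hk' : k = i ∨ k = j := by
          by_contra hcon
          push Not at hcon
          exact hnotak k hk hcon.1 hcon.2 _ hbk
        have hm' : m = i ∨ m = j := by
          by_contra hcon
          push Not at hcon
          exact hnotak m hm hcon.1 hcon.2 _ hbm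
        have e1 : ∀ k, k = i ∨ k = j → (if k = j then i else k) = i := by
          rintro k (rfl | rfl)
          · split <;> rfl
          · simp
        simp only [e1 k hk', e1 m hm']
      · have hb' : b ∈ s.erase a := Finset.mem_erase.2 ⟨hba, hb⟩
        exact hcol b hb' _ (hF' k hk) _ (hF' m hm) (htr b hb' true k hk hbk)
          (htr b hb' false m hm hbm)
  obtain ⟨T, M, l, hMs, hMc, hQ, hγ, hT, hev⟩ := ih _ _ w' (Finset.card_erase_lt_of_mem hj)
    ⟨i, hiF'⟩ hS' hC'
  have haM : a ∉ M := fun h => (Finset.mem_erase.1 (hMs h)).1 rfl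
  have hsubP : ∀ e', Sum.inl (a, e') ∉ P := fun e' h => hnotaW e' (by
    simp only [hW, List.mem_append]; tauto)
  have hsubR : ∀ e', Sum.inl (a, e') ∉ R := fun e' h => hnotaW e' (by
    simp only [hW, List.mem_append]; tauto)
  let T1 : NAut κ γ := NAut.elem a e (fun Q _ p => ev p P) (fun Q _ p => ev p R)
    (fun Q _ p q => ev_update p a q hsubP) (fun Q _ p q => ev_update p a q hsubR)
    (fun Q Q' _ _ θ p => ev_post θ p _) (fun Q Q' _ _ θ p => ev_post θ p _)
  have hT1 : ∀ (Q : Type) [Group Q] (p : (κ → Q) × (γ → Q)), T1.toFun Q p =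
      (Function.update p.1 a (ev p P * NAut.sg e (p.1 a) * ev p R), p.2) := fun Q _ p => rfl
  refine ⟨T1.trans T, insert a M, l, ?_, ?_, ?_, ?_, ?_, ?_⟩
  · intro b hb
    rcases Finset.mem_insert.1 hb with rfl | hb
    · exact has
    · exact Finset.mem_of_mem_erase (hMs hb)
  · rw [Finset.card_insert_of_notMem haM, hMc, Finset.card_erase_of_mem hj]
    have : 0 < F.card := Finset.card_pos.2 ⟨j, hj⟩
    omega
  · obtain ⟨s', hs', hQ⟩ := hQ
    refine ⟨s', fun b => ?_, hQ⟩
    rw [hs', Finset.mem_erase, Finset.mem_insert, not_or]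
    tauto
  · intro c
    rw [hγ]
    constructor
    · rintro ⟨k, hk, hk'⟩
      by_cases h : k = i
      · rw [h, hw'i, hmemW] at hk'
        rcases hk' with hk' | hk'
        · exact ⟨i, hi, hk'.1⟩
        · exact ⟨j, hj, hk'.1⟩
      · rw [hw' k h] at hk'
        exact ⟨k, (hmemF.1 hk).2, hk'⟩
    · rintro ⟨k, hk, hk'⟩
      by_cases h : k = j
      · refine ⟨i, hiF', ?_⟩
        rw [hw'i, hmemW]
        exact Or.inr ⟨h ▸ hk', by simp⟩
      · refine ⟨k, hmemF.2 ⟨h, hk⟩, ?_⟩
        by_cases h' : k = i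
        · rw [h', hw'i, hmemW]
          exact Or.inl ⟨h' ▸ hk', by simp⟩
        · rw [hw' k h']
          exact hk'
  · intro Q _ p b hb
    have hba : b ≠ a := fun h => hb (h ▸ has)
    rw [NAut.trans_toFun, hT Q _ b (fun h => hb (Finset.mem_of_mem_erase h)), hT1]
    simp [Function.update_of_ne hba]
  · intro Q _ p
    rw [NAut.trans_toFun]
    have h1 := hev Q (T1.toFun Q p)
    have h2 : (T.toFun Q (T1.toFun Q p)).1 a = ev p (w i) := by
      rw [hT Q _ a (by simp), hT1]
      simp only [Function.update_self]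
      rw [hP, ev_append, ev_cons, NAut.evL_inl, mul_assoc]
    have h3 : ∀ k ∈ F, k ≠ i → k ≠ j → ev (T1.toFun Q p) (w' k) = ev p (w k) := by
      intro k hk hki hkj
      rw [hw' k hki, hT1, ev_update p a _ (hnotak k hk hki hkj)]
    have h4 : ev p (w i) = 1 → (ev (T1.toFun Q p) (w' i) = 1 ↔ ev p (w j) = 1) := by
      intro h0
      rw [hw'i, hT1, ev_update p a _ hnotaW, hU, hW]
      rw [hP] at h0
      simp only [ev_append, ev_cons, NAut.evL_inl] at h0 ⊢
      have h11 : NAut.sg (!e) (p.1 a) = (NAut.sg e (p.1 a))⁻¹ := by cases e <;> simp [NAut.sg]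
      rw [h11]
      have h12 : (NAut.sg e (p.1 a))⁻¹ = ev p R * ev p P := by
        have h13 : NAut.sg e (p.1 a) = (ev p P)⁻¹ * (ev p R)⁻¹ := by
          rw [eq_inv_mul_iff_mul_eq, eq_inv_iff_mul_eq_one, mul_assoc]
          exact h0
        rw [h13]
        group
      rw [h12]
      simp only [mul_assoc]
    constructor
    · intro h
      have h5 := h1.1 (fun k hk => by
        obtain ⟨hk1, hk2⟩ := hmemF.1 hk
        by_cases hki : k = i
        · rw [hki]
          exact (h4 (h i hi)).2 (h j hj)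
        · rw [h3 k hk2 hki hk1]
          exact h k hk2)
      refine ⟨fun b hb => ?_, h5.2⟩
      rcases Finset.mem_insert.1 hb with rfl | hb
      · rw [h2]; exact h i hi
      · exact h5.1 b hb
    · rintro ⟨h5, h6⟩
      have h7 := h1.2 ⟨fun b hb => h5 b (Finset.mem_insert_of_mem hb), h6⟩
      have h8 : ev p (w i) = 1 := by
        rw [← h2]
        exact h5 a (Finset.mem_insert_self _ _)
      intro k hk
      by_cases hki : k = i
      · rw [hki]; exact h8
      by_cases hkj : k = j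
      · rw [hkj]
        exact (h4 h8).1 (h7 i hiF')
      · rw [← h3 k hk hki hkj]
        exact h7 k (hmemF.2 ⟨hkj, hk⟩)

/-- Merging the faces of a connected quadratic system. -/
theorem merge (s : Finset κ) (F : Finset Φ) (w : Φ → List (Letter κ γ)) (hF : F.Nonempty)
    (hS : Sys s F w) (hC : Conn s F w) : MConcl s F w := by
  classical
  induction h : F.card using Nat.strong_induction_on generalizing s F w with
  | _ n IH =>
  have ih : ∀ (s' : Finset κ) (F' : Finset Φ) (w' : Φ → List (Letter κ γ)), F'.card < F.card →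
      F'.Nonempty → Sys s' F' w' → Conn s' F' w' → MConcl s' F' w' :=
    fun s' F' w' hc hF' hS' hC' => IH F'.card (h ▸ hc) s' F' w' hF' hS' hC' rfl
  obtain ⟨i, hi⟩ := hF
  by_cases hone : ∀ j ∈ F, j = i
  · have hFi : F = {i} := by
      ext j
      rw [Finset.mem_singleton]
      exact ⟨hone j, fun h => h ▸ hi⟩
    refine ⟨NAut.refl κ γ, ∅, w i, by simp, by rw [hFi]; simp, ?_, ?_, fun Q _ p a _ => rfl, ?_⟩
    · refine ⟨s, by simp, hS.nodup i hi, fun a e => ?_⟩
      constructor
      · exact hS.sub i hi a e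
      · intro ha
        obtain ⟨j, hj, hj'⟩ := hS.cov a ha e
        rwa [hone j hj] at hj'
    · intro c
      rw [hFi]
      simp
    · intro Q _ p
      rw [hFi]
      simp
  · push Not at hone
    obtain ⟨j, hj, hji⟩ := hone
    have h1 : ¬ ∀ a ∈ s, ∀ k ∈ F, ∀ m ∈ F, Sum.inl (a, true) ∈ w k →
        Sum.inl (a, false) ∈ w m → (k = i ↔ m = i) := by
      intro hcol
      exact hji ((hC (fun k => k = i) hcol i hi j hj).1 rfl)
    push Not at h1
    obtain ⟨a, ha, k, hk, m, hm, hak, ham, h2⟩ := h1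
    rcases h2 with ⟨h3, h4⟩ | ⟨h3, h4⟩
    · exact mconcl_step hS hC hk hm (fun h => h4 (h ▸ h3)) a true hak ham ih
    · exact mconcl_step hS hC hm hk (fun h => h3 (h ▸ h4)) a false ham hak ih

end Vale.Agent.P002.H252
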