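import Mathlib

/-!
# Natural changes of generators
-/

namespace Vale.Agent.P002.H252

/-- Letters: paired letters with a sign, and single letters. -/
abbrev Letter (κ γ : Type) := (κ × Bool) ⊕ γ

section ev

variable {κ γ : Type} {Q : Type} [Group Q]

/-- the value of a letter -/
def evL (p : (κ → Q) × (γ → Q)) : Letter κ γ → Q
  | Sum.inl (a, true) => p.1 a
  | Sum.inl (a, false) => (p.1 a)⁻¹
  | Sum.inr c => p.2 c

/-- the value of a word -/
def ev (p : (κ → Q) × (γ → Q)) (w : List (Letter κ γ)) : Q := (w.map (evL p)).prod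

@[simp] theorem ev_nil (p : (κ → Q) × (γ → Q)) : ev p [] = 1 := rfl

@[simp] theorem ev_cons (p : (κ → Q) × (γ → Q)) (x : Letter κ γ) (w : List (Letter κ γ)) :
    ev p (x :: w) = evL p x * ev p w := by
  simp [ev]

@[simp] theorem ev_append (p : (κ → Q) × (γ → Q)) (v w : List (Letter κ γ)) :
    ev p (v ++ w) = ev p v * ev p w := by
  simp [ev]

theorem evL_neg (p : (κ → Q) × (γ → Q)) (a : κ) (e : Bool) :
    evL p (Sum.inl (a, !e)) = (evL p (Sum.inl (a, e)))⁻¹ := by
  cases e <;> simp [evL]

theorem ev_congr {p q : (κ → Q) × (γ → Q)} {w : List (Letter κ γ)}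
    (h : ∀ x ∈ w, evL p x = evL q x) : ev p w = ev q w := by
  unfold ev
  rw [List.map_congr_left h]

/-- post-composition -/
def post {Q Q' : Type} [Group Q] [Group Q'] (θ : Q →* Q') (p : (κ → Q) × (γ → Q)) :
    (κ → Q') × (γ → Q') := (θ ∘ p.1, θ ∘ p.2)

theorem evL_post {Q' : Type} [Group Q'] (θ : Q →* Q') (p : (κ → Q) × (γ → Q))
    (x : Letter κ γ) : evL (post θ p) x = θ (evL p x) := by
  rcases x with ⟨a, _ | _⟩ | c <;> simp [evL, post]

theorem ev_post {Q' : Type} [Group Q'] (θ : Q →* Q') (p : (κ → Q) × (γ → Q))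
    (w : List (Letter κ γ)) : ev (post θ p) w = θ (ev p w) := by
  induction w with
  | nil => simp
  | cons x w ih => rw [ev_cons, ev_cons, evL_post, ih, map_mul]

end ev

/-- A natural change of generators: an automorphism of the free group on `κ ⊔ γ` that sends every
generator in `γ` to a conjugate of itself, described by its effect on tuples in all groups. -/
structure NAut (κ γ : Type) where
  toFun : ∀ (Q : Type) [Group Q], (κ → Q) × (γ → Q) → (κ → Q) × (γ → Q)
  invFun : ∀ (Q : Type) [Group Q], (κ → Q) × (γ → Q) → (κ → Q) × (γ → Q)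
  left_inv : ∀ (Q : Type) [Group Q] (p : (κ → Q) × (γ → Q)), invFun Q (toFun Q p) = p
  right_inv : ∀ (Q : Type) [Group Q] (p : (κ → Q) × (γ → Q)), toFun Q (invFun Q p) = p
  natural : ∀ (Q Q' : Type) [Group Q] [Group Q'] (θ : Q →* Q') (p : (κ → Q) × (γ → Q)),
    toFun Q' (post θ p) = post θ (toFun Q p)
  conj : ∀ (Q : Type) [Group Q] (p : (κ → Q) × (γ → Q)) (c : γ), IsConj (p.2 c) ((toFun Q p).2 c)

namespace NAut

variable {κ γ : Type}

theorem inv_natural (T : NAut κ γ) (Q Q' : Type) [Group Q] [Group Q'] (θ : Q →* Q')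
    (p : (κ → Q) × (γ → Q)) : T.invFun Q' (post θ p) = post θ (T.invFun Q p) := by
  have h := T.natural Q Q' θ (T.invFun Q p)
  rw [T.right_inv] at h
  rw [← h, T.left_inv]

/-- the identity -/
def refl (κ γ : Type) : NAut κ γ where
  toFun _ _ p := p
  invFun _ _ p := p
  left_inv _ _ _ := rfl
  right_inv _ _ _ := rfl
  natural _ _ _ _ _ _ := rfl
  conj _ _ _ _ := IsConj.refl _

/-- composition: first `T`, then `U` -/
def trans (T U : NAut κ γ) : NAut κ γ where
  toFun Q _ p := U.toFun Q (T.toFun Q p)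
  invFun Q _ p := T.invFun Q (U.invFun Q p)
  left_inv Q _ p := by rw [U.left_inv, T.left_inv]
  right_inv Q _ p := by rw [T.right_inv, U.right_inv]
  natural Q Q' _ _ θ p := by rw [T.natural, U.natural]
  conj Q _ p c := (T.conj Q p c).trans (U.conj Q _ c)

@[simp] theorem refl_toFun (Q : Type) [Group Q] (p : (κ → Q) × (γ → Q)) :
    (refl κ γ).toFun Q p = p := rfl

@[simp] theorem trans_toFun (T U : NAut κ γ) (Q : Type) [Group Q] (p : (κ → Q) × (γ → Q)) :
    (T.trans U).toFun Q p = U.toFun Q (T.toFun Q p) := rfl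

/-- the power of `x` with exponent `1` or `-1` -/
def sg {Q : Type} [Group Q] (e : Bool) (x : Q) : Q := if e then x else x⁻¹

@[simp] theorem sg_sg {Q : Type} [Group Q] (e : Bool) (x : Q) : sg e (sg e x) = x := by
  cases e <;> simp [sg]

theorem map_sg {Q Q' : Type} [Group Q] [Group Q'] (θ : Q →* Q') (e : Bool) (x : Q) :
    θ (sg e x) = sg e (θ x) := by
  cases e <;> simp [sg]

theorem evL_inl {Q : Type} [Group Q] (p : (κ → Q) × (γ → Q)) (a : κ) (e : Bool) :
    evL p (Sum.inl (a, e)) = sg e (p.1 a) := by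
  cases e <;> simp [evL, sg]

/-- Replace the generator `a` by `u * a ^ (±1) * v`, where `u` and `v` do not involve `a`. -/
def elem [DecidableEq κ] (a : κ) (e : Bool)
    (u v : ∀ (Q : Type) [Group Q], (κ → Q) × (γ → Q) → Q)
    (hu : ∀ (Q : Type) [Group Q] (p : (κ → Q) × (γ → Q)) (q : Q),
      u Q (Function.update p.1 a q, p.2) = u Q p)
    (hv : ∀ (Q : Type) [Group Q] (p : (κ → Q) × (γ → Q)) (q : Q),
      v Q (Function.update p.1 a q, p.2) = v Q p)
    (nu : ∀ (Q Q' : Type) [Group Q] [Group Q'] (θ : Q →* Q') (p : (κ → Q) × (γ → Q)),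
      u Q' (post θ p) = θ (u Q p))
    (nv : ∀ (Q Q' : Type) [Group Q] [Group Q'] (θ : Q →* Q') (p : (κ → Q) × (γ → Q)),
      v Q' (post θ p) = θ (v Q p)) : NAut κ γ where
  toFun Q _ p := (Function.update p.1 a (u Q p * sg e (p.1 a) * v Q p), p.2)
  invFun Q _ p := (Function.update p.1 a (sg e ((u Q p)⁻¹ * p.1 a * (v Q p)⁻¹)), p.2)
  left_inv Q _ p := by
    rw [hu, hv]
    simp only [Function.update_idem, Function.update_self]
    have : (u Q p)⁻¹ * (u Q p * sg e (p.1 a) * v Q p) * (v Q p)⁻¹ = sg e (p.1 a) := by group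
    rw [this, sg_sg, Function.update_eq_self]
  right_inv Q _ p := by
    rw [hu, hv]
    simp only [Function.update_idem, Function.update_self]
    have : u Q p * sg e (sg e ((u Q p)⁻¹ * p.1 a * (v Q p)⁻¹)) * v Q p = p.1 a := by
      rw [sg_sg]
      group
    rw [this, Function.update_eq_self]
  natural Q Q' _ _ θ p := by
    refine Prod.ext ?_ rfl
    change Function.update (θ ∘ p.1) a _ = θ ∘ Function.update p.1 a _
    rw [Function.comp_update, nu, nv]
    congr 1
    change θ (u Q p) * sg e (θ (p.1 a)) * θ (v Q p) = _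
    rw [map_mul, map_mul, map_sg]
  conj _ _ _ _ := IsConj.refl _

theorem elem_toFun [DecidableEq κ] (a : κ) (e : Bool)
    (u v : ∀ (Q : Type) [Group Q], (κ → Q) × (γ → Q) → Q) (hu) (hv) (nu) (nv) (Q : Type) [Group Q]
    (p : (κ → Q) × (γ → Q)) : (elem a e u v hu hv nu nv).toFun Q p =
      (Function.update p.1 a (u Q p * sg e (p.1 a) * v Q p), p.2) := rfl

/-- Conjugate the generators `c` with `c ∈ S` by `a ^ (±1)`. -/
def cap [DecidableEq κ] (a : κ) (e : Bool) (S : γ → Prop) [DecidablePred S] : NAut κ γ where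
  toFun Q _ p := (p.1, fun c => if S c then sg e (p.1 a) * p.2 c * (sg e (p.1 a))⁻¹ else p.2 c)
  invFun Q _ p := (p.1, fun c => if S c then (sg e (p.1 a))⁻¹ * p.2 c * (sg e (p.1 a)) else p.2 c)
  left_inv Q _ p := by
    refine Prod.ext rfl (funext fun c => ?_)
    by_cases h : S c
    · simp only [h, if_true]
      group
    · simp only [h, if_false]
  right_inv Q _ p := by
    refine Prod.ext rfl (funext fun c => ?_)
    by_cases h : S c
    · simp only [h, if_true]
      group
    · simp only [h, if_false]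
  natural Q Q' _ _ θ p := by
    refine Prod.ext rfl (funext fun c => ?_)
    by_cases h : S c
    · simp only [post, Function.comp_apply, h, if_true, map_mul, map_inv, map_sg]
    · simp only [post, Function.comp_apply, h, if_false]
  conj Q _ p c := by
    by_cases h : S c
    · simp only [h, if_true]
      exact isConj_iff.2 ⟨_, rfl⟩
    · simp only [h, if_false]
      exact IsConj.refl _

theorem cap_toFun [DecidableEq κ] (a : κ) (e : Bool) (S : γ → Prop) [DecidablePred S] (Q : Type)
    [Group Q] (p : (κ → Q) × (γ → Q)) : (cap a e S).toFun Q p =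
      (p.1, fun c => if S c then sg e (p.1 a) * p.2 c * (sg e (p.1 a))⁻¹ else p.2 c) := rfl

end NAut

end Vale.Agent.P002.H252
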