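import Vale.Agent.P002.H252.NAut

/-!
# Normal form of quadratic words
-/

namespace Vale.Agent.P002.H252

open commutatorElement

variable {κ γ : Type}

/-- The word `l` contains every letter at most once, and `a`, `a⁻¹` occur exactly for `a ∈ s`. -/
def Quad (s : Finset κ) (l : List (Letter κ γ)) : Prop :=
  l.Nodup ∧ ∀ a e, Sum.inl (a, e) ∈ l ↔ a ∈ s

/-- the value of a product of commutators and single letters -/
def stdVal {Q : Type} [Group Q] (p : (κ → Q) × (γ → Q)) (P : List (κ × κ)) (C : List γ) : Q :=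
  (P.map fun q => ⁅p.1 q.1, p.1 q.2⁆).prod * (C.map p.2).prod

/-- the conclusion of the normal form theorem -/
def Concl (s : Finset κ) (l : List (Letter κ γ)) : Prop :=
  ∃ (T : NAut κ γ) (P : List (κ × κ)) (C : List γ),
    (P.flatMap fun q => [q.1, q.2]).Nodup ∧ (∀ q ∈ P, q.1 ∈ s ∧ q.2 ∈ s) ∧ C.Nodup ∧
    (∀ c, c ∈ C ↔ Sum.inr c ∈ l) ∧
    (∀ (Q : Type) [Group Q] (p : (κ → Q) × (γ → Q)) (a : κ), a ∉ s →
      (T.toFun Q p).1 a = p.1 a) ∧
    ∀ (Q : Type) [Group Q] (p : (κ → Q) × (γ → Q)), ev p l = stdVal (T.toFun Q p) P C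

theorem ev_update [DecidableEq κ] {Q : Type} [Group Q] (p : (κ → Q) × (γ → Q)) (a : κ) (q : Q)
    {w : List (Letter κ γ)} (hw : ∀ e, Sum.inl (a, e) ∉ w) :
    ev (Function.update p.1 a q, p.2) w = ev p w := by
  refine ev_congr fun x hx => ?_
  rcases x with ⟨b, e⟩ | c
  · have hb : b ≠ a := by
      rintro rfl
      exact hw e hx
    rw [NAut.evL_inl, NAut.evL_inl]
    simp [Function.update_of_ne hb]
  · rfl

theorem perm_linked {α : Type} (A A' B B' : α) (s0 x y z t : List α) :
    (s0 ++ A :: (x ++ B :: (y ++ A' :: (z ++ B' :: t)))).Perm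
      (A :: A' :: B :: B' :: (s0 ++ (z ++ (y ++ (x ++ t))))) := by
  classical
  rw [List.perm_iff_count]
  intro u
  simp only [List.count_append, List.count_cons]
  omega

theorem perm_cap {α : Type} (A A' : α) (s0 v t : List α) :
    (s0 ++ A :: (v ++ A' :: t)).Perm (A :: A' :: (s0 ++ (v ++ t))) := by
  classical
  rw [List.perm_iff_count]
  intro u
  simp only [List.count_append, List.count_cons]
  omega

theorem concl_linked {s : Finset κ} {l : List (Letter κ γ)} (a b : κ) (e d : Bool)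
    (s0 x y z t : List (Letter κ γ))
    (hl : l = s0 ++ Sum.inl (a, e) :: (x ++ Sum.inl (b, d) :: (y ++ Sum.inl (a, !e) ::
      (z ++ Sum.inl (b, !d) :: t))))
    (hq : Quad s l)
    (ih : ∀ (s' : Finset κ) (l' : List (Letter κ γ)), s'.card < s.card → Quad s' l' →
      Concl s' l') : Concl s l := by
  classical
  obtain ⟨hnd, hmem⟩ := hq
  have ha : a ∈ s := (hmem a e).1 (by rw [hl]; simp)
  have hb : b ∈ s := (hmem b d).1 (by rw [hl]; simp)
  have hperm : l.Perm (Sum.inl (a, e) :: Sum.inl (a, !e) :: Sum.inl (b, d) :: Sum.inl (b, !d) ::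
      (s0 ++ (z ++ (y ++ (x ++ t))))) := by
    rw [hl]
    exact perm_linked _ _ _ _ _ _ _ _ _
  have hnd' := hperm.nodup_iff.1 hnd
  simp only [List.nodup_cons, List.mem_cons, not_or] at hnd'
  obtain ⟨⟨-, h1, h2, h3⟩, ⟨h4, h5, h6⟩, ⟨-, h7⟩, h8, h9⟩ := hnd'
  have hab : a ≠ b := by
    rintro rfl
    cases e <;> cases d <;> simp at h1 h2 h4 h5
  -- the remaining word
  have hnota : ∀ e', Sum.inl (a, e') ∉ s0 ++ (z ++ (y ++ (x ++ t))) := by
    intro e'
    rcases Bool.eq_or_eq_not e' e with h | h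
    · rw [h]; exact h3
    · rw [h]; exact h6
  have hnotb : ∀ e', Sum.inl (b, e') ∉ s0 ++ (z ++ (y ++ (x ++ t))) := by
    intro e'
    rcases Bool.eq_or_eq_not e' d with h | h
    · rw [h]; exact h7
    · rw [h]; exact h8
  have hq' : Quad ((s.erase a).erase b) (s0 ++ (z ++ (y ++ (x ++ t)))) := by
    refine ⟨h9, fun k e' => ?_⟩
    rw [Finset.mem_erase, Finset.mem_erase]
    by_cases hka : k = a
    · subst hka
      simp [hnota e']
    by_cases hkb : k = b
    · subst hkb
      simp [hnotb e']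
    rw [← hmem k e', hperm.mem_iff]
    simp [hka, hkb]
  have hcard : ((s.erase a).erase b).card < s.card := by
    rw [Finset.card_erase_of_mem (Finset.mem_erase.2 ⟨hab.symm, hb⟩), Finset.card_erase_of_mem ha]
    have : 0 < s.card := Finset.card_pos.2 ⟨a, ha⟩
    omega
  obtain ⟨T, P, C, hP, hPs, hC, hC', hT, hev⟩ := ih _ _ hcard hq'
  have m1 : ∀ u ∈ s0, u ∈ s0 ++ (z ++ (y ++ (x ++ t))) := fun u hu => List.mem_append_left _ hu
  have m2 : ∀ u ∈ s0 ++ (z ++ y), u ∈ s0 ++ (z ++ (y ++ (x ++ t))) := fun u hu => by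
    simp only [List.mem_append] at hu ⊢
    tauto
  have m3 : ∀ u ∈ s0 ++ (z ++ (y ++ x)), u ∈ s0 ++ (z ++ (y ++ (x ++ t))) := fun u hu => by
    simp only [List.mem_append] at hu ⊢
    tauto
  have m4 : ∀ u ∈ s0 ++ z, u ∈ s0 ++ (z ++ (y ++ (x ++ t))) := fun u hu => by
    simp only [List.mem_append] at hu ⊢
    tauto
  have sub : ∀ {w : List (Letter κ γ)} {k : κ}, (∀ e', Sum.inl (k, e') ∉ s0 ++ (z ++ (y ++ (x ++ t)))) →
      (∀ u ∈ w, u ∈ s0 ++ (z ++ (y ++ (x ++ t)))) → ∀ e', Sum.inl (k, e') ∉ w :=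
    fun hk hw e' h => hk e' (hw _ h)
  let T1 : NAut κ γ := NAut.elem a e (fun Q _ p => ev p s0)
    (fun Q _ p => (ev p (s0 ++ (z ++ y)))⁻¹)
    (fun Q _ p q => ev_update p a q (sub hnota m1))
    (fun Q _ p q => by rw [ev_update p a q (sub hnota m2)])
    (fun Q Q' _ _ θ p => ev_post θ p _) (fun Q Q' _ _ θ p => by rw [ev_post, map_inv])
  let T2 : NAut κ γ := NAut.elem b d (fun Q _ p => ev p (s0 ++ (z ++ (y ++ x))))
    (fun Q _ p => (ev p (s0 ++ z))⁻¹)
    (fun Q _ p q => ev_update p b q (sub hnotb m3))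
    (fun Q _ p q => by rw [ev_update p b q (sub hnotb m4)])
    (fun Q Q' _ _ θ p => ev_post θ p _) (fun Q Q' _ _ θ p => by rw [ev_post, map_inv])
  have hT1 : ∀ (Q : Type) [Group Q] (p : (κ → Q) × (γ → Q)), T1.toFun Q p =
      (Function.update p.1 a (ev p s0 * NAut.sg e (p.1 a) * (ev p (s0 ++ (z ++ y)))⁻¹), p.2) :=
    fun Q _ p => rfl
  have hT2 : ∀ (Q : Type) [Group Q] (p : (κ → Q) × (γ → Q)), T2.toFun Q p =
      (Function.update p.1 b (ev p (s0 ++ (z ++ (y ++ x))) * NAut.sg d (p.1 b) *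
        (ev p (s0 ++ z))⁻¹), p.2) := fun Q _ p => rfl
  refine ⟨(T1.trans T2).trans T, (a, b) :: P, C, ?_, ?_, hC, ?_, ?_, ?_⟩
  · rw [List.flatMap_cons, List.nodup_append]
    refine ⟨by simp [hab], hP, ?_⟩
    intro u hu v hv huv
    subst huv
    rw [List.mem_flatMap] at hv
    obtain ⟨q, hqP, hqu⟩ := hv
    have h10 := hPs q hqP
    simp only [Finset.mem_erase, ne_eq] at h10
    simp only [List.mem_cons, List.not_mem_nil, or_false] at hu hqu
    rcases hu with h0 | h0 <;> rcases hqu with h | h <;> rw [← h, h0] at h10 <;> simp at h10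
  · intro q hq
    rcases List.mem_cons.1 hq with rfl | hq
    · exact ⟨ha, hb⟩
    · have h10 := hPs q hq
      simp only [Finset.mem_erase] at h10
      exact ⟨h10.1.2.2, h10.2.2.2⟩
  · intro c
    rw [hC' c, hperm.mem_iff]
    simp
  · intro Q _ p k hk
    have hka : k ≠ a := fun h => hk (h ▸ ha)
    have hkb : k ≠ b := fun h => hk (h ▸ hb)
    rw [NAut.trans_toFun, NAut.trans_toFun, hT Q _ k (by simp [hk]), hT2, hT1]
    simp [Function.update_of_ne hka, Function.update_of_ne hkb]
  · intro Q _ p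
    rw [NAut.trans_toFun, NAut.trans_toFun]
    set p1 := T1.toFun Q p with hp1
    set p2 := T2.toFun Q p1 with hp2
    have e1 : ∀ {w : List (Letter κ γ)}, (∀ u ∈ w, u ∈ s0 ++ (z ++ (y ++ (x ++ t)))) →
        ev p1 w = ev p w := fun hw => by
      rw [hp1, hT1]
      exact ev_update p a _ (sub hnota hw)
    have e2 : ∀ {w : List (Letter κ γ)}, (∀ u ∈ w, u ∈ s0 ++ (z ++ (y ++ (x ++ t)))) →
        ev p2 w = ev p w := fun hw => by
      rw [hp2, hT2, ev_update p1 b _ (sub hnotb hw), e1 hw]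
    have hA : (T.toFun Q p2).1 a = ev p s0 * NAut.sg e (p.1 a) * (ev p (s0 ++ (z ++ y)))⁻¹ := by
      rw [hT Q p2 a (by simp), hp2, hT2]
      simp only
      rw [Function.update_of_ne hab, hp1, hT1]
      simp
    have hB : (T.toFun Q p2).1 b = ev p (s0 ++ (z ++ (y ++ x))) * NAut.sg d (p.1 b) *
        (ev p (s0 ++ z))⁻¹ := by
      rw [hT Q p2 b (by simp), hp2, hT2]
      simp only
      rw [Function.update_self, e1 m3, e1 m4, hp1, hT1]
      simp [Function.update_of_ne hab.symm]
    have h10 := hev Q p2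
    rw [e2 (fun u hu => hu)] at h10
    rw [stdVal, List.map_cons, List.prod_cons, mul_assoc]
    change _ = _ * stdVal (T.toFun Q p2) P C
    rw [← h10, hl]
    simp only [hA, hB, ev_append, ev_cons, NAut.evL_inl, commutatorElement_def]
    have h11 : NAut.sg (!e) (p.1 a) = (NAut.sg e (p.1 a))⁻¹ := by cases e <;> simp [NAut.sg]
    have h12 : NAut.sg (!d) (p.1 b) = (NAut.sg d (p.1 b))⁻¹ := by cases d <;> simp [NAut.sg]
    rw [h11, h12]
    group

theorem concl_cap {s : Finset κ} {l : List (Letter κ γ)} (a : κ) (e : Bool)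
    (s0 v t : List (Letter κ γ))
    (hl : l = s0 ++ Sum.inl (a, e) :: (v ++ Sum.inl (a, !e) :: t))
    (hv : ∀ x ∈ v, ∃ c, x = Sum.inr c) (hq : Quad s l)
    (ih : ∀ (s' : Finset κ) (l' : List (Letter κ γ)), s'.card < s.card → Quad s' l' →
      Concl s' l') : Concl s l := by
  classical
  obtain ⟨hnd, hmem⟩ := hq
  have ha : a ∈ s := (hmem a e).1 (by rw [hl]; simp)
  have hperm : l.Perm (Sum.inl (a, e) :: Sum.inl (a, !e) :: (s0 ++ (v ++ t))) := by
    rw [hl]
    exact perm_cap _ _ _ _ _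
  have hnd' := hperm.nodup_iff.1 hnd
  simp only [List.nodup_cons, List.mem_cons, not_or] at hnd'
  obtain ⟨⟨-, h3⟩, h6, h9⟩ := hnd'
  have hnota : ∀ e', Sum.inl (a, e') ∉ s0 ++ (v ++ t) := by
    intro e'
    rcases Bool.eq_or_eq_not e' e with h | h
    · rw [h]; exact h3
    · rw [h]; exact h6
  have hq' : Quad (s.erase a) (s0 ++ (v ++ t)) := by
    refine ⟨h9, fun k e' => ?_⟩
    rw [Finset.mem_erase]
    by_cases hka : k = a
    · subst hka
      simp [hnota e']
    rw [← hmem k e', hperm.mem_iff]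
    simp [hka]
  obtain ⟨T, P, C, hP, hPs, hC, hC', hT, hev⟩ := ih _ _ (Finset.card_erase_lt_of_mem ha) hq'
  let T1 : NAut κ γ := NAut.cap a e (fun c => Sum.inr c ∈ v)
  refine ⟨T1.trans T, P, C, hP, ?_, hC, ?_, ?_, ?_⟩
  · intro q hq
    have h10 := hPs q hq
    simp only [Finset.mem_erase] at h10
    exact ⟨h10.1.2, h10.2.2⟩
  · intro c
    rw [hC' c, hperm.mem_iff]
    simp
  · intro Q _ p k hk
    rw [NAut.trans_toFun, hT Q _ k (by simp [hk])]
    rfl
  · intro Q _ p
    rw [NAut.trans_toFun, ← hev, hl]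
    have h1 : (T1.toFun Q p) = (p.1, fun c => if (Sum.inr c : Letter κ γ) ∈ v then
        NAut.sg e (p.1 a) * p.2 c * (NAut.sg e (p.1 a))⁻¹ else p.2 c) := rfl
    have h2 : ∀ {w : List (Letter κ γ)}, (∀ u ∈ w, u ∉ v) → ev (T1.toFun Q p) w = ev p w := by
      intro w hw
      refine ev_congr fun u hu => ?_
      rcases u with ⟨k, e'⟩ | c
      · rw [NAut.evL_inl, NAut.evL_inl, h1]
      · change (T1.toFun Q p).2 c = p.2 c
        rw [h1]
        simp only
        rw [if_neg (hw _ hu)]
    have h3 : ∀ w : List (Letter κ γ), (∀ u ∈ w, u ∈ v) → ev (T1.toFun Q p) w =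
        NAut.sg e (p.1 a) * ev p w * (NAut.sg e (p.1 a))⁻¹ := by
      intro w hw
      induction w with
      | nil => simp
      | cons u w ih =>
        rw [ev_cons, ev_cons, ih fun u hu => hw u (List.mem_cons_of_mem _ hu)]
        obtain ⟨c, rfl⟩ := hv u (hw u List.mem_cons_self)
        have h4 : evL (T1.toFun Q p) (Sum.inr c) =
            NAut.sg e (p.1 a) * p.2 c * (NAut.sg e (p.1 a))⁻¹ := by
          change (T1.toFun Q p).2 c = _
          rw [h1]
          simp only
          rw [if_pos (hw _ List.mem_cons_self)]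
        rw [h4]
        change _ = NAut.sg e (p.1 a) * (p.2 c * ev p w) * _
        group
    have h5 : ∀ u ∈ s0, u ∉ v := by
      intro u hu huv
      have := List.nodup_append.1 h9
      exact this.2.2 u hu u (List.mem_append_left _ huv) rfl
    have h6 : ∀ u ∈ t, u ∉ v := by
      intro u hu huv
      have := (List.nodup_append.1 h9).2.1
      exact (List.nodup_append.1 this).2.2 u huv u hu rfl
    have h7 : ev (T1.toFun Q p) (s0 ++ (v ++ t)) = ev p s0 *
        (NAut.sg e (p.1 a) * ev p v * (NAut.sg e (p.1 a))⁻¹ * ev p t) := by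
      rw [ev_append, ev_append, h2 h5, h2 h6, h3 v fun u hu => hu]
    rw [h7]
    have h11 : NAut.sg (!e) (p.1 a) = (NAut.sg e (p.1 a))⁻¹ := by cases e <;> simp [NAut.sg]
    simp only [ev_append, ev_cons, NAut.evL_inl, h11]
    group

/-- Normal form of quadratic words. -/
theorem nf (s : Finset κ) (l : List (Letter κ γ)) (hq : Quad s l) : Concl s l := by
  classical
  induction h : s.card using Nat.strong_induction_on generalizing s l with
  | _ n IH =>
  have ih : ∀ (s' : Finset κ) (l' : List (Letter κ γ)), s'.card < s.card → Quad s' l' →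
      Concl s' l' := fun s' l' hc hq' => IH s'.card (h ▸ hc) s' l' hq' rfl
  have key : ∀ (m : ℕ) (a : κ) (e : Bool) (s0 v t : List (Letter κ γ)), v.length = m →
      l = s0 ++ Sum.inl (a, e) :: (v ++ Sum.inl (a, !e) :: t) → Concl s l := by
    intro m
    induction m using Nat.strong_induction_on with
    | _ m IHm =>
    intro a e s0 v t hm hl
    by_cases hv : ∀ x ∈ v, ∃ c, x = Sum.inr c
    · exact concl_cap a e s0 v t hl hv hq ih
    · push Not at hv
      obtain ⟨u, hu, hu'⟩ := hv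
      obtain ⟨b, d⟩ | c := u
      swap
      · exact absurd rfl (hu' c)
      obtain ⟨x, y, rfl⟩ := List.append_of_mem hu
      have hbs : b ∈ s := (hq.2 b d).1 (by rw [hl]; simp)
      have hbl : Sum.inl (b, !d) ∈ l := (hq.2 b (!d)).2 hbs
      rw [hl] at hbl
      simp only [List.mem_append, List.mem_cons] at hbl
      have hnd := hq.1
      rw [hl] at hnd
      have hba : b ≠ a := by
        rintro rfl
        have h1 : (Sum.inl (b, d) : Letter κ γ) ≠ Sum.inl (b, e) := by
          intro h2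
          rw [h2] at hnd
          simp [List.nodup_append] at hnd
        have h1' : (Sum.inl (b, d) : Letter κ γ) ≠ Sum.inl (b, !e) := by
          intro h2
          rw [h2] at hnd
          simp [List.nodup_append] at hnd
        cases d <;> cases e <;> simp at h1 h1'
      rcases hbl with h1 | h1 | (h1 | h1 | h1) | h1 | h1
      · -- partner in `s0`
        obtain ⟨s', z, rfl⟩ := List.append_of_mem h1
        refine concl_linked b a (!d) e s' z x y t ?_ hq ih
        rw [hl, Bool.not_not]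
        simp
      · simp only [Sum.inl.injEq, Prod.mk.injEq] at h1
        exact absurd h1.1 hba
      · obtain ⟨x1, x2, rfl⟩ := List.append_of_mem h1
        refine IHm x2.length (by rw [← hm]; simp; omega) b (!d) (s0 ++ Sum.inl (a, e) :: x1) x2
          (y ++ Sum.inl (a, !e) :: t) rfl ?_
        rw [hl, Bool.not_not]
        simp
      · simp only [Sum.inl.injEq, Prod.mk.injEq] at h1
        exact absurd h1.2 (by cases d <;> simp)
      · obtain ⟨y1, y2, rfl⟩ := List.append_of_mem h1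
        refine IHm y1.length (by rw [← hm]; simp; omega) b d (s0 ++ Sum.inl (a, e) :: x) y1
          (y2 ++ Sum.inl (a, !e) :: t) rfl ?_
        rw [hl]
        simp
      · simp only [Sum.inl.injEq, Prod.mk.injEq] at h1
        exact absurd h1.1 hba
      · obtain ⟨z, t', rfl⟩ := List.append_of_mem h1
        refine concl_linked a b e d s0 x y z t' ?_ hq ih
        rw [hl]
        simp
  by_cases hs : s = ∅
  · subst hs
    have hall : ∀ x ∈ l, ∃ c, x = Sum.inr c := by
      rintro (⟨b, d⟩ | c) hx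
      · exact absurd ((hq.2 b d).1 hx) (by simp)
      · exact ⟨c, rfl⟩
    obtain ⟨C, rfl⟩ : ∃ C : List γ, l = C.map Sum.inr := by
      clear key ih IH hq h
      induction l with
      | nil => exact ⟨[], rfl⟩
      | cons x l ih =>
        obtain ⟨C, hC⟩ := ih fun x hx => hall x (List.mem_cons_of_mem _ hx)
        obtain ⟨c, rfl⟩ := hall x List.mem_cons_self
        exact ⟨c :: C, by rw [hC]; rfl⟩
    refine ⟨NAut.refl κ γ, [], C, by simp, by simp, ?_, by simp, fun Q _ p a _ => rfl, ?_⟩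
    · exact List.Nodup.of_map _ hq.1
    · intro Q _ p
      simp only [stdVal, List.map_nil, List.prod_nil, one_mul, NAut.refl_toFun, ev, List.map_map]
      rfl
  · obtain ⟨a, ha⟩ := Finset.nonempty_iff_ne_empty.2 hs
    have h1 : Sum.inl (a, true) ∈ l := (hq.2 a true).2 ha
    have h2 : Sum.inl (a, false) ∈ l := (hq.2 a false).2 ha
    obtain ⟨l1, l2, rfl⟩ := List.append_of_mem h1
    simp only [List.mem_append, List.mem_cons] at h2
    rcases h2 with h2 | h2 | h2
    · obtain ⟨l3, l4, rfl⟩ := List.append_of_mem h2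
      exact key _ a false l3 l4 l2 rfl (by simp)
    · simp at h2
    · obtain ⟨l3, l4, rfl⟩ := List.append_of_mem h2
      exact key _ a true l1 l3 l4 rfl (by simp)

end Vale.Agent.P002.H252
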