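import Vale.Agent.P002.H252.Struct

/-!
# There are no free generators
-/

namespace Vale.Agent.P002.H252

open NAut commutatorElement

theorem evalB_comm {g n : ℕ} {Q : Type} [Group Q] (η : G0 g n → Q)
    (h1 : ∀ l, η (Sum.inl (l, false)) * η (Sum.inl (l, true)) =
      η (Sum.inl (l, true)) * η (Sum.inl (l, false)))
    (h2 : ∀ j, η (Sum.inr j) = 1) : evalB η (word0 g n) = 1 := by
  rw [evalB_word0]
  have e1 : ((List.finRange g).map fun l =>
      ⁅η (Sum.inl (l, false)), η (Sum.inl (l, true))⁆).prod = 1 := by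
    refine List.prod_eq_one ?_
    intro x hx
    obtain ⟨l, -, rfl⟩ := List.mem_map.1 hx
    rw [commutatorElement_eq_one_iff_mul_comm]
    exact h1 l
  have e2 : ((List.finRange n).map fun j => η (Sum.inr j)).prod = 1 := by
    refine List.prod_eq_one ?_
    intro x hx
    obtain ⟨j, -, rfl⟩ := List.mem_map.1 hx
    exact h2 j
  rw [e1, e2, one_mul]

namespace Cov

variable {g n : ℕ} {m : Fin n → ℕ} {D : Type} [Group D] {δ : G0 g n → D}
  {hD : IsOrb g n m D δ} {H : Subgroup D} (K : Cov hD H)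

theorem zpow_fix (O : K.Cyc) (z : ℤ) (h : δ (Sum.inr O.1) ^ z • K.rep O = K.rep O) :
    ∃ b : ℤ, (K.t (K.rep O))⁻¹ * δ (Sum.inr O.1) ^ z * K.t (K.rep O) = ((K.Z O ^ b : H) : D) := by
  obtain ⟨b, hb⟩ : (K.per O : ℤ) ∣ z := by
    obtain ⟨k, hk | hk⟩ := Int.eq_nat_or_neg z
    · rw [hk] at h ⊢
      rw [zpow_natCast] at h
      exact Int.natCast_dvd_natCast.2 ((K.per_dvd_iff O k).2 h)
    · rw [hk] at h ⊢
      rw [zpow_neg, zpow_natCast, inv_smul_eq_iff] at h
      exact (Int.natCast_dvd_natCast.2 ((K.per_dvd_iff O k).2 h.symm)).neg_right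
  refine ⟨b, ?_⟩
  rw [SubgroupClass.coe_zpow]
  change _ = ((K.t (K.rep O))⁻¹ * δ (Sum.inr O.1) ^ K.per O * K.t (K.rep O)) ^ b
  have := conj_zpow (i := b) (a := (K.t (K.rep O))⁻¹) (b := δ (Sum.inr O.1) ^ K.per O)
  rw [inv_inv] at this
  rw [this, ← zpow_natCast, ← zpow_mul, ← hb]

/-- the number of cycles of a subgroup of index two which contains the peripheral elements -/
theorem card_cyc [H.FiniteIndex] (ε : H →* ℤˣ) (hε : ∀ O, ε (K.Z O) = 1) (τ : H)
    (hτ : ε τ = -1) (K' : Cov hD (ε.ker.map H.subtype)) :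
    ∃ f : K.Cyc × Bool → K'.Cyc, Function.Injective f := by
  set H' := ε.ker.map H.subtype with hH'
  have hmem : ∀ y : H, (y : D) ∈ H' ↔ ε y = 1 := by
    intro y
    rw [hH', Subgroup.mem_map]
    constructor
    · rintro ⟨z, hz, hzy⟩
      have : z = y := Subtype.ext hzy
      rw [← this]
      exact hz
    · intro h
      exact ⟨y, h, rfl⟩
  have hle : H' ≤ H := Subgroup.map_subtype_le _
  let pt : K.Cyc × Bool → D := fun q => K.t (K.rep q.1) * (if q.2 then (τ : D) else 1)
  refine ⟨fun q => K'.cyc q.1.1 ((pt q : D) : D ⧸ H'), ?_⟩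
  rintro ⟨O, b⟩ ⟨O', b'⟩ h
  simp only [cyc] at h
  obtain ⟨h1, h2⟩ := Sigma.mk.inj_iff.1 h
  obtain ⟨j, q⟩ := O
  obtain ⟨j', q'⟩ := O'
  simp only at h1
  subst h1
  rw [heq_iff_eq] at h2
  obtain ⟨z, hz⟩ := Quotient.exact h2
  rw [toPerm_zpow] at hz
  have h3 : ((δ (Sum.inr j) ^ z * pt (⟨j, q⟩, b) : D) : D ⧸ H') =
      ((pt (⟨j, q'⟩, b') : D) : D ⧸ H') := hz
  have h4 := QuotientGroup.eq.1 h3
  -- equal cycles
  have hpt : ∀ q : K.Cyc × Bool, ((pt q : D) : D ⧸ H) = K.rep q.1 := by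
    intro q
    rw [← K.mk_t (K.rep q.1)]
    refine (QuotientGroup.eq.2 ?_).symm
    change (K.t (K.rep q.1))⁻¹ * (K.t (K.rep q.1) * _) ∈ H
    rw [inv_mul_cancel_left]
    split
    · exact τ.2
    · exact H.one_mem
  have h5 : δ (Sum.inr j) ^ z • K.rep ⟨j, q⟩ = K.rep ⟨j, q'⟩ := by
    rw [← hpt (⟨j, q⟩, b), ← hpt (⟨j, q'⟩, b')]
    exact QuotientGroup.eq.2 (hle h4)
  have h6 : q = q' := by
    have e1 : Quotient.mk _ (K.rep ⟨j, q⟩) = q := Quotient.out_eq q
    have e2 : Quotient.mk _ (K.rep ⟨j, q'⟩) = q' := Quotient.out_eq q'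
    rw [← e1, ← e2]
    refine Quotient.sound ⟨z, ?_⟩
    rw [toPerm_zpow]
    exact h5
  subst h6
  obtain ⟨c, hc⟩ := K.zpow_fix ⟨j, q⟩ z h5
  have h7 : ε (K.Z ⟨j, q⟩ ^ c) = 1 := by rw [map_zpow, hε, one_zpow]
  have h8 : (δ (Sum.inr j) ^ z * pt (⟨j, q⟩, b))⁻¹ * pt (⟨j, q⟩, b') =
      (((if b then τ else 1)⁻¹ * (K.Z ⟨j, q⟩ ^ c)⁻¹ * (if b' then τ else 1) : H) : D) := by
    rw [Subgroup.coe_mul, Subgroup.coe_mul, InvMemClass.coe_inv, InvMemClass.coe_inv, ← hc]
    have e1 : ∀ b : Bool, (((if b then τ else 1 : H)) : D) = if b then (τ : D) else 1 := by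
      intro b
      split <;> rfl
    rw [e1, e1]
    change (δ (Sum.inr j) ^ z * (K.t (K.rep ⟨j, q⟩) * (if b then (τ : D) else 1)))⁻¹ *
      (K.t (K.rep ⟨j, q⟩) * (if b' then (τ : D) else 1)) = _
    group
  rw [h8, hmem, map_mul, map_mul, map_inv, map_inv, h7] at h4
  have h9 : b = b' := by
    cases b <;> cases b' <;> simp [hτ] at h4 ⊢
  rw [h9]

/-- There are no free generators. -/
theorem no_free [H.FiniteIndex] [Nonempty (G0 g n)] {g' k' n' : ℕ} {σ : Fin n' ≃ K.Cyc}
    {δ' : G0 g' n' → H} {τ' : Fin k' → H}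
    (hF : IsOrbF g' n' k' (fun i => m (σ i).1 / K.per (σ i)) H δ' τ')
    (hconj : ∀ i, IsConj (K.Z (σ i)) (δ' (Sum.inr i)))
    (hcount : 2 * g' + k' + n' + 2 * H.index = H.index * (2 * g + n) + 2) : k' = 0 := by
  classical
  by_contra hk
  let i0 : Fin k' := ⟨0, Nat.pos_of_ne_zero hk⟩
  -- the sign
  obtain ⟨ε, hε1, hε2⟩ := hF.univ ℤˣ (fun _ => 1) (fun i => if i = i0 then -1 else 1)
    (evalB_comm _ (fun _ => rfl) fun _ => rfl) (fun _ => one_pow _)
  have hεZ : ∀ O, ε (K.Z O) = 1 := by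
    intro O
    obtain ⟨u, hu⟩ := isConj_iff.1 (hconj (σ.symm O))
    rw [Equiv.apply_symm_apply] at hu
    have h1 := hε1 (Sum.inr (σ.symm O))
    rw [← hu, map_mul, map_mul, map_inv] at h1
    rwa [mul_comm (ε u), mul_inv_cancel_right] at h1
  have hε0 : ε (τ' i0) = -1 := by rw [hε2, if_pos rfl]
  have hεi : ∀ i, i ≠ i0 → ε (τ' i) = 1 := fun i hi => by rw [hε2, if_neg hi]
  set H' := ε.ker.map H.subtype with hH'
  have hmem : ∀ y : H, (y : D) ∈ H' ↔ ε y = 1 := by
    intro y
    rw [hH', Subgroup.mem_map]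
    constructor
    · rintro ⟨z, hz, hzy⟩
      have : z = y := Subtype.ext hzy
      rw [← this]
      exact hz
    · intro h
      exact ⟨y, h, rfl⟩
  have hle : H' ≤ H := Subgroup.map_subtype_le _
  have hidx : H'.index = 2 * H.index := by
    rw [hH', Subgroup.index_map_subtype, Subgroup.index_ker]
    congr 1
    have h1 : ε.range = ⊤ := by
      rw [eq_top_iff]
      intro u _
      rcases Int.units_eq_one_or u with rfl | rfl
      · exact ε.range.one_mem
      · exact ⟨τ' i0, hε0⟩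
    rw [h1, Subgroup.card_top]
    exact (Nat.card_eq_fintype_card).trans (by decide)
  have hne : 2 * H.index ≠ 0 := mul_ne_zero two_ne_zero Subgroup.FiniteIndex.index_ne_zero
  have hfi : H'.FiniteIndex := ⟨hidx ▸ hne⟩
  obtain ⟨K'⟩ := exists_cov hD H'
  obtain ⟨g'', k'', n'', σ'', δ'', τ'', hF'', hconj'', hcount''⟩ := K'.structF
  obtain ⟨φ, hφ⟩ := K.card_cyc ε hεZ (τ' i0) hε0 K'
  have hn : 2 * n' ≤ n'' := by
    have h1 : Fintype.card (Fin n' × Bool) ≤ Fintype.card (Fin n'') :=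
      Fintype.card_le_of_injective (fun q => σ''.symm (φ (σ q.1, q.2))) (by
        intro q q' h
        have h2 := hφ (σ''.symm.injective h)
        simp only [Prod.mk.injEq, EmbeddingLike.apply_eq_iff_eq] at h2
        exact Prod.ext h2.1 h2.2)
    rw [Fintype.card_prod, Fintype.card_fin, Fintype.card_bool, Fintype.card_fin] at h1
    omega
  have hcard : 2 * g'' + k'' + 2 ≤ 2 * (2 * g' + k') := by
    rw [hidx] at hcount''
    have : H.index * (2 * g + n) * 2 = 2 * H.index * (2 * g + n) := by ring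
    omega
  -- the homomorphisms to vector spaces
  let B := (Fin g' × Bool) ⊕ Fin k'
  let b0 : B := Sum.inr i0
  let B' := {b : B // b ≠ b0}
  obtain ⟨f, hf1, hf2⟩ := hF.univ (Multiplicative (B → ℚ))
    (Sum.elim (fun q => Multiplicative.ofAdd (Pi.single (Sum.inl q) 1)) (fun _ => 1))
    (fun i => Multiplicative.ofAdd (Pi.single (Sum.inr i) 1))
    (evalB_comm _ (fun l => mul_comm _ _) fun _ => rfl) (fun _ => one_pow _)
  let tr : (B' → ℚ) → Equiv.Perm (B' → ℚ) := fun v => Equiv.addRight v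
  have htr : ∀ v x, tr v x = x + v := fun v x => rfl
  have htrc : ∀ v w, tr v * tr w = tr w * tr v := by
    intro v w
    ext1 x
    rw [Equiv.Perm.mul_apply, Equiv.Perm.mul_apply, htr, htr, htr, htr, add_right_comm]
  obtain ⟨Ψ, hΨ1, hΨ2⟩ := hF.univ (Equiv.Perm (B' → ℚ))
    (Sum.elim (fun q => tr (Pi.single ⟨Sum.inl q, by simp [b0]⟩ 1)) (fun _ => 1))
    (fun i => if h : i = i0 then Equiv.neg _ else
      tr (Pi.single ⟨Sum.inr i, fun h' => h (Sum.inr.inj h')⟩ 1))
    (evalB_comm _ (fun l => htrc _ _) fun _ => rfl) (fun _ => one_pow _)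
  have hΨ : ∀ (h : H) (x : B' → ℚ), Ψ h x = ((ε h : ℤˣ) : ℤ) • x + Ψ h 0 := by
    intro h
    have hh : h ∈ Subgroup.closure (Set.range δ' ∪ Set.range τ') := by rw [hF.gen]; trivial
    induction hh using Subgroup.closure_induction with
    | mem y hy =>
      intro x
      rcases hy with ⟨s, rfl⟩ | ⟨i, rfl⟩
      · rw [hΨ1, hε1]
        rcases s with q | j
        · simp [htr]
        · simp
      · rw [hΨ2, hε2]
        by_cases h : i = i0
        · simp [h]
        · simp [h, htr]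
    | one => intro x; simp
    | mul a b _ _ ha hb =>
      intro x
      rw [map_mul, Equiv.Perm.mul_apply, Equiv.Perm.mul_apply, ha, hb, ha (Ψ b 0), map_mul,
        Units.val_mul, mul_smul, smul_add]
      abel
    | inv a _ ha =>
      intro x
      rw [map_inv, map_inv, Equiv.Perm.inv_eq_iff_eq, ha, Int.units_inv_eq_self, smul_add,
        ← mul_smul, ← Units.val_mul, Int.units_mul_self, Units.val_one, one_smul, add_assoc]
      have h1 := ha ((Ψ a)⁻¹ 0)
      have h0 : Ψ a ((Ψ a)⁻¹ 0) = 0 := by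
        rw [← Equiv.Perm.mul_apply, mul_inv_cancel]
        rfl
      rw [h0] at h1
      rw [← h1, add_zero]
  let d : H → B' → ℚ := fun h => Ψ h 0
  have hdmul : ∀ a b, ε a = 1 → d (a * b) = d a + d b := by
    intro a b ha
    change Ψ (a * b) 0 = _
    rw [map_mul, Equiv.Perm.mul_apply, hΨ, ha, Units.val_one, one_smul, add_comm]
  let fv : H → B → ℚ := fun h => Multiplicative.toAdd (f h)
  have hfmul : ∀ a b, fv (a * b) = fv a + fv b := by
    intro a b
    change Multiplicative.toAdd (f (a * b)) = _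
    rw [map_mul, toAdd_mul]
  -- the functional
  let χ : (B → ℚ) × (B' → ℚ) → H → ℚ := fun p h => (∑ b, p.1 b * fv h b) + ∑ b, p.2 b * d h b
  have hχmul : ∀ p a b, ε a = 1 → χ p (a * b) = χ p a + χ p b := by
    intro p a b ha
    simp only [χ, hfmul, hdmul a b ha, Pi.add_apply, mul_add, Finset.sum_add_distrib]
    ring
  have hχone : ∀ p, χ p 1 = 0 := by
    intro p
    have := hχmul p 1 1 (map_one _)
    rw [one_mul] at this
    linarith
  -- peripheral elements
  have hχper : ∀ p (y h : H) (O : K.Cyc) (b : ℤ), y = h * K.Z O ^ b * h⁻¹ → χ p y = 0 := by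
    intro p y h O b hy
    obtain ⟨u, hu⟩ := isConj_iff.1 (hconj (σ.symm O))
    rw [Equiv.apply_symm_apply] at hu
    have hZ : K.Z O = u⁻¹ * δ' (Sum.inr (σ.symm O)) * u := by rw [← hu]; group
    have h1 : f (K.Z O) = 1 := by
      rw [hZ, map_mul, map_mul, hf1, map_inv]
      simp
    have h2 : Ψ (K.Z O) = 1 := by
      rw [hZ, map_mul, map_mul, hΨ1, map_inv]
      simp
    have h3 : f y = 1 := by
      rw [hy, map_mul, map_mul, map_zpow, h1, one_zpow, mul_one, map_inv, mul_inv_cancel]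
    have h4 : Ψ y = 1 := by
      rw [hy, map_mul, map_mul, map_zpow, h2, one_zpow, mul_one, map_inv, mul_inv_cancel]
    have h5 : fv y = 0 := by
      change Multiplicative.toAdd (f y) = _
      rw [h3]
      rfl
    have h6 : d y = 0 := by
      change Ψ y 0 = _
      rw [h4]
      rfl
    simp [χ, h5, h6]
  -- the generators of `H'`
  let inc : H' →* H := Subgroup.inclusion hle
  have hinc : ∀ y : H', ε (inc y) = 1 := fun y => (hmem (inc y)).1 y.2
  let B'' := (Fin g'' × Bool) ⊕ Fin k''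
  let y : B'' → H := Sum.elim (fun q => inc (δ'' (Sum.inl q))) (fun i => inc (τ'' i))
  let Λ : ((B → ℚ) × (B' → ℚ)) →ₗ[ℚ] (B'' → ℚ) :=
    { toFun := fun p b => χ p (y b)
      map_add' := fun p q => by
        funext b
        simp only [χ, Prod.fst_add, Prod.snd_add, Pi.add_apply, add_mul, Finset.sum_add_distrib]
        ring
      map_smul' := fun c p => by
        funext b
        simp only [χ, Prod.smul_fst, Prod.smul_snd, Pi.smul_apply, smul_eq_mul, mul_assoc,
          RingHom.id_apply, mul_add, Finset.mul_sum] }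
  have hninj : ¬ Function.Injective Λ := by
    intro hinj
    have h1 := LinearMap.finrank_le_finrank_of_injective hinj
    rw [Module.finrank_prod, Module.finrank_fintype_fun_eq_card,
      Module.finrank_fintype_fun_eq_card, Module.finrank_fintype_fun_eq_card] at h1
    have h2 : Fintype.card B = 2 * g' + k' := by
      rw [Fintype.card_sum, Fintype.card_prod, Fintype.card_fin, Fintype.card_bool,
        Fintype.card_fin]
      ring
    have h3 : Fintype.card B'' = 2 * g'' + k'' := by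
      rw [Fintype.card_sum, Fintype.card_prod, Fintype.card_fin, Fintype.card_bool,
        Fintype.card_fin]
      ring
    have h4 : Fintype.card B' = Fintype.card B - 1 := by
      rw [Fintype.card_subtype_compl, Fintype.card_subtype_eq]
    have h5 : 0 < k' := Nat.pos_of_ne_zero hk
    omega
  obtain ⟨p, hp, hp0⟩ : ∃ p, Λ p = 0 ∧ p ≠ 0 := by
    by_contra hcon
    push Not at hcon
    exact hninj ((injective_iff_map_eq_zero Λ).2 hcon)
  have hgenχ : ∀ z : H', χ p (inc z) = 0 := by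
    let X : H' →* Multiplicative ℚ :=
      { toFun := fun z => Multiplicative.ofAdd (χ p (inc z))
        map_one' := by rw [map_one, hχone]; rfl
        map_mul' := fun a b => by rw [map_mul, hχmul _ _ _ (hinc a), ofAdd_add] }
    have h1 : X = 1 := by
      refine MonoidHom.eq_of_eqOn_dense hF''.gen ?_
      rintro z (⟨s, rfl⟩ | ⟨i, rfl⟩)
      · rcases s with q | j
        · exact congrArg Multiplicative.ofAdd (congrFun hp (Sum.inl q))
        · change Multiplicative.ofAdd (χ p (inc (δ'' (Sum.inr j)))) = 1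
          obtain ⟨u, hu⟩ := isConj_iff.1 (hconj'' j)
          have h2 : ((δ'' (Sum.inr j) : H') : D) =
              ((u : D) * (K'.t (K'.rep (σ'' j)))⁻¹) * δ (Sum.inr (σ'' j).1) ^
                (K'.per (σ'' j) : ℤ) * ((u : D) * (K'.t (K'.rep (σ'' j)))⁻¹)⁻¹ := by
            rw [← hu]
            change (u : D) * ((K'.t (K'.rep (σ'' j)))⁻¹ * δ (Sum.inr (σ'' j).1) ^
              K'.per (σ'' j) * K'.t (K'.rep (σ'' j))) * (u : D)⁻¹ = _
            rw [zpow_natCast]
            group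
          have h3 : ((u : D) * (K'.t (K'.rep (σ'' j)))⁻¹) * δ (Sum.inr (σ'' j).1) ^
                (K'.per (σ'' j) : ℤ) * ((u : D) * (K'.t (K'.rep (σ'' j)))⁻¹)⁻¹ ∈ H := by
            rw [← h2]
            exact hle (δ'' (Sum.inr j)).2
          obtain ⟨O, h', b, hb⟩ := K.Z_conj _ _ _ h3
          have h4 : inc (δ'' (Sum.inr j)) = h' * K.Z O ^ b * h'⁻¹ := by
            rw [← hb]
            exact Subtype.ext h2
          rw [hχper p _ h' O b h4]
          rfl
      · exact congrArg Multiplicative.ofAdd (congrFun hp (Sum.inr i))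
    intro z
    have h2 := congrArg (fun X : H' →* Multiplicative ℚ => Multiplicative.toAdd (X z)) h1
    exact h2
  have hker : ∀ z : H, ε z = 1 → χ p z = 0 := by
    intro z hz
    have h1 : (z : D) ∈ H' := (hmem z).2 hz
    exact hgenχ ⟨z, h1⟩
  -- evaluate at special elements
  let x : B → H := Sum.elim (fun q => δ' (Sum.inl q)) τ'
  have hxε : ∀ b, b ≠ b0 → ε (x b) = 1 := by
    rintro (q | i) hb
    · exact hε1 _
    · exact hεi i fun h => hb (by rw [h])
  have hxf : ∀ b, fv (x b) = Pi.single b 1 := by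
    rintro (q | i)
    · change Multiplicative.toAdd (f (δ' (Sum.inl q))) = _
      rw [hf1]
      rfl
    · change Multiplicative.toAdd (f (τ' i)) = _
      rw [hf2]
      rfl
  have hxΨ : ∀ b : B', Ψ (x b.1) = tr (Pi.single b 1) := by
    rintro ⟨q | i, hb⟩
    · exact hΨ1 (Sum.inl q)
    · have hi : i ≠ i0 := fun h => hb (by rw [h])
      change Ψ (τ' i) = _
      rw [hΨ2, dif_neg hi]
  have hxd : ∀ b : B', d (x b.1) = Pi.single b 1 := by
    intro b
    change Ψ (x b.1) 0 = _
    rw [hxΨ, htr, zero_add]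
  have hτΨ : ∀ v, Ψ (τ' i0) v = -v := by
    intro v
    rw [hΨ2, dif_pos rfl]
    rfl
  have hτΨ' : ∀ v, (Ψ (τ' i0))⁻¹ v = -v := by
    intro v
    rw [Equiv.Perm.inv_eq_iff_eq, hτΨ, neg_neg]
  have hsum1 : ∀ (v : B → ℚ) (b : B), ∑ c, v c * (Pi.single b 1 : B → ℚ) c = v b := by
    intro v b
    rw [Finset.sum_eq_single b]
    · simp
    · intro c _ hc
      simp [hc]
    · simp
  have hsum2 : ∀ (v : B' → ℚ) (b : B'), ∑ c, v c * (Pi.single b 1 : B' → ℚ) c = v b := by
    intro v b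
    rw [Finset.sum_eq_single b]
    · simp
    · intro c _ hc
      simp [hc]
    · simp
  have h1 : ∀ b : B', p.1 b.1 + p.2 b = 0 := by
    intro b
    have := hker (x b.1) (hxε b.1 b.2)
    simp only [χ, hxf, hxd, hsum1, hsum2] at this
    exact this
  have h2 : ∀ b : B', p.1 b.1 - p.2 b = 0 := by
    intro b
    have h3 : ε (τ' i0 * x b.1 * (τ' i0)⁻¹) = 1 := by
      rw [map_mul, map_mul, map_inv, hxε b.1 b.2, hε0]
      simp
    have h4 := hker _ h3
    have h5 : fv (τ' i0 * x b.1 * (τ' i0)⁻¹) = Pi.single b.1 1 := by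
      rw [hfmul, hfmul, hxf]
      have : fv (τ' i0)⁻¹ = - fv (τ' i0) := by
        have := hfmul (τ' i0) (τ' i0)⁻¹
        rw [mul_inv_cancel] at this
        have h6 : fv 1 = 0 := by
          change Multiplicative.toAdd (f 1) = _
          rw [map_one]; rfl
        rw [h6] at this
        exact (neg_eq_of_add_eq_zero_right this.symm).symm
      rw [this]
      abel
    have h6 : d (τ' i0 * x b.1 * (τ' i0)⁻¹) = - Pi.single b 1 := by
      change Ψ (τ' i0 * x b.1 * (τ' i0)⁻¹) 0 = _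
      rw [map_mul, map_mul, map_inv, Equiv.Perm.mul_apply, Equiv.Perm.mul_apply, hτΨ', hτΨ, hxΨ,
        htr]
      simp
    simp only [χ, h5, h6, Pi.neg_apply, mul_neg, Finset.sum_neg_distrib, hsum1, hsum2] at h4
    linarith
  have h3 : p.1 b0 = 0 := by
    have h4 : ε (τ' i0 * τ' i0) = 1 := by
      rw [map_mul, hε0]
      simp
    have h5 := hker _ h4
    have h6 : fv (τ' i0 * τ' i0) = Pi.single b0 1 + Pi.single b0 1 := by
      rw [hfmul]
      have : fv (τ' i0) = Pi.single b0 1 := hxf b0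
      rw [this]
    have h7 : d (τ' i0 * τ' i0) = 0 := by
      change Ψ (τ' i0 * τ' i0) 0 = _
      rw [map_mul, Equiv.Perm.mul_apply, hτΨ, hτΨ, neg_neg]
    simp only [χ, h6, h7, Pi.add_apply, mul_add, Finset.sum_add_distrib, hsum1, Pi.zero_apply,
      mul_zero, Finset.sum_const_zero, add_zero] at h5
    linarith
  refine hp0 (Prod.ext (funext fun b => ?_) (funext fun b => ?_))
  · by_cases hb : b = b0
    · rw [hb]; exact h3
    · have e1 := h1 ⟨b, hb⟩
      have e2 := h2 ⟨b, hb⟩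
      change p.1 b = 0
      simp only at e1 e2
      linarith
  · have e1 := h1 b
    have e2 := h2 b
    change p.2 b = 0
    linarith

end Cov

end Vale.Agent.P002.H252
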