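import Vale.Agent.P002R.YOrbStmt
import Vale.Agent.P002.H252.NoFree

/-!
# Subgroups of finite index of orbifold groups of curves are orbifold groups of curves
-/

namespace Vale.Agent.P002.H252

open NAut commutatorElement Vale.Agent.P002R.Orb

/-- orbifold group of genus `g`, with `n` marked points of orders `m j` (`0`: puncture) -/
abbrev Orb (g n : ℕ) (m : Fin n → ℕ) : Type :=
  PresentedGroup (Rels (k := 1) (fun _ => g) (fun _ => n) (fun _ => m))

/-- the loop around the `j`-th marked point -/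
abbrev Orb.c {g n : ℕ} {m : Fin n → ℕ} (j : Fin n) : Orb g n m :=
  PresentedGroup.of (Sum.inr ⟨0, j⟩)

/-- the index of a standard generator -/
def gidx {g n : ℕ} : G0 g n → Gens (k := 1) (fun _ => g) (fun _ => n)
  | Sum.inl q => Sum.inl ⟨0, q⟩
  | Sum.inr j => Sum.inr ⟨0, j⟩

/-- the standard generators -/
def stdGen {g n : ℕ} (m : Fin n → ℕ) (s : G0 g n) : Orb g n m := PresentedGroup.of (gidx s)

theorem rel_eq {g n : ℕ} {Q : Type} [Group Q] (η : G0 g n → Q) :
    (List.ofFn fun l : Fin g => ⁅η (Sum.inl (l, false)), η (Sum.inl (l, true))⁆).prod *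
      (List.ofFn fun j : Fin n => η (Sum.inr j)).prod = evalB η (word0 g n) := by
  rw [evalB_word0, List.ofFn_eq_map, List.ofFn_eq_map]

theorem stdGen_isOrb (g n : ℕ) (m : Fin n → ℕ) : IsOrb g n m (Orb g n m) (stdGen m) := by
  refine ⟨?_, ?_, ?_, ?_⟩
  · rw [← rel_eq]
    have h := PresentedGroup.one_of_mem (rels := Rels (k := 1) (fun _ => g) (fun _ => n)
      (fun _ => m)) (Or.inl ⟨0, rfl⟩)
    rw [map_mul, map_list_prod, map_list_prod, List.map_ofFn, List.map_ofFn] at h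
    refine Eq.trans (congrArg₂ (· * ·) (congrArg List.prod (congrArg List.ofFn (funext fun l => ?_)))
      (congrArg List.prod (congrArg List.ofFn (funext fun j => ?_)))) h
    · exact (map_commutatorElement (PresentedGroup.mk _) _ _).symm
    · rfl
  · intro j
    have h := PresentedGroup.one_of_mem (rels := Rels (k := 1) (fun _ => g) (fun _ => n)
      (fun _ => m)) (Or.inr (Or.inr ⟨0, j, rfl⟩))
    rw [map_pow] at h
    exact h
  · have h : Set.range (stdGen (g := g) m) = Set.range (PresentedGroup.of :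
        Gens (k := 1) (fun _ => g) (fun _ => n) → Orb g n m) := by
      ext x
      constructor
      · rintro ⟨s, rfl⟩
        exact ⟨_, rfl⟩
      · rintro ⟨⟨i, q⟩ | ⟨i, j⟩, rfl⟩
        · refine ⟨Sum.inl q, ?_⟩
          rw [Subsingleton.elim i 0]
          rfl
        · refine ⟨Sum.inr j, ?_⟩
          rw [Subsingleton.elim i 0]
          rfl
    rw [h]
    exact PresentedGroup.closure_range_of _
  · intro Q _ η h1 h2
    let f : Gens (k := 1) (fun _ => g) (fun _ => n) → Q :=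
      Sum.elim (fun x => η (Sum.inl x.2)) (fun x => η (Sum.inr x.2))
    have hf : ∀ r ∈ Rels (k := 1) (fun _ => g) (fun _ => n) (fun _ => m),
        FreeGroup.lift f r = 1 := by
      rintro r (⟨i, rfl⟩ | ⟨p, q, hpq, rfl⟩ | ⟨i, j, rfl⟩)
      · rw [map_mul, map_list_prod, map_list_prod, List.map_ofFn, List.map_ofFn]
        rw [← rel_eq] at h1
        refine Eq.trans (congrArg₂ (· * ·)
          (congrArg List.prod (congrArg List.ofFn (funext fun l => ?_)))
          (congrArg List.prod (congrArg List.ofFn (funext fun j => ?_)))) h1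
        · simp [f]
        · simp [f]
      · exact absurd (Subsingleton.elim _ _) hpq
      · rw [map_pow, FreeGroup.lift_apply_of]
        exact h2 j
    refine ⟨PresentedGroup.toGroup hf, fun s => ?_⟩
    rcases s with q | j
    · exact PresentedGroup.toGroup.of hf
    · exact PresentedGroup.toGroup.of hf

/-- Uniqueness. -/
theorem IsOrb.equiv {g n : ℕ} {m : Fin n → ℕ} {D D' : Type} [Group D] [Group D']
    {δ : G0 g n → D} {δ' : G0 g n → D'} (h : IsOrb g n m D δ) (h' : IsOrb g n m D' δ') :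
    ∃ θ : D ≃* D', ∀ s, θ (δ s) = δ' s := by
  obtain ⟨Φ, hΦ⟩ := h.univ D' δ' h'.rel h'.tors
  obtain ⟨Ψ, hΨ⟩ := h'.univ D δ h.rel h.tors
  have h1 : Ψ.comp Φ = MonoidHom.id D := by
    refine MonoidHom.eq_of_eqOn_dense h.gen ?_
    rintro _ ⟨s, rfl⟩
    simp [hΦ, hΨ]
  have h2 : Φ.comp Ψ = MonoidHom.id D' := by
    refine MonoidHom.eq_of_eqOn_dense h'.gen ?_
    rintro _ ⟨s, rfl⟩
    simp [hΦ, hΨ]
  exact ⟨MonoidHom.toMulEquiv Φ Ψ h1 h2, hΦ⟩

theorem IsOrbF.isOrb {g n : ℕ} {m : Fin n → ℕ} {D : Type} [Group D] {δ : G0 g n → D}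
    {τ : Fin 0 → D} (h : IsOrbF g n 0 m D δ τ) : IsOrb g n m D δ := by
  refine ⟨h.rel, h.tors, ?_, fun Q _ η h1 h2 => ?_⟩
  · have := h.gen
    rwa [Set.range_eq_empty τ, Set.union_empty] at this
  · obtain ⟨Φ, hΦ, -⟩ := h.univ Q η (fun _ => 1) h1 h2
    exact ⟨Φ, hΦ⟩

/-- Subgroups of finite index of orbicurve groups are orbicurve groups, with peripheral elements
going to peripheral elements. -/
theorem finiteIndex_isOrb {g n : ℕ} {m : Fin n → ℕ} {D : Type} [Group D] {δ : G0 g n → D}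
    (hD : IsOrb g n m D δ) (H : Subgroup D) (hH : H.index ≠ 0) :
    ∃ (g' n' : ℕ) (m' : Fin n' → ℕ) (δ' : G0 g' n' → H), IsOrb g' n' m' H δ' ∧
      ∀ (j : Fin n) (d : D) (a : ℤ) (h : d * δ (Sum.inr j) ^ a * d⁻¹ ∈ H),
        ∃ (i : Fin n') (h' : H) (b : ℤ),
          (⟨d * δ (Sum.inr j) ^ a * d⁻¹, h⟩ : H) = h' * δ' (Sum.inr i) ^ b * h'⁻¹ := by
  have hfi : H.FiniteIndex := ⟨hH⟩
  by_cases hne : Nonempty (G0 g n)
  · obtain ⟨K⟩ := exists_cov hD H
    obtain ⟨g', k', n', σ, δ', τ', hF, hconj, hcount⟩ := K.structF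
    have hk := K.no_free hF hconj hcount
    subst hk
    refine ⟨g', n', _, δ', hF.isOrb, ?_⟩
    intro j d a h
    obtain ⟨O, h', b, hb⟩ := K.Z_conj j d a h
    obtain ⟨u, hu⟩ := isConj_iff.1 (hconj (σ.symm O))
    rw [Equiv.apply_symm_apply] at hu
    refine ⟨σ.symm O, h' * u⁻¹, b, ?_⟩
    rw [hb, ← hu, conj_zpow]
    group
  · rw [not_nonempty_iff] at hne
    have hn : IsEmpty (Fin n) := ⟨fun j => hne.elim (Sum.inr j)⟩
    have htriv : ∀ x : D, x = 1 := by
      intro x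
      have hx : x ∈ Subgroup.closure (Set.range δ) := by rw [hD.gen]; trivial
      rwa [Set.range_eq_empty δ, Subgroup.closure_empty, Subgroup.mem_bot] at hx
    have htriv' : ∀ x : H, x = 1 := fun x => Subtype.ext (htriv x)
    refine ⟨g, n, m, fun _ => 1, ⟨htriv' _, fun j => htriv' _, ?_, fun Q _ η _ _ => ?_⟩,
      fun j => hn.elim j⟩
    · rw [eq_top_iff]
      intro x _
      rw [htriv' x]
      exact Subgroup.one_mem _
    · exact ⟨1, fun s => hne.elim s⟩

/-- PB -/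
theorem PB (g n : ℕ) (m : Fin n → ℕ) (Δ : Subgroup (Orb g n m)) (hΔ : Δ.index ≠ 0) :
    ∃ (g' n' : ℕ) (m' : Fin n' → ℕ) (θ : Orb g' n' m' ≃* Δ),
      ∀ y : Δ, (∃ l, ∃ a : ℤ, IsConj (Orb.c l ^ a) (y : Orb g n m)) →
        ∃ l', ∃ a' : ℤ, IsConj (θ (Orb.c l' ^ a')) y := by
  obtain ⟨g', n', m', δ', hO, hper⟩ := finiteIndex_isOrb (stdGen_isOrb g n m) Δ hΔ
  obtain ⟨θ, hθ⟩ := (stdGen_isOrb g' n' m').equiv hO
  refine ⟨g', n', m', θ, ?_⟩
  rintro ⟨y, hy⟩ ⟨l, a, hl⟩
  obtain ⟨u, hu⟩ := isConj_iff.1 hl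
  have h1 : u * stdGen m (Sum.inr l) ^ a * u⁻¹ = y := hu
  subst h1
  obtain ⟨i, h', b, hb⟩ := hper l u a hy
  refine ⟨i, b, ?_⟩
  rw [hb]
  have h2 : θ (Orb.c i ^ b) = δ' (Sum.inr i) ^ b := by
    rw [map_zpow]
    congr 1
    exact hθ (Sum.inr i)
  rw [h2]
  exact isConj_iff.2 ⟨h', rfl⟩

end Vale.Agent.P002.H252
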