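import Mathlib

/-!
# Deformations of a representation modulo central elements
-/

namespace Vale.Agent.P002.H252

variable {E A D G : Type*} [Group E] [Group A] [Group D] [Group G]

/-- Twist of `s` by the change from `X` to `Y`. -/
def defo (s : A →* G) (X Y : E →* G) (e : A → E) (x : A) : G := s x * (X (e x))⁻¹ * Y (e x)

/-- The situation. -/
structure DefoOK (p : A →* D) (s : A →* G) (π : E →* D) (X Y : E →* G) (e : A → E) : Prop where
  cen : ∀ x w, p x = π w → ∀ g, Commute (s x * (X w)⁻¹) g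
  eq : ∀ w, π w = 1 → Y w = X w
  lift : ∀ x, π (e x) = p x

variable {p : A →* D} {s : A →* G} {π : E →* D} {X Y : E →* G} {e : A → E}

theorem DefoOK.eq_of (h : DefoOK p s π X Y e) {x : A} {w : E} (hw : π w = p x) :
    defo s X Y e x = s x * (X w)⁻¹ * Y w := by
  obtain ⟨ρ, hρ⟩ : ∃ ρ, ρ = w⁻¹ * e x := ⟨_, rfl⟩
  have h1 : π ρ = 1 := by
    rw [hρ, map_mul, map_inv, hw, h.lift, inv_mul_cancel]
  have h2 : e x = w * ρ := by rw [hρ, mul_inv_cancel_left]
  have h3 : ∀ g, Commute (X ρ)⁻¹ g := by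
    intro g
    have h4 := h.cen 1 ρ (by rw [map_one, h1]) g
    rwa [map_one, one_mul] at h4
  rw [defo, h2, map_mul, map_mul, h.eq ρ h1, mul_inv_rev]
  calc s x * ((X ρ)⁻¹ * (X w)⁻¹) * (Y w * X ρ)
      = s x * ((X ρ)⁻¹ * ((X w)⁻¹ * Y w)) * X ρ := by group
    _ = s x * (((X w)⁻¹ * Y w) * (X ρ)⁻¹) * X ρ := by rw [(h3 _).eq]
    _ = s x * (X w)⁻¹ * Y w := by group

theorem DefoOK.mul (h : DefoOK p s π X Y e) (x y : A) :
    defo s X Y e (x * y) = defo s X Y e x * defo s X Y e y := by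
  rw [h.eq_of (w := e x * e y) (by rw [map_mul, map_mul, h.lift, h.lift]), map_mul, map_mul,
    map_mul, defo, defo, mul_inv_rev]
  have h1 := h.cen y (e y) (h.lift y).symm
  calc s x * s y * ((X (e y))⁻¹ * (X (e x))⁻¹) * (Y (e x) * Y (e y))
      = s x * ((s y * (X (e y))⁻¹) * ((X (e x))⁻¹ * Y (e x))) * Y (e y) := by group
    _ = s x * (((X (e x))⁻¹ * Y (e x)) * (s y * (X (e y))⁻¹)) * Y (e y) := by rw [(h1 _).eq]
    _ = _ := by group

theorem DefoOK.ker (h : DefoOK p s π X Y e) {x : A} (hx : p x = 1) : defo s X Y e x = s x := by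
  rw [h.eq_of (w := 1) (by rw [map_one, hx]), map_one, map_one]
  group

theorem isConj_mul_left {c a b : G} (hc : ∀ g, Commute c g) (h : IsConj a b) :
    IsConj (c * a) (c * b) := by
  obtain ⟨u, hu⟩ := isConj_iff.1 h
  refine isConj_iff.2 ⟨u, ?_⟩
  rw [← hu, ← mul_assoc u, ← (hc u).eq]
  group

theorem DefoOK.conj (h : DefoOK p s π X Y e) {x : A} {v : E} {a : ℤ}
    (hx : IsConj (π v ^ a) (p x)) (hπ : Function.Surjective π)
    (hc : IsConj (X v) (Y v)) : IsConj (s x) (defo s X Y e x) := by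
  obtain ⟨d, hd⟩ := isConj_iff.1 hx
  obtain ⟨δ, rfl⟩ := hπ d
  have h1 : π (δ * v ^ a * δ⁻¹) = p x := by
    rw [← hd]
    simp only [map_mul, map_zpow, map_inv]
  have h2 : IsConj (X v ^ a) (Y v ^ a) := by
    obtain ⟨u, hu⟩ := isConj_iff.1 hc
    exact isConj_iff.2 ⟨u, by rw [← hu, conj_zpow]⟩
  have h3 : IsConj (X (δ * v ^ a * δ⁻¹)) (Y (δ * v ^ a * δ⁻¹)) := by
    simp only [map_mul, map_zpow, map_inv]
    have h4 : ∀ (b : G) (g : G), IsConj g (b * g * b⁻¹) := fun b g => isConj_iff.2 ⟨b, rfl⟩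
    exact ((h4 _ _).symm.trans h2).trans (h4 _ _)
  rw [h.eq_of h1]
  have h5 := isConj_mul_left (h.cen x _ h1.symm) h3
  rwa [inv_mul_cancel_right] at h5

/-- The elements mapping to `1` are those in the normal closure of the relators. -/
theorem eq_of_rels {ι : Type*} {R : Set (FreeGroup ι)} {G : Type*} [Group G]
    (X Y : FreeGroup ι →* G) (hR : ∀ w ∈ R, Y w = X w ∧ ∀ g, Commute (X w) g) (w : FreeGroup ι)
    (hw : PresentedGroup.mk R w = 1) : Y w = X w ∧ ∀ g, Commute (X w) g := by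
  obtain ⟨N, hN⟩ : ∃ N : Subgroup (FreeGroup ι), ∀ w, w ∈ N ↔ (Y w = X w ∧ ∀ g, Commute (X w) g) :=
    ⟨{ carrier := {w | Y w = X w ∧ ∀ g, Commute (X w) g}
       mul_mem' := by
        rintro x y ⟨h1, h2⟩ ⟨h3, h4⟩
        exact ⟨by rw [map_mul, map_mul, h1, h3], fun g => by
          rw [map_mul]
          exact (h2 g).mul_left (h4 g)⟩
       one_mem' := ⟨by rw [map_one, map_one], fun g => by
          rw [map_one]
          exact Commute.one_left g⟩
       inv_mem' := by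
        rintro x ⟨h1, h2⟩
        exact ⟨by rw [map_inv, map_inv, h1], fun g => by
          rw [map_inv]
          exact (h2 g).inv_left⟩ }, fun w => Iff.rfl⟩
  have hn : N.Normal := by
    refine ⟨fun x hx g => ?_⟩
    rw [hN] at hx ⊢
    have h1 : X (g * x * g⁻¹) = X x := by
      rw [map_mul, map_mul, map_inv, ← (hx.2 (X g)).eq, mul_inv_cancel_right]
    have h2 : Y (g * x * g⁻¹) = X x := by
      rw [map_mul, map_mul, map_inv, hx.1, ← (hx.2 (Y g)).eq, mul_inv_cancel_right]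
    exact ⟨by rw [h1, h2], by rw [h1]; exact hx.2⟩
  have h1 : Subgroup.normalClosure R ≤ N :=
    Subgroup.normalClosure_le_normal fun w hw => (hN w).2 (hR w hw)
  exact (hN w).1 (h1 ((QuotientGroup.eq_one_iff w).1 hw))

end Vale.Agent.P002.H252
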