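import Vale.Agent.P002.H252.PC3a
import Vale.Agent.P002.H252.PB
import Vale.Agent.P002.H2.Clos
import Vale.Agent.P002.H326J.J6
import Vale.Agent.P002.H326J.J7
import Vale.Agent.P002.H326.M

/-!
# Base case, curve type: auxiliary results
-/

namespace Vale.Agent.P002.H252

open Matrix NumberField Vale.Agent.P002R Vale.Agent.P002R.Orb Vale.Agent.P002.H2

theorem finite_index_le (ι : Type) [Finite ι] (B : ℕ) :
    {H : Subgroup (FreeGroup ι) | H.index ≠ 0 ∧ H.index ≤ B}.Finite := by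
  obtain ⟨Δ, hn, hf, h⟩ := Vale.Agent.P002.H326J.exists_delta ι B
  refine (Set.finite_range
    (fun K : Subgroup (FreeGroup ι ⧸ Δ) => K.comap (QuotientGroup.mk' Δ))).subset ?_
  rintro H ⟨h0, hB⟩
  refine ⟨H.map (QuotientGroup.mk' Δ), ?_⟩
  change (H.map (QuotientGroup.mk' Δ)).comap (QuotientGroup.mk' Δ) = H
  rw [Subgroup.comap_map_eq, QuotientGroup.ker_mk', sup_eq_left]
  exact h H h0 hB

/-- The standard primitive root of unity. -/
noncomputable def zeta (n : ℕ) : ℂ := Complex.exp (2 * Real.pi * Complex.I / n)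

theorem zeta_pow (n : ℕ) : zeta n ^ n = 1 := by
  rcases Nat.eq_zero_or_pos n with h | h
  · subst h
    rw [pow_zero]
  · exact (Complex.isPrimitiveRoot_exp n h.ne').pow_eq_one

theorem zeta_ne (n : ℕ) : zeta n ≠ 0 := Complex.exp_ne_zero _

/-- The scalar matrix `zeta n`. -/
noncomputable def zI (n : ℕ) : SpecialLinearGroup (Fin n) ℂ :=
  ⟨zeta n • (1 : Matrix (Fin n) (Fin n) ℂ), by
    rw [Matrix.det_smul, Matrix.det_one, mul_one, Fintype.card_fin, zeta_pow]⟩

theorem zI_val (n : ℕ) : (zI n).1 = zeta n • (1 : Matrix (Fin n) (Fin n) ℂ) := rfl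

theorem zI_comm (n : ℕ) (g : SpecialLinearGroup (Fin n) ℂ) : Commute (zI n) g := by
  apply Subtype.ext
  change (zI n).1 * g.1 = g.1 * (zI n).1
  rw [zI_val, Matrix.smul_mul, Matrix.mul_smul, Matrix.one_mul, Matrix.mul_one]

theorem zI_pow_val (n k : ℕ) : (zI n ^ k).1 = (zeta n ^ k) • (1 : Matrix (Fin n) (Fin n) ℂ) := by
  induction k with
  | zero =>
    rw [pow_zero, pow_zero, one_smul]
    rfl
  | succ k ih =>
    rw [pow_succ, pow_succ]
    change (zI n ^ k).1 * (zI n).1 = _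
    rw [ih, zI_val, Matrix.smul_mul, Matrix.mul_smul, Matrix.one_mul, smul_smul]

theorem exists_zI {n : ℕ} (hn : 0 < n) {A : SpecialLinearGroup (Fin n) ℂ} {c : ℂ}
    (h : A.1 = c • (1 : Matrix (Fin n) (Fin n) ℂ)) : ∃ k : ℕ, A = zI n ^ k := by
  have h1 : c ^ n = 1 := by
    have h2 := A.2
    rwa [h, Matrix.det_smul, Matrix.det_one, mul_one, Fintype.card_fin] at h2
  have hne : NeZero n := ⟨hn.ne'⟩
  obtain ⟨k, -, hk⟩ := (Complex.isPrimitiveRoot_exp n hn.ne').eq_pow_of_pow_eq_one h1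
  refine ⟨k, Subtype.ext ?_⟩
  rw [zI_pow_val, h]
  congr 1
  exact hk.symm

theorem isConj_zI {n : ℕ} {A : SpecialLinearGroup (Fin n) ℂ} (h : IsConj (zI n) A) : A = zI n := by
  obtain ⟨u, hu⟩ := isConj_iff.1 h
  rw [← hu, ← (zI_comm n u).eq, mul_inv_cancel_right]

theorem scal_iff {n : ℕ} {A : SpecialLinearGroup (Fin n) ℂ} {c : ℂ}
    (h : Matrix.toLin' A.1 = c • (1 : Module.End ℂ (Fin n → ℂ))) :
    A.1 = c • (1 : Matrix (Fin n) (Fin n) ℂ) := by
  apply Matrix.toLin'.injective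
  rw [h, map_smul, Matrix.toLin'_one]
  rfl

/-- The eigenvalues of a matrix of determinant one such that all `N`-th powers of eigenvalues
agree. -/
theorem eig_root {n N : ℕ} (A : SpecialLinearGroup (Fin n) ℂ)
    (h : ∀ a b, A.1.charpoly.IsRoot a → A.1.charpoly.IsRoot b → a ^ N = b ^ N) {a : ℂ}
    (ha : A.1.charpoly.IsRoot a) : a ^ (N * n) = 1 := by
  have h1 : A.1.charpoly.roots.prod = 1 := by
    rw [← Matrix.det_eq_prod_roots_charpoly, A.2]
  have h2 : ∀ s : Multiset ℂ, (∀ b ∈ s, b ^ N = a ^ N) →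
      s.prod ^ N = (a ^ N) ^ Multiset.card s := by
    intro s
    induction s using Multiset.induction_on with
    | empty =>
      intro _
      rw [Multiset.prod_zero, one_pow, Multiset.card_zero, pow_zero]
    | cons b s ih =>
      intro hs
      rw [Multiset.prod_cons, mul_pow, ih fun b hb => hs b (Multiset.mem_cons_of_mem hb),
        hs b (Multiset.mem_cons_self b s), Multiset.card_cons, pow_succ']
  have h3 := h2 A.1.charpoly.roots fun b hb => h b a (Polynomial.isRoot_of_mem_roots hb) ha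
  have h4 : Multiset.card A.1.charpoly.roots = n := by
    rw [← IsAlgClosed.splits A.1.charpoly |>.natDegree_eq_card_roots,
      Matrix.charpoly_natDegree_eq_dim, Fintype.card_fin]
  rw [h1, one_pow, h4, ← pow_mul] at h3
  exact h3.symm

theorem hasEig_iff {n : ℕ} (A : Matrix (Fin n) (Fin n) ℂ) (a : ℂ) :
    Module.End.HasEigenvalue (Matrix.toLin' A : Module.End ℂ (Fin n → ℂ)) a ↔
      A.charpoly.IsRoot a := by
  rw [Vale.Agent.P002.H326.root_iff]
  constructor
  · intro h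
    obtain ⟨v, hv⟩ := h.exists_hasEigenvector
    refine ⟨v, hv.2, ?_⟩
    have := hv.apply_eq_smul
    rwa [Matrix.toLin'_apply] at this
  · rintro ⟨v, hv, h⟩
    refine Module.End.hasEigenvalue_of_hasEigenvector (x := v) ⟨?_, hv⟩
    rw [Module.End.mem_eigenspace_iff, Matrix.toLin'_apply, h]

/-- The roots of unity. -/
theorem finite_roots {M : ℕ} (hM : 0 < M) : {w : ℂˣ | w ^ M = 1}.Finite := by
  refine Set.Finite.of_injOn (f := fun z : ℂˣ => (z : ℂ)) (t := {z : ℂ | z ^ M = 1})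
    (fun z hz => ?_) (Units.val_injective.injOn) ?_
  · change (z : ℂ) ^ M = 1
    rw [← Units.val_pow_eq_pow_val, show z ^ M = 1 from hz, Units.val_one]
  · refine (Multiset.finite_toSet (Polynomial.nthRoots M (1 : ℂ))).subset fun z hz => ?_
    exact (Polynomial.mem_nthRoots hM).2 hz

theorem int_roots {M : ℕ} (hM : 0 < M) (w : ℂˣ) (hw : w ^ M = 1) :
    IsIntegral ℤ (w : ℂ) ∧ IsIntegral ℤ ((w⁻¹ : ℂˣ) : ℂ) := by
  constructor
  · refine IsIntegral.of_pow hM ?_
    rw [← Units.val_pow_eq_pow_val, hw, Units.val_one]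
    exact isIntegral_one
  · refine IsIntegral.of_pow hM ?_
    rw [← Units.val_pow_eq_pow_val, inv_pow, hw, inv_one, Units.val_one]
    exact isIntegral_one

theorem root_zpow {n : ℕ} (A : SpecialLinearGroup (Fin n) ℂ) (z : ℂ) (hz : A.1.charpoly.IsRoot z)
    (a : ℤ) : (A ^ a).1.charpoly.IsRoot (z ^ a) := by
  obtain ⟨v, hv, hv'⟩ := (Vale.Agent.P002.H326.root_iff _ z).1 hz
  have hz0 : z ≠ 0 := by
    rintro rfl
    rw [zero_smul] at hv'
    have h1 : (A⁻¹).1 * A.1 = 1 := congrArg Subtype.val (inv_mul_cancel A)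
    apply hv
    rw [← Matrix.one_mulVec v, ← h1, ← Matrix.mulVec_mulVec, hv', Matrix.mulVec_zero]
  rcases Int.eq_nat_or_neg a with ⟨k, rfl | rfl⟩
  · rw [zpow_natCast, zpow_natCast]
    exact Vale.Agent.P002.H326.root_pow A z k hz
  · have h1 := Vale.Agent.P002.H326.root_pow A z k hz
    obtain ⟨w, hw, hw'⟩ := (Vale.Agent.P002.H326.root_iff _ _).1 h1
    rw [_root_.zpow_neg, zpow_natCast, _root_.zpow_neg, zpow_natCast]
    refine (Vale.Agent.P002.H326.root_iff _ _).2 ⟨w, hw, ?_⟩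
    have h2 : ((A ^ k)⁻¹).1 * (A ^ k).1 = 1 := congrArg Subtype.val (inv_mul_cancel (A ^ k))
    have h3 : w = (z ^ k) • (((A ^ k)⁻¹).1 *ᵥ w) := by
      rw [← Matrix.mulVec_smul, ← hw', Matrix.mulVec_mulVec, h2, Matrix.one_mulVec]
    have h4 : z ^ k ≠ 0 := pow_ne_zero _ hz0
    calc ((A ^ k)⁻¹).1 *ᵥ w = (z ^ k)⁻¹ • ((z ^ k) • (((A ^ k)⁻¹).1 *ᵥ w)) := by
          rw [smul_smul, inv_mul_cancel₀ h4, one_smul]
      _ = _ := by rw [← h3]

theorem root_zI {n : ℕ} (A : SpecialLinearGroup (Fin n) ℂ) (z : ℂ) (hz : A.1.charpoly.IsRoot z)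
    (k : ℕ) : (zI n ^ k * A).1.charpoly.IsRoot (zeta n ^ k * z) := by
  obtain ⟨v, hv, hv'⟩ := (Vale.Agent.P002.H326.root_iff _ z).1 hz
  refine (Vale.Agent.P002.H326.root_iff _ _).2 ⟨v, hv, ?_⟩
  change ((zI n ^ k).1 * A.1) *ᵥ v = _
  rw [zI_pow_val, Matrix.smul_mul, Matrix.one_mul, Matrix.smul_mulVec, hv', smul_smul]

end Vale.Agent.P002.H252
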