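import Vale.Agent.P002.H252.PC3b
import Vale.Agent.P002.Bd3.B17
import Vale.Agent.P002.Bd3.B18

/-!
# Base case, curve type
-/

namespace Vale.Agent.P002.H252

open Matrix NumberField Vale.Agent.P002R Vale.Agent.P002R.Orb Vale.Agent.P002.H2
  Vale.Agent.P002.H326 commutatorElement

section

variable {F : Type} [Group F] {n : ℕ} {g' n' : ℕ} {m' : Fin n' → ℕ}

/-- The family of deformations. -/
noncomputable def tau (H : Subgroup F) (σ : F → SpecialLinearGroup (Fin n) ℂ)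
    (s : H →* SpecialLinearGroup (Fin n) ℂ)
    (X₀ : Gens (k := 1) (fun _ => g') (fun _ => n') → SpecialLinearGroup (Fin n) ℂ)
    (e : H → FreeGroup (Gens (k := 1) (fun _ => g') (fun _ => n')))
    (Y : GensC (k := 1) (fun _ => g') (fun _ => n') 1 → SpecialLinearGroup (Fin n) ℂ) (x : F) :
    SpecialLinearGroup (Fin n) ℂ := by
  classical
  exact if hx : x ∈ H then
    defo s (FreeGroup.lift X₀) (FreeGroup.lift fun v => Y (Sum.inl v)) e ⟨x, hx⟩ else σ x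

theorem tau_mem {H : Subgroup F} {σ : F → SpecialLinearGroup (Fin n) ℂ}
    {s : H →* SpecialLinearGroup (Fin n) ℂ}
    {X₀ : Gens (k := 1) (fun _ => g') (fun _ => n') → SpecialLinearGroup (Fin n) ℂ}
    {e : H → FreeGroup (Gens (k := 1) (fun _ => g') (fun _ => n'))}
    (Y : GensC (k := 1) (fun _ => g') (fun _ => n') 1 → SpecialLinearGroup (Fin n) ℂ) {x : F}
    (hx : x ∈ H) : tau H σ s X₀ e Y x =
      defo s (FreeGroup.lift X₀) (FreeGroup.lift fun v => Y (Sum.inl v)) e ⟨x, hx⟩ := by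
  rw [tau, dif_pos hx]

theorem tau_not {H : Subgroup F} {σ : F → SpecialLinearGroup (Fin n) ℂ}
    {s : H →* SpecialLinearGroup (Fin n) ℂ}
    {X₀ : Gens (k := 1) (fun _ => g') (fun _ => n') → SpecialLinearGroup (Fin n) ℂ}
    {e : H → FreeGroup (Gens (k := 1) (fun _ => g') (fun _ => n'))}
    (Y : GensC (k := 1) (fun _ => g') (fun _ => n') 1 → SpecialLinearGroup (Fin n) ℂ) {x : F}
    (hx : x ∉ H) : tau H σ s X₀ e Y x = σ x := by
  rw [tau, dif_neg hx]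

theorem lift_w0 {G : Type*} [Group G]
    (Z : Gens (k := 1) (fun _ => g') (fun _ => n') → G) (i : Fin 1) :
    FreeGroup.lift Z ((List.ofFn fun l : Fin g' =>
      ⁅(FreeGroup.of (Sum.inl ⟨i, l, false⟩) : FreeGroup (Gens (k := 1) (fun _ => g') fun _ => n')),
        FreeGroup.of (Sum.inl ⟨i, l, true⟩)⁆).prod *
      (List.ofFn fun j : Fin n' => FreeGroup.of (Sum.inr ⟨i, j⟩)).prod) =
    (List.ofFn fun l : Fin g' => Z (Sum.inl ⟨i, l, false⟩) * Z (Sum.inl ⟨i, l, true⟩) *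
      (Z (Sum.inl ⟨i, l, false⟩))⁻¹ * (Z (Sum.inl ⟨i, l, true⟩))⁻¹).prod *
      (List.ofFn fun j => Z (Sum.inr ⟨i, j⟩)).prod := by
  rw [map_mul, map_list_prod, map_list_prod, List.map_ofFn, List.map_ofFn]
  congr 2
  · congr 1
    funext l
    simp only [Function.comp, commutatorElement_def, map_mul, map_inv, FreeGroup.lift_apply_of]
  · congr 1
    funext l
    simp only [Function.comp, FreeGroup.lift_apply_of]

theorem exists_value (H : Subgroup F) (σ : F → SpecialLinearGroup (Fin n) ℂ)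
    (s : H →* SpecialLinearGroup (Fin n) ℂ)
    (X₀ : Gens (k := 1) (fun _ => g') (fun _ => n') → SpecialLinearGroup (Fin n) ℂ)
    (e : H → FreeGroup (Gens (k := 1) (fun _ => g') (fun _ => n')))
    {P : (F → SpecialLinearGroup (Fin n) ℂ) → ℂ} (hP : P ∈ PF H (Fin n)) :
    ∃ f : MvPolynomial (GensC (k := 1) (fun _ => g') (fun _ => n') 1 × Fin n × Fin n) ℂ,
      ∀ Y, value f Y = P (tau H σ s X₀ e Y) := by
  unfold PF at hP
  induction hP using Algebra.adjoin_induction with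
  | mem P hP =>
    obtain ⟨x, hx, i, j, rfl⟩ := hP
    obtain ⟨M, hM⟩ := Vale.Agent.P002.H326J.exists_word n
      (FreeGroup.map (Sum.inl : _ → GensC (k := 1) (fun _ => g') (fun _ => n') 1) (e ⟨x, hx⟩))
    refine ⟨∑ k, MvPolynomial.C ((s ⟨x, hx⟩ * (FreeGroup.lift X₀ (e ⟨x, hx⟩))⁻¹).1 i k) * M k j,
      fun Y => ?_⟩
    have h1 : FreeGroup.lift Y (FreeGroup.map (Sum.inl : _ → GensC (k := 1) (fun _ => g')
        (fun _ => n') 1) (e ⟨x, hx⟩)) = FreeGroup.lift (fun v => Y (Sum.inl v)) (e ⟨x, hx⟩) := by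
      rw [← MonoidHom.comp_apply]
      congr 1
      apply FreeGroup.ext_hom
      intro v
      rw [MonoidHom.comp_apply, FreeGroup.map.of, FreeGroup.lift_apply_of, FreeGroup.lift_apply_of]
    have h2 := hM Y
    rw [h1] at h2
    beta_reduce
    rw [tau_mem Y hx, defo]
    change _ = ((s ⟨x, hx⟩ * (FreeGroup.lift X₀ (e ⟨x, hx⟩))⁻¹).1 *
      (FreeGroup.lift (fun v => Y (Sum.inl v)) (e ⟨x, hx⟩)).1) i j
    rw [Vale.Agent.P002.H326J.value_eq, map_sum, Matrix.mul_apply, ← h2]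
    refine Finset.sum_congr rfl fun k _ => ?_
    rw [map_mul, Matrix.map_apply]
    congr 1
    simp [Vale.Agent.P002.H326J.evX]
  | algebraMap c =>
    refine ⟨MvPolynomial.C c, fun Y => ?_⟩
    rw [Vale.Agent.P002.H326J.value_eq]
    simp [Vale.Agent.P002.H326J.evX]
  | add P P' _ _ h1 h2 =>
    obtain ⟨f, hf⟩ := h1
    obtain ⟨f', hf'⟩ := h2
    refine ⟨f + f', fun Y => ?_⟩
    rw [Pi.add_apply, ← hf, ← hf', Vale.Agent.P002.H326J.value_eq,
      Vale.Agent.P002.H326J.value_eq, Vale.Agent.P002.H326J.value_eq, map_add]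
  | mul P P' _ _ h1 h2 =>
    obtain ⟨f, hf⟩ := h1
    obtain ⟨f', hf'⟩ := h2
    refine ⟨f * f', fun Y => ?_⟩
    rw [Pi.mul_apply, ← hf, ← hf', Vale.Agent.P002.H326J.value_eq,
      Vale.Agent.P002.H326J.value_eq, Vale.Agent.P002.H326J.value_eq, map_mul]

end

/-- The relators agree. -/
theorem rel_agree {G : Type*} [Group G] {g' n' : ℕ} {m' : Fin n' → ℕ}
    (X₀ Y₀ : Gens (k := 1) (fun _ => g') (fun _ => n') → G)
    (h1 : ∀ i : Fin 1, (List.ofFn fun l : Fin g' => Y₀ (Sum.inl ⟨i, l, false⟩) *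
      Y₀ (Sum.inl ⟨i, l, true⟩) * (Y₀ (Sum.inl ⟨i, l, false⟩))⁻¹ *
        (Y₀ (Sum.inl ⟨i, l, true⟩))⁻¹).prod * (List.ofFn fun j => Y₀ (Sum.inr ⟨i, j⟩)).prod =
      (List.ofFn fun l : Fin g' => X₀ (Sum.inl ⟨i, l, false⟩) * X₀ (Sum.inl ⟨i, l, true⟩) *
      (X₀ (Sum.inl ⟨i, l, false⟩))⁻¹ * (X₀ (Sum.inl ⟨i, l, true⟩))⁻¹).prod *
      (List.ofFn fun j => X₀ (Sum.inr ⟨i, j⟩)).prod)
    (h2 : ∀ (i : Fin 1) j, Y₀ (Sum.inr ⟨i, j⟩) ^ m' j = X₀ (Sum.inr ⟨i, j⟩) ^ m' j)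
    {R : Set (FreeGroup (Gens (k := 1) (fun _ => g') fun _ => n'))}
    (hR : R = Rels (k := 1) (fun _ => g') (fun _ => n') (fun _ => m'))
    (hcom : ∀ w, PresentedGroup.mk R w = 1 → ∀ g, Commute (FreeGroup.lift X₀ w) g) (w)
    (hw : PresentedGroup.mk R w = 1) : FreeGroup.lift Y₀ w = FreeGroup.lift X₀ w := by
  refine (eq_of_rels _ _ (fun v hv => ⟨?_, hcom v (PresentedGroup.one_of_mem hv)⟩) w hw).1
  rw [hR] at hv
  rcases hv with ⟨i, rfl⟩ | ⟨p, q, hpq, rfl⟩ | ⟨i, j, rfl⟩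
  · exact ((lift_w0 Y₀ i).trans (h1 i)).trans (lift_w0 X₀ i).symm
  · exact absurd (Subsingleton.elim _ _) hpq
  · rw [map_pow, map_pow, FreeGroup.lift_apply_of, FreeGroup.lift_apply_of]
    exact h2 i j

/-- The deformations are admissible. -/
theorem isDef_tau {F : Type} [Group F] {I : Type} [MulAction F I] (C : Ctx F I) (i : I)
    (H : Subgroup F) {g' n' : ℕ} {m' : Fin n' → ℕ} (p : H →* Orb g' n' m')
    (hker : ∀ x : H, x.1 ∈ C.N i ↔ p x = 1)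
    (hmer : ∀ x : H, x.1 ∈ C.Rel → p x = 1 ∨ ∃ l, ∃ a : ℤ, IsConj (Orb.c l ^ a) (p x))
    {n : ℕ} (L : IntermediateField ℚ ℂ) (σ : F → SpecialLinearGroup (Fin n) ℂ) (hσ : MulOn H σ)
    (hZ : C.Z ≤ H) (s : H →* SpecialLinearGroup (Fin n) ℂ) (hs : ∀ x, s x = σ x.1)
    (hsc : ∀ x : H, p x = 1 → ∃ k : ℕ, s x = zI n ^ k)
    (X₀ : Gens (k := 1) (fun _ => g') (fun _ => n') → SpecialLinearGroup (Fin n) ℂ)
    (e : H → FreeGroup (Gens (k := 1) (fun _ => g') (fun _ => n')))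
    (π : FreeGroup (Gens (k := 1) (fun _ => g') (fun _ => n')) →* Orb g' n' m')
    (hπs : Function.Surjective π) (hπ : ∀ v, π (FreeGroup.of v) = PresentedGroup.of v)
    (hcenk : ∀ x w, p x = π w → ∃ k : ℕ, s x * (FreeGroup.lift X₀ w)⁻¹ = zI n ^ k)
    (Y : GensC (k := 1) (fun _ => g') (fun _ => n') 1 → SpecialLinearGroup (Fin n) ℂ)
    (hYr : ∀ t, Y (Sum.inr t) = zI n) (hYi : IsIntegralRep L Y)
    (hOKY : DefoOK p s π (FreeGroup.lift X₀) (FreeGroup.lift fun v => Y (Sum.inl v)) e)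
    (hS : ∀ l, (∃ x : H, x.1 ∈ C.Rel ∧ ∃ a : ℤ, a ≠ 0 ∧ IsConj (Orb.c l ^ a) (p x)) →
      IsConj (X₀ (Sum.inr ⟨0, l⟩)) (Y (Sum.inl (Sum.inr ⟨0, l⟩)))) :
    IsDef C L H σ (tau H σ s X₀ e Y) := by
  have hker1 : ∀ x (hx : x ∈ H), p ⟨x, hx⟩ = 1 → tau H σ s X₀ e Y x = σ x := by
    intro x hx hpx
    rw [tau_mem Y hx, hOKY.ker hpx, hs]
  have hmul : MulOn H (tau H σ s X₀ e Y) := by
    refine ⟨by rw [hker1 1 H.one_mem (map_one p), hσ.one], ?_⟩
    intro x hx y hy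
    rw [tau_mem Y (H.mul_mem hx hy), tau_mem Y hx, tau_mem Y hy, ← hOKY.mul]
    rfl
  refine ⟨hmul, ⟨1, ?_⟩, ?_, ?_, ?_⟩
  · intro x hx i j
    obtain ⟨k, hk⟩ := hcenk ⟨x, hx⟩ (e ⟨x, hx⟩) (hOKY.lift _).symm
    have h1 := hYi.lift (fun _ : Unit => FreeGroup.of (Sum.inr 0) ^ k *
      FreeGroup.map (Sum.inl : _ → GensC (k := 1) (fun _ => g') (fun _ => n') 1) (e ⟨x, hx⟩))
    obtain ⟨a, ha⟩ := h1 () i j
    refine ⟨a, ?_⟩
    rw [← ha]
    have h2 : FreeGroup.lift Y (FreeGroup.map (Sum.inl : _ → GensC (k := 1) (fun _ => g')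
        (fun _ => n') 1) (e ⟨x, hx⟩)) = FreeGroup.lift (fun v => Y (Sum.inl v)) (e ⟨x, hx⟩) := by
      rw [← MonoidHom.comp_apply]
      congr 1
      apply FreeGroup.ext_hom
      intro v
      rw [MonoidHom.comp_apply, FreeGroup.map.of, FreeGroup.lift_apply_of, FreeGroup.lift_apply_of]
    have h3 : tau H σ s X₀ e Y x = FreeGroup.lift Y (FreeGroup.of (Sum.inr 0) ^ k *
        FreeGroup.map (Sum.inl : _ → GensC (k := 1) (fun _ => g') (fun _ => n') 1)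
          (e ⟨x, hx⟩)) := by
      rw [tau_mem Y hx, defo, hk, map_mul, map_pow, FreeGroup.lift_apply_of, h2, hYr]
    change ((1 : Matrix (Fin n) (Fin n) ℂ) * (tau H σ s X₀ e Y x).1 * ((1 : (Matrix (Fin n) (Fin n)
      ℂ)ˣ)⁻¹).1) i j = _
    rw [h3, inv_one, Units.val_one, Matrix.one_mul, Matrix.mul_one]
  · intro x hx
    have hxH := hZ hx
    exact hker1 x hxH ((hker ⟨x, hxH⟩).1 (C.hZN i hx))
  · intro y hy hyH
    rcases hmer ⟨y, hyH⟩ hy with h1 | ⟨l, a, hla⟩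
    · rw [hker1 y hyH h1]
    · by_cases ha : a = 0
      · subst ha
        rw [zpow_zero, isConj_one_right] at hla
        rw [hker1 y hyH hla]
      · have h2 := hS l ⟨⟨y, hyH⟩, hy, a, ha, hla⟩
        rw [tau_mem Y hyH, ← show s ⟨y, hyH⟩ = σ y from hs _]
        refine hOKY.conj (v := FreeGroup.of (Sum.inr ⟨0, l⟩)) (a := a) ?_ hπs ?_
        · rw [hπ]
          exact hla
        · rw [FreeGroup.lift_apply_of, FreeGroup.lift_apply_of]
          exact h2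
  · refine ⟨C.K ⊓ H, le_rfl, by rw [Subgroup.relIndex_self]; exact one_ne_zero, 1, ?_⟩
    have hsub : C.K ⊓ H ≤ H := inf_le_right
    obtain ⟨Φ, hΦ⟩ : ∃ Φ : H →* SpecialLinearGroup (Fin n) ℂ,
        ∀ x (hx : x ∈ H), Φ ⟨x, hx⟩ = tau H σ s X₀ e Y x :=
      ⟨{ toFun := fun x => tau H σ s X₀ e Y x.1
         map_one' := hmul.one
         map_mul' := fun x y => hmul.mul x.1 x.2 y.1 y.2 }, fun x hx => rfl⟩
    have hle : dser (C.K ⊓ H) 1 ≤ (Φ.ker).map H.subtype := by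
      rw [dser, dser, Subgroup.commutator_le]
      intro x hx y hy
      have hc : ∀ x ∈ C.K ⊓ H, ∀ (hx : x ∈ H) g, Commute (Φ ⟨x, hx⟩) g := by
        intro x hxK hxH g
        have h1 : p ⟨x, hxH⟩ = 1 := (hker ⟨x, hxH⟩).1 ((iInf_le C.N i) hxK.1)
        rw [hΦ, hker1 x hxH h1, ← show s ⟨x, hxH⟩ = σ x from hs _]
        obtain ⟨k, hk⟩ := hsc _ h1
        rw [hk]
        exact (zI_comm n g).pow_left k
      refine ⟨⁅(⟨x, hsub hx⟩ : H), ⟨y, hsub hy⟩⁆, ?_, rfl⟩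
      rw [SetLike.mem_coe, MonoidHom.mem_ker, map_commutatorElement,
        commutatorElement_eq_one_iff_mul_comm]
      exact (hc x hx (hsub hx) _).eq
    intro x hx
    obtain ⟨⟨y, hyH⟩, hy, rfl⟩ := hle hx
    rw [SetLike.mem_coe, MonoidHom.mem_ker, hΦ] at hy
    exact hy

/-- The base case for one subgroup. -/
theorem curve_one {F : Type} [Group F] {I : Type} [MulAction F I] (C : Ctx F I) (i : I)
    (H : Subgroup F) {g' n' : ℕ} {m' : Fin n' → ℕ} (p : H →* Orb g' n' m')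
    (hp : Function.Surjective p) (hker : ∀ x : H, x.1 ∈ C.N i ↔ p x = 1)
    (hmer : ∀ x : H, x.1 ∈ C.Rel → p x = 1 ∨ ∃ l, ∃ a : ℤ, IsConj (Orb.c l ^ a) (p x))
    (N₀ : ℕ) (hN₀ : 0 < N₀) (n : ℕ) :
    ∃ L : IntermediateField ℚ ℂ, FiniteDimensional ℚ L ∧
      ∀ σ : F → SpecialLinearGroup (Fin n) ℂ, MulOn H σ → H2.Adm C N₀ H (H2.lin σ) →
        H2.Scal (C.N i ⊓ H) (H2.lin σ) → H2.D C L H σ := by
  rcases Nat.eq_zero_or_pos n with hn | hn
  · subst hn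
    refine ⟨⊥, inferInstance, fun σ _ hadm _ => ?_⟩
    exact absurd hadm.irr.1 (not_nontrivial _)
  -- the prescribed marked points
  obtain ⟨S, hS⟩ : ∃ S : Set (Fin n'), ∀ l, l ∈ S ↔ ∃ x : H, x.1 ∈ C.Rel ∧ ∃ a : ℤ, a ≠ 0 ∧
      IsConj (Orb.c l ^ a) (p x) := ⟨{l | _}, fun l => Iff.rfl⟩
  have hq : ∀ l, ∃ q : ℕ, 0 < q ∧ (l ∈ S → ∃ x : H, x.1 ∈ C.Rel ∧ ∃ a : ℤ, a.natAbs = q ∧
      IsConj (Orb.c l ^ a) (p x)) := by
    intro l
    by_cases hl : l ∈ S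
    · obtain ⟨x, hx, a, ha, hc⟩ := (hS l).1 hl
      exact ⟨a.natAbs, Int.natAbs_pos.2 ha, fun _ => ⟨x, hx, a, rfl, hc⟩⟩
    · exact ⟨1, one_pos, fun h => absurd h hl⟩
  choose q hq0 hq using hq
  obtain ⟨A, hA⟩ : ∃ A : ℕ, A = ∏ j, (if m' j = 0 then 1 else m' j) := ⟨_, rfl⟩
  have hA0 : 0 < A := by
    rw [hA]
    refine Finset.prod_pos fun j _ => ?_
    split_ifs with h0
    · exact one_pos
    · exact Nat.pos_of_ne_zero h0
  have hAd : ∀ j, m' j ≠ 0 → m' j ∣ A := by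
    intro j h0
    have h1 : (if m' j = 0 then 1 else m' j) ∣ A := by
      rw [hA]
      exact Finset.dvd_prod_of_mem _ (Finset.mem_univ j)
    rwa [if_neg h0] at h1
  obtain ⟨M, hM⟩ : ∃ M : ℕ, M = (n * A) * ((∏ l, q l) * (N₀ * n)) := ⟨_, rfl⟩
  have hM0 : 0 < M := by
    rw [hM]
    exact Nat.mul_pos (Nat.mul_pos hn hA0) (Nat.mul_pos (Finset.prod_pos fun l _ => hq0 l)
      (Nat.mul_pos hN₀ hn))
  obtain ⟨V₁, hV₁⟩ : ∃ V₁ : Set ℂˣ, V₁ = {w | w ^ M = 1} := ⟨_, rfl⟩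
  obtain ⟨L, hL, hc, hT⟩ := exists_tor_field V₁ (hV₁ ▸ finite_roots hM0) (fun w hw => by
    rw [hV₁] at hw
    exact int_roots hM0 w hw) (n * n)
  obtain ⟨E, hE⟩ : ∃ E, E = Subgroup.closure (insert (-1) V₁) := ⟨_, rfl⟩
  rw [← hE] at hc hT
  have hEm : ∀ w : ℂˣ, w ^ M = 1 → w ∈ E := by
    intro w hw
    rw [hE]
    refine Subgroup.subset_closure (Set.mem_insert_of_mem _ ?_)
    rw [hV₁]
    exact hw
  obtain ⟨Ez, hEz⟩ : ∃ Ez : Subgroup ℂˣ, ∀ w, w ∈ Ez ↔ w ^ n = 1 :=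
    ⟨(powMonoidHom n : ℂˣ →* ℂˣ).ker, fun w => Iff.rfl⟩
  refine ⟨L, hL, fun σ hσ hadm hscal P hP h0 => ?_⟩
  -- the representation
  obtain ⟨s, hs⟩ : ∃ s : H →* SpecialLinearGroup (Fin n) ℂ, ∀ x, s x = σ x.1 :=
    ⟨{ toFun := fun x => σ x.1
       map_one' := hσ.one
       map_mul' := fun x y => hσ.mul x.1 x.2 y.1 y.2 }, fun x => rfl⟩
  have hsc : ∀ x : H, p x = 1 → ∃ k : ℕ, s x = zI n ^ k := by
    intro x hx
    obtain ⟨c, hc⟩ := hscal x.1 ⟨(hker x).2 hx, x.2⟩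
    rw [hs]
    exact exists_zI hn (scal_iff hc)
  have hh : ∀ v : Gens (k := 1) (fun _ => g') (fun _ => n'), ∃ x : H,
      p x = PresentedGroup.of v := fun v => hp _
  choose h hh using hh
  obtain ⟨X₀, hX₀⟩ : ∃ X₀ : Gens (k := 1) (fun _ => g') (fun _ => n') →
      SpecialLinearGroup (Fin n) ℂ, ∀ v, X₀ v = s (h v) := ⟨fun v => s (h v), fun v => rfl⟩
  obtain ⟨π, hπ⟩ : ∃ π : FreeGroup (Gens (k := 1) (fun _ => g') (fun _ => n')) →* Orb g' n' m',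
      π = PresentedGroup.mk _ := ⟨_, rfl⟩
  have hπs : Function.Surjective π := by
    rw [hπ]
    exact PresentedGroup.mk_surjective _
  have hph : ∀ w, p (FreeGroup.lift h w) = π w := by
    intro w
    have : p.comp (FreeGroup.lift h) = π := by
      apply FreeGroup.ext_hom
      intro v
      rw [MonoidHom.comp_apply, FreeGroup.lift_apply_of, hh, hπ]
      rfl
    exact DFunLike.congr_fun this w
  have hsh : ∀ w, s (FreeGroup.lift h w) = FreeGroup.lift X₀ w := by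
    intro w
    have : s.comp (FreeGroup.lift h) = FreeGroup.lift X₀ := by
      apply FreeGroup.ext_hom
      intro v
      rw [MonoidHom.comp_apply, FreeGroup.lift_apply_of, FreeGroup.lift_apply_of, hX₀]
    exact DFunLike.congr_fun this w
  have hcenk : ∀ x w, p x = π w → ∃ k : ℕ, s x * (FreeGroup.lift X₀ w)⁻¹ = zI n ^ k := by
    intro x w hxw
    rw [← hsh, ← map_inv, ← map_mul]
    refine hsc _ ?_
    rw [map_mul, map_inv, hph, hxw, mul_inv_cancel]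
  have hrelk : ∀ w, π w = 1 → ∃ k : ℕ, FreeGroup.lift X₀ w = zI n ^ k := by
    intro w hw
    rw [← hsh]
    exact hsc _ (by rw [hph, hw])
  have hZc : ∀ (k : ℕ) (g : SpecialLinearGroup (Fin n) ℂ), Commute (zI n ^ k) g :=
    fun k g => (zI_comm n g).pow_left k
  choose e he using fun x : H => hπs (p x)
  -- the relations
  obtain ⟨k₀, hk₀⟩ : ∃ k₀ : ℕ, ∀ i : Fin 1, (List.ofFn fun l : Fin g' =>
      X₀ (Sum.inl ⟨i, l, false⟩) * X₀ (Sum.inl ⟨i, l, true⟩) * (X₀ (Sum.inl ⟨i, l, false⟩))⁻¹ *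
        (X₀ (Sum.inl ⟨i, l, true⟩))⁻¹).prod * (List.ofFn fun j => X₀ (Sum.inr ⟨i, j⟩)).prod =
          zI n ^ k₀ := by
    obtain ⟨k, hk⟩ := hrelk _ (show π _ = 1 by
      rw [hπ]
      exact PresentedGroup.one_of_mem (Or.inl ⟨0, rfl⟩))
    refine ⟨k, fun i => ?_⟩
    rw [Subsingleton.elim i 0, ← hk]
    exact (lift_w0 X₀ 0).symm
  have hkj : ∀ j : Fin n', ∃ k : ℕ, ∀ i : Fin 1, X₀ (Sum.inr ⟨i, j⟩) ^ m' j = zI n ^ k := by
    intro j
    obtain ⟨k, hk⟩ := hrelk (FreeGroup.of (Sum.inr ⟨0, j⟩) ^ m' j) (by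
      rw [hπ]
      exact PresentedGroup.one_of_mem (Or.inr (Or.inr ⟨0, j, rfl⟩)))
    refine ⟨k, fun i => ?_⟩
    rw [Subsingleton.elim i 0, ← hk, map_pow, FreeGroup.lift_apply_of]
  choose kj hkj using hkj
  obtain ⟨X, hXl, hXr⟩ : ∃ X : GensC (k := 1) (fun _ => g') (fun _ => n') 1 →
      SpecialLinearGroup (Fin n) ℂ, (∀ v, X (Sum.inl v) = X₀ v) ∧ ∀ t, X (Sum.inr t) = zI n :=
    ⟨Sum.elim X₀ fun _ => zI n, fun v => rfl, fun t => rfl⟩
  have hZP : ∀ (Y : GensC (k := 1) (fun _ => g') (fun _ => n') 1 → SpecialLinearGroup (Fin n) ℂ),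
      (∀ t, Y (Sum.inr t) = zI n) → ∀ k : ℕ,
        ZP (fun t => Y (Sum.inr t)) (fun _ : Fin 1 => (k : ℤ)) = zI n ^ k := by
    intro Y hY k
    simp [ZP, hY]
  obtain ⟨m₁, hm₁⟩ : ∃ m₁ : ∀ i : Fin 1, Fin n' → ℕ, m₁ = fun _ => m' := ⟨_, rfl⟩
  obtain ⟨b, hb⟩ : ∃ b : Fin 1 → Fin 1 → ℤ, b = fun _ _ => (k₀ : ℤ) := ⟨_, rfl⟩
  obtain ⟨β, hβ⟩ : ∃ β : ∀ _ : Fin 1, Fin n' → Fin 1 → ℤ, β = fun _ j _ => (kj j : ℤ) := ⟨_, rfl⟩
  have hrep : IsRep (RelsC (k := 1) (fun _ => g') (fun _ => n') m₁ b β ∅) X := by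
    rw [isRepC_iff]
    refine ⟨fun i => ?_, fun p q hpq => absurd (Subsingleton.elim _ _) hpq, fun t p => ?_,
      fun i j => ?_, fun q hq => absurd hq (Set.notMem_empty _)⟩
    · rw [hb, hZP X hXr]
      simp only [hXl]
      exact hk₀ i
    · rw [hXr]
      exact zI_comm n _
    · rw [hβ, hZP X hXr, hXl, hm₁]
      exact hkj j i
  have hss : ∀ W, IsInv X W → ∃ W', IsInv X W' ∧ IsCompl W W' := by
    intro W hW
    have hinv : ∀ x ∈ H, ∀ v ∈ W, H2.lin σ x v ∈ W := by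
      intro x hx v hv
      obtain ⟨k, hk⟩ := hcenk ⟨x, hx⟩ (e ⟨x, hx⟩) (he _).symm
      have h1 : σ x = zI n ^ k * FreeGroup.lift X₀ (e ⟨x, hx⟩) := by
        rw [← hk, inv_mul_cancel_right, hs]
      have h2 : ∀ w, ∀ v ∈ W, (FreeGroup.lift X₀ w).1 *ᵥ v ∈ W := fun w v hv =>
        (stable_iff X₀ W).2 (fun v u hu => by
          rw [← hXl]
          exact hW _ u hu) w v hv
      change Matrix.toLin' (σ x).1 v ∈ W
      rw [Matrix.toLin'_apply, h1]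
      change ((zI n ^ k).1 * (FreeGroup.lift X₀ (e ⟨x, hx⟩)).1) *ᵥ v ∈ W
      rw [zI_pow_val, Matrix.smul_mul, Matrix.one_mul, Matrix.smul_mulVec]
      exact W.smul_mem _ (h2 _ v hv)
    rcases hadm.irr.2 W hinv with h1 | h1
    · refine ⟨⊤, fun p v _ => Submodule.mem_top, ?_⟩
      rw [h1]
      exact isCompl_bot_top
    · refine ⟨⊥, fun p v hv => ?_, ?_⟩
      · rw [Submodule.mem_bot] at hv ⊢
        rw [hv, Matrix.mulVec_zero]
      · rw [h1]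
        exact isCompl_top_bot
  -- the eigenvalues at the prescribed points
  have heig : ∀ l ∈ S, EigIn E ((X₀ (Sum.inr ⟨0, l⟩)).1) := by
    intro l hl z hz
    obtain ⟨x, hx, a, ha, hcj⟩ := hq l hl
    obtain ⟨d, hd⟩ := isConj_iff.1 hcj
    obtain ⟨δ, rfl⟩ := hπs d
    have h1 : p x = π (δ * FreeGroup.of (Sum.inr ⟨0, l⟩) ^ a * δ⁻¹) := by
      rw [← hd, map_mul, map_mul, map_inv, map_zpow, hπ]
      rfl
    obtain ⟨k, hk⟩ := hcenk x _ h1
    rw [map_mul, map_mul, map_inv, map_zpow, FreeGroup.lift_apply_of] at hk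
    have h2 : s x = zI n ^ k * (FreeGroup.lift X₀ δ * X₀ (Sum.inr ⟨0, l⟩) ^ a *
        (FreeGroup.lift X₀ δ)⁻¹) := by
      rw [← hk, inv_mul_cancel_right]
    have h3 := root_zpow _ z hz a
    have h4 := eigenvalue_conj (isConj_iff.2 ⟨FreeGroup.lift X₀ δ, rfl⟩ : IsConj
      (X₀ (Sum.inr ⟨0, l⟩) ^ a) _).symm h3
    have h5 := root_zI _ _ h4 k
    rw [← h2, hs] at h5
    have h6 := eig_root (σ x.1) (N := N₀) (fun u v hu hv =>
      hadm.eig x.1 hx x.2 u v ((hasEig_iff _ _).2 hu) ((hasEig_iff _ _).2 hv)) h5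
    have hz0 : z ≠ 0 := by
      rintro rfl
      have h7 : (X₀ (Sum.inr ⟨0, l⟩)).1.charpoly.eval 0 = 0 := hz
      rw [Matrix.eval_charpoly, map_zero, zero_sub, Matrix.det_neg, (X₀ _).2, mul_one] at h7
      exact pow_ne_zero _ (by norm_num) h7
    refine ⟨Units.mk0 z hz0, hEm _ ?_, rfl⟩
    have h8 : (z ^ a) ^ (N₀ * n) = 1 := by
      have h9 : (zeta n ^ k) ^ (N₀ * n) = 1 := by
        rw [← pow_mul, mul_comm, mul_comm N₀ n, mul_assoc, pow_mul, zeta_pow, one_pow]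
      rwa [mul_pow, h9, one_mul] at h6
    have h9 : z ^ (q l * (N₀ * n)) = 1 := by
      rw [pow_mul, ← ha]
      rcases Int.natAbs_eq a with h10 | h10
      · rw [← zpow_natCast z, ← h10]
        exact h8
      · have h11 : z ^ a.natAbs = (z ^ a)⁻¹ := by
          rw [← zpow_natCast z, ← _root_.zpow_neg]
          congr 1
          omega
        rw [h11, inv_pow, h8, inv_one]
    apply Units.ext
    rw [Units.val_pow_eq_pow_val, Units.val_mk0, Units.val_one, hM]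
    obtain ⟨c, hc⟩ : q l ∣ ∏ l, q l := Finset.dvd_prod_of_mem _ (Finset.mem_univ l)
    rw [hc, show n * A * (q l * c * (N₀ * n)) = (q l * (N₀ * n)) * (c * (n * A)) by ring, pow_mul,
      h9, one_pow]
  have hXY : X ∈ YC m₁ b β ∅ (fun _ => S) (fun _ j => X₀ (Sum.inr ⟨0, j⟩)) Set.univ
      (fun _ => zI n) := by
    refine ⟨⟨hrep, hss⟩, fun i j _ => ?_, fun t _ => ?_⟩
    · rw [hXl, Subsingleton.elim i 0]
    · rw [hXr]
  obtain ⟨T', hT1, hT2, hT3⟩ := piece m₁ b β ∅ (fun _ => S) (fun _ j => X₀ (Sum.inr ⟨0, j⟩))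
    Set.univ (fun _ => zI n) Vale.Agent.P002L.g01Irr Vale.Agent.P002B.g0All X hXY Ez E
    (fun t z hz => by
      rw [hXr] at hz
      have h1 : z ^ n = 1 := by
        obtain ⟨v, hv, hv'⟩ := (root_iff _ z).1 hz
        rw [zI_val, Matrix.smul_mulVec, Matrix.one_mulVec] at hv'
        obtain ⟨i, hi⟩ := Function.ne_iff.1 hv
        have := congrFun hv' i
        rw [Pi.smul_apply, Pi.smul_apply, smul_eq_mul, smul_eq_mul] at this
        rw [← mul_right_cancel₀ hi this, zeta_pow]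
      have hz0 : z ≠ 0 := by
        rintro rfl
        rw [zero_pow hn.ne'] at h1
        exact zero_ne_one h1
      refine ⟨Units.mk0 z hz0, (hEz _).2 ?_, rfl⟩
      apply Units.ext
      rw [Units.val_pow_eq_pow_val, Units.val_mk0, h1, Units.val_one])
    (fun w hw => by
      rw [hEz] at hw
      refine hEm w ?_
      rw [hM, show n * A * ((∏ l, q l) * (N₀ * n)) = n * (A * ((∏ l, q l) * (N₀ * n))) by ring,
        pow_mul, hw, one_pow])
    (fun i j h0 w hw => by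
      rw [hEz] at hw
      rw [hm₁] at h0 hw
      change (w ^ m' j) ^ n = 1 at hw
      refine hEm w ?_
      obtain ⟨c, hc⟩ := hAd j h0
      rw [hM, hc, show n * (m' j * c) * ((∏ l, q l) * (N₀ * n)) =
        (m' j * n) * (c * ((∏ l, q l) * (N₀ * n))) by ring, pow_mul, pow_mul w, hw, one_pow])
    (fun i j hj => heig j hj) L hL hc (hT.mono (Nat.le_mul_self n))
  -- the deformation
  obtain ⟨f, hf⟩ := exists_value H σ s X₀ e hP
  have hOK : ∀ Y ∈ YC m₁ b β ∅ (fun _ => S) (fun _ j => X₀ (Sum.inr ⟨0, j⟩)) Set.univ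
      (fun _ => zI n), DefoOK p s π (FreeGroup.lift X₀) (FreeGroup.lift fun v => Y (Sum.inl v))
        e := by
    intro Y hY
    have hYr : ∀ t, Y (Sum.inr t) = zI n := fun t => isConj_zI (hY.2.2 t (Set.mem_univ t))
    obtain ⟨h1, h2, h3, h4, h5⟩ := (isRepC_iff _ _ _ _ _ Y).1 hY.1.1
    refine ⟨fun x w hxw g => ?_, fun w hw => ?_, he⟩
    · obtain ⟨k, hk⟩ := hcenk x w hxw
      rw [hk]
      exact hZc k g
    · rw [hπ] at hw
      refine rel_agree X₀ (fun v => Y (Sum.inl v)) (fun i => ?_) (fun i j => ?_) rfl ?_ w hw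
      · have h6 := h1 i
        rw [hb, hZP Y hYr, ← hk₀ i] at h6
        exact h6
      · have h6 := h4 i j
        rw [hβ, hZP Y hYr, ← hkj j i, hm₁] at h6
        exact h6
      · intro w hw g
        obtain ⟨k, hk⟩ := hrelk w (by rw [hπ]; exact hw)
        rw [hk]
        exact hZc k g
  have hXt : tau H σ s X₀ e X = σ := by
    funext x
    by_cases hx : x ∈ H
    · rw [tau_mem X hx, defo]
      simp only [hXl]
      rw [inv_mul_cancel_right, hs]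
    · exact tau_not X hx
  have hex : ∃ Y ∈ T', IsIntegralRep L Y ∧ value f Y ≠ 0 := by
    by_contra hcon
    push Not at hcon
    have h1 := hT3 f (fun Y hY hY' => hcon Y hY hY') X hT2
    rw [hf, hXt] at h1
    exact h0 h1
  obtain ⟨Y, hY, hYi, hYf⟩ := hex
  have hYY := hT1 hY
  have hOKY := hOK Y hYY
  have hYr : ∀ t, Y (Sum.inr t) = zI n := fun t => isConj_zI (hYY.2.2 t (Set.mem_univ t))
  rw [hf] at hYf
  exact ⟨_, isDef_tau C i H p hker hmer L σ hσ hadm.zle s hs hsc X₀ e π hπs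
    (fun v => by rw [hπ]; rfl) hcenk Y hYr hYi hOKY fun l hl => hYY.2.1 0 l ((hS l).2 hl), hYf⟩

end Vale.Agent.P002.H252
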