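import Vale.Agent.P002.H252.Cover

/-!
# Reidemeister-Schreier for subgroups of finite index of orbicurve groups
-/

namespace Vale.Agent.P002.H252

open NAut

/-- The data of a covering: a tree with its transversal. -/
structure Cov {g n : ℕ} {m : Fin n → ℕ} {D : Type} [Group D] {δ : G0 g n → D}
    (hD : IsOrb g n m D δ) (H : Subgroup D) where
  dist : D ⧸ H → ℕ
  par : D ⧸ H → D ⧸ H
  lab : D ⧸ H → G0 g n × Bool
  hdist : ∀ y, y ≠ ((1 : D) : D ⧸ H) → dist (par y) < dist y
  hlab : ∀ y, y ≠ ((1 : D) : D ⧸ H) → y = sg (lab y).2 (δ (lab y).1) • par y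
  t : D ⧸ H → D
  t_one : t ((1 : D) : D ⧸ H) = 1
  t_step : ∀ y, y ≠ ((1 : D) : D ⧸ H) → t y = sg (lab y).2 (δ (lab y).1) * t (par y)

theorem exists_cov {g n : ℕ} {m : Fin n → ℕ} {D : Type} [Group D] {δ : G0 g n → D}
    (hD : IsOrb g n m D δ) (H : Subgroup D) [Nonempty (G0 g n)] : Nonempty (Cov hD H) := by
  obtain ⟨dist, par, lab, h1, h2⟩ := exists_tree δ H hD.gen
  obtain ⟨t, ht1, ht2⟩ := tree_rec (x0 := ((1 : D) : D ⧸ H)) dist par h1 (1 : D)
    (fun y d => sg (lab y).2 (δ (lab y).1) * d)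
  exact ⟨⟨dist, par, lab, h1, h2, t, ht1, ht2⟩⟩

namespace Cov

variable {g n : ℕ} {m : Fin n → ℕ} {D : Type} [Group D] {δ : G0 g n → D}
  {hD : IsOrb g n m D δ} {H : Subgroup D} (K : Cov hD H)

include K in
theorem tree_induction {P : D ⧸ H → Prop} (h0 : P ((1 : D) : D ⧸ H))
    (h1 : ∀ y, y ≠ ((1 : D) : D ⧸ H) → P (K.par y) → P y) (y : D ⧸ H) : P y := by
  induction h : K.dist y using Nat.strong_induction_on generalizing y with
  | _ k ih =>
    by_cases hy : y = ((1 : D) : D ⧸ H)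
    · rw [hy]; exact h0
    · exact h1 y hy (ih _ (h ▸ K.hdist y hy) _ rfl)

theorem t_smul (y : D ⧸ H) : K.t y • ((1 : D) : D ⧸ H) = y := by
  induction y using K.tree_induction with
  | h0 => rw [K.t_one, one_smul]
  | h1 y hy ih => rw [K.t_step y hy, mul_smul, ih, ← K.hlab y hy]

theorem mk_t (y : D ⧸ H) : ((K.t y : D) : D ⧸ H) = y := by
  conv_rhs => rw [← K.t_smul y]
  change _ = ((K.t y * 1 : D) : D ⧸ H)
  rw [mul_one]

theorem mem_iff (d : D) (x y : D ⧸ H) : (K.t y)⁻¹ * d * K.t x ∈ H ↔ d • x = y := by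
  rw [mul_assoc, ← QuotientGroup.eq, K.mk_t]
  have h1 : ((d * K.t x : D) : D ⧸ H) = d • x := by
    conv_rhs => rw [← K.mk_t x]
    rfl
  rw [h1, eq_comm]

/-- the Schreier generators -/
def F (e : (D ⧸ H) × G0 g n) : H :=
  ⟨(K.t (δ e.2 • e.1))⁻¹ * δ e.2 * K.t e.1, (K.mem_iff _ _ _).2 rfl⟩

/-- the cycles of the `c_j` -/
abbrev Cyc (_ : Cov hD H) : Type :=
  (j : Fin n) × Quotient (Equiv.Perm.SameCycle.setoid (MulAction.toPerm (δ (Sum.inr j)) :
    Equiv.Perm (D ⧸ H)))

/-- the representative of a cycle -/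
noncomputable def rep (O : K.Cyc) : D ⧸ H := O.2.out

/-- the length of a cycle -/
noncomputable def per (O : K.Cyc) : ℕ :=
  Function.minimalPeriod (fun x : D ⧸ H => δ (Sum.inr O.1) • x) (K.rep O)

theorem iterate_smul (c : D) (i : ℕ) (x : D ⧸ H) :
    (fun x : D ⧸ H => c • x)^[i] x = c ^ i • x := by
  induction i generalizing x with
  | zero => simp
  | succ i ih => rw [Function.iterate_succ_apply, ih, pow_succ, mul_smul]

theorem pow_per (O : K.Cyc) : δ (Sum.inr O.1) ^ K.per O • K.rep O = K.rep O := by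
  rw [← iterate_smul]
  exact Function.iterate_minimalPeriod

theorem per_dvd_iff (O : K.Cyc) (i : ℕ) :
    K.per O ∣ i ↔ δ (Sum.inr O.1) ^ i • K.rep O = K.rep O := by
  rw [← iterate_smul]
  exact Iff.symm Function.isPeriodicPt_iff_minimalPeriod_dvd

theorem per_dvd_m (O : K.Cyc) : K.per O ∣ m O.1 := by
  rw [per_dvd_iff, hD.tors, one_smul]

theorem per_pos [H.FiniteIndex] (O : K.Cyc) : 0 < K.per O := by
  rw [per, Function.minimalPeriod_pos_iff_mem_periodicPts]
  have hf : Finite (D ⧸ H) := inferInstance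
  exact (MulAction.injective (δ (Sum.inr O.1)) : Function.Injective
    (fun x : D ⧸ H => δ (Sum.inr O.1) • x)).mem_periodicPts _

/-- the peripheral elements -/
noncomputable def Z (O : K.Cyc) : H :=
  ⟨(K.t (K.rep O))⁻¹ * δ (Sum.inr O.1) ^ K.per O * K.t (K.rep O),
    (K.mem_iff _ _ _).2 (K.pow_per O)⟩

/-- the lift of the surface word with starting point `x` -/
def fword (x : D ⧸ H) : List (Letter ((D ⧸ H) × G0 g n) K.Cyc) :=
  (liftW δ x (word0 g n)).map Sum.inl

/-- the word which expresses the peripheral element of a cycle -/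
noncomputable def zword (O : K.Cyc) : List (Letter ((D ⧸ H) × G0 g n) K.Cyc) :=
  Sum.inr O :: (List.range (K.per O)).map
    fun i => Sum.inl ((δ (Sum.inr O.1) ^ i • K.rep O, Sum.inr O.1), false)

theorem ev_map_inl {κ γ Q : Type} [Group Q] (p : (κ → Q) × (γ → Q)) (w : List (κ × Bool)) :
    ev p (w.map Sum.inl) = evalB p.1 w := by
  induction w with
  | nil => rfl
  | cons d w ih => rw [List.map_cons, ev_cons, evalB_cons, ih, evL_inl]

theorem evalB_liftW_F (x : D ⧸ H) (w : List (G0 g n × Bool)) :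
    ((evalB K.F (liftW δ x w) : H) : D) = (K.t (evalB δ w • x))⁻¹ * evalB δ w * K.t x := by
  induction w with
  | nil => simp [liftW]
  | cons d w ih =>
    obtain ⟨s, b⟩ := d
    rw [liftW, evalB_cons, Subgroup.coe_mul, ih, evalB_cons]
    cases b
    · simp only [letB, sg, F, Bool.false_eq_true, if_false, InvMemClass.coe_inv, mul_smul,
        smul_inv_smul]
      group
    · simp only [letB, sg, F, if_true, mul_smul]
      group

theorem prod_range_F (O : K.Cyc) (i : ℕ) :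
    (K.t (δ (Sum.inr O.1) ^ i • K.rep O))⁻¹ * δ (Sum.inr O.1) ^ i * K.t (K.rep O) *
      ((((List.range i).map fun i => (K.F (δ (Sum.inr O.1) ^ i • K.rep O, Sum.inr O.1))⁻¹).prod :
        H) : D) = 1 := by
  induction i with
  | zero => simp
  | succ i ih =>
    rw [List.range_succ, List.map_append, List.prod_append, Subgroup.coe_mul]
    have h1 : ((((List.range i).map fun i =>
        (K.F (δ (Sum.inr O.1) ^ i • K.rep O, Sum.inr O.1))⁻¹).prod : H) : D) =
        ((K.t (δ (Sum.inr O.1) ^ i • K.rep O))⁻¹ * δ (Sum.inr O.1) ^ i * K.t (K.rep O))⁻¹ :=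
      eq_inv_of_mul_eq_one_right ih
    rw [h1]
    simp only [List.map_cons, List.map_nil, List.prod_cons, List.prod_nil, mul_one, F,
      InvMemClass.coe_inv, pow_succ' (δ (Sum.inr O.1)) i, mul_smul]
    group

/-- the tautological tuple -/
noncomputable def taut : ((D ⧸ H) × G0 g n → H) × (K.Cyc → H) := (K.F, K.Z)

theorem taut_fword (x : D ⧸ H) : ev K.taut (K.fword x) = 1 := by
  rw [fword, ev_map_inl]
  refine Subtype.ext ?_
  change ((evalB K.F (liftW δ x (word0 g n)) : H) : D) = 1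
  rw [evalB_liftW_F, hD.rel]
  simp

theorem evL_list {κ γ Q : Type} [Group Q] (p : (κ → Q) × (γ → Q)) {α : Type} (l : List α)
    (k : α → κ) : ev p (l.map fun i => Sum.inl (k i, false)) = (l.map fun i => (p.1 (k i))⁻¹).prod := by
  simp only [ev, List.map_map]
  rfl

theorem taut_zword (O : K.Cyc) : ev K.taut (K.zword O) = 1 := by
  rw [zword, ev_cons, evL_list]
  refine Subtype.ext ?_
  have h := K.prod_range_F O (K.per O)
  rw [K.pow_per] at h
  exact h

theorem taut_tree (y : D ⧸ H) (hy : y ≠ ((1 : D) : D ⧸ H)) :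
    K.taut.1 (treeLet δ H K.par K.lab y) = 1 := by
  refine Subtype.ext ?_
  change (K.t (δ (treeLet δ H K.par K.lab y).2 • (treeLet δ H K.par K.lab y).1))⁻¹ *
    δ (treeLet δ H K.par K.lab y).2 * K.t (treeLet δ H K.par K.lab y).1 = 1
  have h1 := K.hlab y hy
  have h2 := K.t_step y hy
  obtain ⟨⟨s, b⟩, hsb⟩ : ∃ d, d = K.lab y := ⟨_, rfl⟩
  rw [← hsb] at h1 h2
  cases b
  · simp only [sg, Bool.false_eq_true, if_false] at h1 h2
    simp only [treeLet, letB, ← hsb, Bool.false_eq_true, if_false, smul_inv_smul]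
    rw [← h1, h2]
    group
  · simp only [sg, if_true] at h1 h2
    simp only [treeLet, letB, ← hsb, if_true]
    rw [← h1, h2]
    group

theorem taut_tors (O : K.Cyc) : K.taut.2 O ^ (m O.1 / K.per O) = 1 := by
  refine Subtype.ext ?_
  change ((K.t (K.rep O))⁻¹ * δ (Sum.inr O.1) ^ K.per O * K.t (K.rep O)) ^ (m O.1 / K.per O) = 1
  have h1 : ((K.t (K.rep O))⁻¹ * δ (Sum.inr O.1) ^ K.per O * K.t (K.rep O)) ^ (m O.1 / K.per O) =
      (K.t (K.rep O))⁻¹ * (δ (Sum.inr O.1) ^ K.per O) ^ (m O.1 / K.per O) * K.t (K.rep O) := by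
    have := conj_pow (i := m O.1 / K.per O) (a := (K.t (K.rep O))⁻¹)
      (b := δ (Sum.inr O.1) ^ K.per O)
    rwa [inv_inv] at this
  rw [h1, ← pow_mul, Nat.mul_div_cancel' (K.per_dvd_m O), hD.tors]
  group

/-- the tautological tuple generates `H` -/
theorem taut_gen : Subgroup.closure (Set.range K.F) = ⊤ := by
  rw [eq_top_iff]
  rintro ⟨h, hh⟩ -
  obtain ⟨w, rfl⟩ := exists_evalB δ hD.gen h
  have h1 := K.evalB_liftW_F ((1 : D) : D ⧸ H) w
  have h2 : evalB δ w • ((1 : D) : D ⧸ H) = ((1 : D) : D ⧸ H) := by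
    change ((evalB δ w * 1 : D) : D ⧸ H) = _
    rw [mul_one]
    exact QuotientGroup.eq.2 (by simpa using H.inv_mem hh)
  rw [h2, K.t_one] at h1
  simp only [inv_one, one_mul, mul_one] at h1
  have h3 : (⟨evalB δ w, hh⟩ : H) = evalB K.F (liftW δ ((1 : D) : D ⧸ H) w) := Subtype.ext h1.symm
  rw [h3]
  generalize liftW δ ((1 : D) : D ⧸ H) w = v
  induction v with
  | nil => exact Subgroup.one_mem _
  | cons d v ih =>
    rw [evalB_cons]
    refine Subgroup.mul_mem _ ?_ ih
    have h4 : K.F d.1 ∈ Subgroup.closure (Set.range K.F) := Subgroup.subset_closure ⟨_, rfl⟩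
    cases d.2
    · exact Subgroup.inv_mem _ h4
    · exact h4

end Cov

end Vale.Agent.P002.H252
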