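import Vale.Agent.P002.H252.RS

/-!
# Reidemeister-Schreier: the universal property
-/

namespace Vale.Agent.P002.H252

open NAut

namespace Cov

variable {g n : ℕ} {m : Fin n → ℕ} {D : Type} [Group D] {δ : G0 g n → D}
  {hD : IsOrb g n m D δ} {H : Subgroup D} (K : Cov hD H)

theorem toPerm_pow {X : Type} [MulAction D X] (c : D) (i : ℕ) (x : X) :
    ((MulAction.toPerm c : Equiv.Perm X) ^ i) x = c ^ i • x := by
  induction i generalizing x with
  | zero => simp
  | succ i ih => rw [pow_succ, Equiv.Perm.mul_apply, ih, pow_succ, mul_smul]; rfl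

theorem toPerm_zpow {X : Type} [MulAction D X] (c : D) (i : ℤ) (x : X) :
    ((MulAction.toPerm c : Equiv.Perm X) ^ i) x = c ^ i • x := by
  obtain ⟨k, rfl | rfl⟩ := Int.eq_nat_or_neg i
  · rw [zpow_natCast, zpow_natCast, toPerm_pow]
  · rw [zpow_neg, zpow_neg, zpow_natCast, zpow_natCast, Equiv.Perm.inv_eq_iff_eq, toPerm_pow,
      smul_inv_smul]

theorem univ_H [H.FiniteIndex] {Q : Type} [Group Q] (p : ((D ⧸ H) × G0 g n → Q) × (K.Cyc → Q))
    (hT : ∀ y, y ≠ ((1 : D) : D ⧸ H) → p.1 (treeLet δ H K.par K.lab y) = 1)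
    (hf : ∀ x, ev p (K.fword x) = 1) (hz : ∀ O, ev p (K.zword O) = 1)
    (ht : ∀ O, p.2 O ^ (m O.1 / K.per O) = 1) :
    ∃ θ : H →* Q, (∀ e, θ (K.F e) = p.1 e) ∧ ∀ O, θ (K.Z O) = p.2 O := by
  classical
  let η : G0 g n → Equiv.Perm ((D ⧸ H) × Q) := permQ δ p.1
  have hη : ∀ s x q, η s (x, q) = (δ s • x, p.1 (x, s) * q) := fun s x q => rfl
  -- powers of the permutations of the `c_j`
  have hpow : ∀ (j : Fin n) (i : ℕ) (x : D ⧸ H), ∃ w : Q, ∀ q, (η (Sum.inr j) ^ i) (x, q) =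
      (δ (Sum.inr j) ^ i • x, w * q) := by
    intro j i x
    induction i with
    | zero => exact ⟨1, by simp⟩
    | succ i ih =>
      obtain ⟨w, hw⟩ := ih
      refine ⟨p.1 (δ (Sum.inr j) ^ i • x, Sum.inr j) * w, fun q => ?_⟩
      rw [pow_succ', Equiv.Perm.mul_apply, hw, hη, pow_succ', mul_smul, mul_assoc]
  have hpz : ∀ (O : K.Cyc) (i : ℕ) (q : Q), (η (Sum.inr O.1) ^ i) (K.rep O, q) =
      (δ (Sum.inr O.1) ^ i • K.rep O, (((List.range i).map
        fun i => (p.1 (δ (Sum.inr O.1) ^ i • K.rep O, Sum.inr O.1))⁻¹).prod)⁻¹ * q) := by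
    intro O i q
    induction i with
    | zero => simp
    | succ i ih =>
      rw [pow_succ', Equiv.Perm.mul_apply, ih, hη, List.range_succ, List.map_append,
        List.prod_append, pow_succ', mul_smul]
      simp [mul_assoc]
  have hper : ∀ (O : K.Cyc) (q : Q), (η (Sum.inr O.1) ^ K.per O) (K.rep O, q) =
      (K.rep O, p.2 O * q) := by
    intro O q
    rw [hpz, K.pow_per]
    have h1 := hz O
    rw [zword, ev_cons, evL_list] at h1
    rw [← eq_inv_of_mul_eq_one_left h1]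
    rfl
  have hperk : ∀ (O : K.Cyc) (k : ℕ) (q : Q), (η (Sum.inr O.1) ^ (K.per O * k)) (K.rep O, q) =
      (K.rep O, p.2 O ^ k * q) := by
    intro O k q
    induction k generalizing q with
    | zero => simp
    | succ k ih =>
      rw [Nat.mul_succ, pow_add, Equiv.Perm.mul_apply, hper, ih, pow_succ, mul_assoc]
  have hrel : evalB η (word0 g n) = 1 := by
    ext1 ⟨x, q⟩
    rw [evalB_permQ, hD.rel, one_smul]
    have h1 := hf x
    rw [fword, ev_map_inl] at h1
    rw [h1, one_mul]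
    rfl
  have htors : ∀ j, η (Sum.inr j) ^ m j = 1 := by
    intro j
    ext1 ⟨x, q⟩
    let O : K.Cyc := ⟨j, Quotient.mk _ x⟩
    have h1 : (MulAction.toPerm (δ (Sum.inr j)) : Equiv.Perm (D ⧸ H)).SameCycle (K.rep O) x :=
      Quotient.exact (Quotient.out_eq O.2)
    have hfin : Finite (D ⧸ H) := inferInstance
    obtain ⟨i, hi, hix⟩ := h1.exists_pow_eq'
    have hix' : δ (Sum.inr j) ^ i • K.rep O = x := by rw [← hix, toPerm_pow]
    obtain ⟨w, hw⟩ := hpow j i (K.rep O)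
    have h2 : (x, q) = (η (Sum.inr j) ^ i) (K.rep O, w⁻¹ * q) := by
      rw [hw, hix', mul_inv_cancel_left]
    have h3 : (η (Sum.inr j) ^ m j) (K.rep O, w⁻¹ * q) = (K.rep O, w⁻¹ * q) := by
      have h4 := hperk O (m j / K.per O) (w⁻¹ * q)
      rw [Nat.mul_div_cancel' (K.per_dvd_m O), ht O, one_mul] at h4
      exact h4
    rw [h2, ← Equiv.Perm.mul_apply, ← pow_add, add_comm, pow_add, Equiv.Perm.mul_apply, h3]
    rfl
  obtain ⟨Φ, hΦ⟩ := hD.univ _ η hrel htors
  have hgen : ∀ d : D, ∃ φ : D ⧸ H → Q, ∀ x q, Φ d (x, q) = (d • x, φ x * q) := by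
    intro d
    have hd : d ∈ Subgroup.closure (Set.range δ) := by rw [hD.gen]; trivial
    induction hd using Subgroup.closure_induction with
    | mem d hd =>
      obtain ⟨s, rfl⟩ := hd
      exact ⟨fun x => p.1 (x, s), fun x q => by rw [hΦ, hη]⟩
    | one => exact ⟨fun _ => 1, fun x q => by simp⟩
    | mul d e _ _ hd he =>
      obtain ⟨φ, hφ⟩ := hd
      obtain ⟨ψ, hψ⟩ := he
      refine ⟨fun x => φ (e • x) * ψ x, fun x q => ?_⟩
      rw [map_mul, Equiv.Perm.mul_apply, hψ, hφ, mul_smul, mul_assoc]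
    | inv d _ hd =>
      obtain ⟨φ, hφ⟩ := hd
      refine ⟨fun x => (φ (d⁻¹ • x))⁻¹, fun x q => ?_⟩
      rw [map_inv, Equiv.Perm.inv_eq_iff_eq, hφ, smul_inv_smul, mul_inv_cancel_left]
  choose φ hφ using hgen
  have hφmul : ∀ d e x, φ (d * e) x = φ d (e • x) * φ e x := by
    intro d e x
    have h1 := hφ (d * e) x 1
    rw [map_mul, Equiv.Perm.mul_apply, hφ, hφ, mul_smul] at h1
    simpa using (congrArg Prod.snd h1).symm
  have hφδ : ∀ s x, φ (δ s) x = p.1 (x, s) := by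
    intro s x
    have h1 := hφ (δ s) x 1
    rw [hΦ, hη] at h1
    simpa using (congrArg Prod.snd h1).symm
  have hφone : ∀ x, φ 1 x = 1 := fun x => by
    have := hφmul 1 1 x
    rw [one_mul, one_smul] at this
    exact (mul_eq_left.1 this.symm)
  have hφinv : ∀ d x, φ d⁻¹ x = (φ d (d⁻¹ • x))⁻¹ := by
    intro d x
    have := hφmul d d⁻¹ x
    rw [mul_inv_cancel, hφone] at this
    exact eq_inv_of_mul_eq_one_right this.symm
  have hx0 : ∀ h : H, (h : D) • ((1 : D) : D ⧸ H) = ((1 : D) : D ⧸ H) := by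
    intro h
    change (((h : D) * 1 : D) : D ⧸ H) = _
    rw [mul_one]
    exact QuotientGroup.eq.2 (by simp)
  have hφt : ∀ y, φ (K.t y) ((1 : D) : D ⧸ H) = 1 := by
    intro y
    induction y using K.tree_induction with
    | h0 => rw [K.t_one, hφone]
    | h1 y hy ih =>
      rw [K.t_step y hy, hφmul, ih, K.t_smul, mul_one]
      have h2 := hT y hy
      obtain ⟨⟨s, b⟩, hsb⟩ : ∃ d, d = K.lab y := ⟨_, rfl⟩
      have h3 := K.hlab y hy
      rw [← hsb] at h3 ⊢
      simp only [treeLet, letB, ← hsb] at h2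
      cases b
      · simp only [sg, Bool.false_eq_true, if_false] at h2 h3 ⊢
        rw [hφinv, hφδ, h2, inv_one]
      · simp only [sg, if_true] at h2 h3 ⊢
        rw [hφδ, h2]
  let θ : H →* Q :=
    { toFun := fun h => φ (h : D) ((1 : D) : D ⧸ H)
      map_one' := hφone _
      map_mul' := fun a b => by
        rw [Subgroup.coe_mul, hφmul, hx0] }
  refine ⟨θ, ?_, ?_⟩
  · rintro ⟨y, s⟩
    change φ ((K.t (δ s • y))⁻¹ * δ s * K.t y) ((1 : D) : D ⧸ H) = _
    rw [hφmul, hφt, mul_one, K.t_smul, hφmul, hφinv]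
    have h1 : (K.t (δ s • y))⁻¹ • δ s • y = ((1 : D) : D ⧸ H) := by
      rw [inv_smul_eq_iff, K.t_smul]
    rw [h1, hφt, inv_one, one_mul, hφδ]
  · intro O
    change φ ((K.t (K.rep O))⁻¹ * δ (Sum.inr O.1) ^ K.per O * K.t (K.rep O))
      ((1 : D) : D ⧸ H) = _
    rw [hφmul, hφt, mul_one, K.t_smul, hφmul, hφinv, K.pow_per]
    have h1 : (K.t (K.rep O))⁻¹ • K.rep O = ((1 : D) : D ⧸ H) := by
      rw [inv_smul_eq_iff, K.t_smul]
    rw [h1, hφt, inv_one, one_mul]
    have h2 := hφ (δ (Sum.inr O.1) ^ K.per O) (K.rep O) 1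
    rw [map_pow, hΦ, hper] at h2
    simpa using (congrArg Prod.snd h2).symm

end Cov

end Vale.Agent.P002.H252
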