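import Vale.Agent.P002.H252.Conn

/-!
# Subgroups of finite index of orbicurve groups, up to free generators
-/

namespace Vale.Agent.P002.H252

open NAut commutatorElement

/-- `D` is the free product of an orbicurve group (standard generators `δ`) and a free group with
basis `τ`. -/
structure IsOrbF (g n k : ℕ) (m : Fin n → ℕ) (D : Type) [Group D] (δ : G0 g n → D)
    (τ : Fin k → D) : Prop where
  rel : evalB δ (word0 g n) = 1
  tors : ∀ j, δ (Sum.inr j) ^ m j = 1
  gen : Subgroup.closure (Set.range δ ∪ Set.range τ) = ⊤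
  univ : ∀ (Q : Type) [Group Q] (η : G0 g n → Q) (ζ : Fin k → Q), evalB η (word0 g n) = 1 →
    (∀ j, η (Sum.inr j) ^ m j = 1) → ∃ Φ : D →* Q, (∀ s, Φ (δ s) = η s) ∧ ∀ i, Φ (τ i) = ζ i

theorem ev_filter {κ γ Q : Type} [Group Q] (p : (κ → Q) × (γ → Q)) (keep : Letter κ γ → Bool)
    (w : List (Letter κ γ)) (h : ∀ x ∈ w, keep x = false → evL p x = 1) :
    ev p (w.filter keep) = ev p w := by
  induction w with
  | nil => rfl
  | cons x w ih =>
    have ih' := ih fun y hy => h y (List.mem_cons_of_mem _ hy)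
    cases hx : keep x
    · rw [List.filter_cons_of_neg (by simp [hx]), ih', ev_cons, h x List.mem_cons_self hx, one_mul]
    · rw [List.filter_cons_of_pos hx, ev_cons, ev_cons, ih']

theorem evalB_word0 {g n : ℕ} {Q : Type} [Group Q] (η : G0 g n → Q) : evalB η (word0 g n) =
    ((List.finRange g).map fun l => ⁅η (Sum.inl (l, false)), η (Sum.inl (l, true))⁆).prod *
      ((List.finRange n).map fun j => η (Sum.inr j)).prod := by
  unfold word0
  rw [evalB_append]
  congr 1
  · induction List.finRange g with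
    | nil => rfl
    | cons l ls ih =>
      rw [List.flatMap_cons, evalB_append, ih, List.map_cons, List.prod_cons]
      congr 1
      simp [block, sg, commutatorElement_def, mul_assoc]
  · induction List.finRange n with
    | nil => rfl
    | cons j js ih =>
      rw [List.map_cons, List.map_cons, evalB_cons, ih, List.prod_cons]
      rfl

/-- the letters of a list of pairs -/
def embP {κ : Type} (P : List (κ × κ)) (q : Fin P.length × Bool) : κ :=
  if q.2 then (P[q.1]).2 else (P[q.1]).1

theorem embP_inj {κ : Type} (P : List (κ × κ)) (h : (P.flatMap fun q => [q.1, q.2]).Nodup) :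
    Function.Injective (embP P) := by
  rw [List.nodup_flatMap] at h
  obtain ⟨h1, h2⟩ := h
  have hmem : ∀ q : Fin P.length × Bool, embP P q ∈ [(P[q.1]).1, (P[q.1]).2] := by
    rintro ⟨l, b⟩
    cases b <;> simp [embP]
  rintro ⟨l, b⟩ ⟨l', b'⟩ hll
  have hl : l = l' := by
    by_contra hne
    have key : ∀ (i j : Fin P.length) (c c' : Bool), i < j → embP P (i, c) ≠ embP P (j, c') := by
      intro i j c c' hij heq
      have h3 := (List.pairwise_iff_getElem.1 h2) i j i.2 j.2 hij
      have h4 := hmem (i, c)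
      have h5 := hmem (j, c')
      rw [heq] at h4
      exact h3 h4 h5
    rcases lt_or_gt_of_ne hne with h3 | h3
    · exact key l l' b b' h3 hll
    · exact key l' l b' b h3 hll.symm
  subst hl
  have h3 := h1 (P[l]) (List.getElem_mem _)
  simp only [List.nodup_cons, List.mem_singleton, List.not_mem_nil, not_false_eq_true,
    List.nodup_nil, and_true] at h3
  cases b <;> cases b' <;> simp [embP] at hll ⊢
  · exact h3 hll
  · exact h3 hll.symm

theorem stdVal_eq {κ γ Q : Type} [Group Q] (p : (κ → Q) × (γ → Q)) (P : List (κ × κ))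
    (C : List γ) : stdVal p P C =
      evalB (Sum.elim (fun q => p.1 (embP P q)) (fun j : Fin C.length => p.2 C[j]))
        (word0 P.length C.length) := by
  rw [evalB_word0, stdVal]
  congr 1
  · congr 1
    refine List.ext_getElem (by simp) fun i h1 h2 => ?_
    simp [embP]
  · congr 1
    refine List.ext_getElem (by simp) fun i h1 h2 => ?_
    simp

namespace Cov

variable {g n : ℕ} {m : Fin n → ℕ} {D : Type} [Group D] {δ : G0 g n → D}
  {hD : IsOrb g n m D δ} {H : Subgroup D} (K : Cov hD H)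

theorem treeLet_inj {y z : D ⧸ H} (hy : y ≠ ((1 : D) : D ⧸ H)) (hz : z ≠ ((1 : D) : D ⧸ H))
    (h : treeLet δ H K.par K.lab y = treeLet δ H K.par K.lab z) : y = z := by
  have key : ∀ y, y ≠ ((1 : D) : D ⧸ H) →
      ((treeLet δ H K.par K.lab y).1 = K.par y ∧
        δ (treeLet δ H K.par K.lab y).2 • (treeLet δ H K.par K.lab y).1 = y) ∨
      ((treeLet δ H K.par K.lab y).1 = y ∧
        δ (treeLet δ H K.par K.lab y).2 • (treeLet δ H K.par K.lab y).1 = K.par y) := by
    intro y hy
    have h2 := K.hlab y hy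
    obtain ⟨⟨s, b⟩, hsb⟩ : ∃ d, d = K.lab y := ⟨_, rfl⟩
    rw [← hsb] at h2
    cases b
    · right
      simp only [sg, Bool.false_eq_true, if_false] at h2
      simp only [treeLet, letB, ← hsb, Bool.false_eq_true, if_false, smul_inv_smul]
      exact ⟨h2.symm, trivial⟩
    · left
      simp only [sg, if_true] at h2
      simp only [treeLet, letB, ← hsb, if_true]
      exact ⟨trivial, h2.symm⟩
  have hy' := K.hdist y hy
  have hz' := K.hdist z hz
  rcases key y hy with ⟨h1, h2⟩ | ⟨h1, h2⟩ <;> rcases key z hz with ⟨h3, h4⟩ | ⟨h3, h4⟩ <;>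
    rw [h] at h1 h2
  · rw [← h2, h4]
  · have e1 : K.par y = z := h1.symm.trans h3
    have e2 : y = K.par z := h2.symm.trans h4
    rw [e1] at hy'
    rw [← e2] at hz'
    exact absurd hy' (not_lt.2 hz'.le)
  · have e1 : y = K.par z := h1.symm.trans h3
    have e2 : K.par y = z := h2.symm.trans h4
    rw [e2] at hy'
    rw [← e1] at hz'
    exact absurd hy' (not_lt.2 hz'.le)
  · rw [← h1, h3]

theorem Z_conj [H.FiniteIndex] (j : Fin n) (d : D) (a : ℤ)
    (h : d * δ (Sum.inr j) ^ a * d⁻¹ ∈ H) :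
    ∃ (O : K.Cyc) (h' : H) (b : ℤ),
      (⟨d * δ (Sum.inr j) ^ a * d⁻¹, h⟩ : H) = h' * K.Z O ^ b * h'⁻¹ := by
  -- the point `x = d⁻¹ H`
  set x : D ⧸ H := ((d⁻¹ : D) : D ⧸ H) with hx
  set c := δ (Sum.inr j) with hc
  obtain ⟨i, hi, hix⟩ := K.exists_pow j x
  set O := K.cyc j x with hO
  have hfix : c ^ a • x = x := by
    change ((c ^ a * d⁻¹ : D) : D ⧸ H) = ((d⁻¹ : D) : D ⧸ H)
    refine (QuotientGroup.eq.2 ?_).symm
    rw [inv_inv, ← mul_assoc]
    exact h
  have hfix' : c ^ a • K.rep O = K.rep O := by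
    have h1 : c ^ a • c ^ i • K.rep O = c ^ i • K.rep O := by rw [hix]; exact hfix
    rw [← mul_smul, ← zpow_natCast, ← zpow_add, add_comm, zpow_add, mul_smul] at h1
    exact smul_left_cancel _ h1
  obtain ⟨b, hb⟩ : (K.per O : ℤ) ∣ a := by
    obtain ⟨k, hk | hk⟩ := Int.eq_nat_or_neg a
    · rw [hk] at hfix' ⊢
      rw [zpow_natCast] at hfix'
      exact Int.natCast_dvd_natCast.2 ((K.per_dvd_iff O k).2 hfix')
    · rw [hk] at hfix' ⊢
      rw [zpow_neg, zpow_natCast, inv_smul_eq_iff] at hfix'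
      exact (Int.natCast_dvd_natCast.2 ((K.per_dvd_iff O k).2 hfix'.symm)).neg_right
  -- the conjugating element
  have hmem : d * c ^ i * K.t (K.rep O) ∈ H := by
    have h1 : (c ^ i * K.t (K.rep O)) • ((1 : D) : D ⧸ H) = x := by
      rw [mul_smul, K.t_smul, hix]
    have h2 : ((c ^ i * K.t (K.rep O) : D) : D ⧸ H) = ((d⁻¹ : D) : D ⧸ H) := by
      rw [← hx, ← h1]
      change _ = ((c ^ i * K.t (K.rep O) * 1 : D) : D ⧸ H)
      rw [mul_one]
    have h3 := QuotientGroup.eq.1 h2.symm
    rw [inv_inv, ← mul_assoc] at h3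
    exact h3
  refine ⟨O, ⟨_, hmem⟩, b, Subtype.ext ?_⟩
  have h4 : ((K.Z O ^ b : H) : D) = (K.t (K.rep O))⁻¹ * c ^ a * K.t (K.rep O) := by
    rw [SubgroupClass.coe_zpow]
    change ((K.t (K.rep O))⁻¹ * c ^ K.per O * K.t (K.rep O)) ^ b = _
    have := conj_zpow (i := b) (a := (K.t (K.rep O))⁻¹) (b := c ^ K.per O)
    rw [inv_inv] at this
    rw [this, ← zpow_natCast, ← zpow_mul, ← hb]
  change d * c ^ a * d⁻¹ = d * c ^ i * K.t (K.rep O) * ((K.Z O ^ b : H) : D) *
    (d * c ^ i * K.t (K.rep O))⁻¹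
  rw [h4]
  have h5 : c ^ i * c ^ a * (c ^ i)⁻¹ = c ^ a := by
    rw [← zpow_natCast, ← zpow_add, ← zpow_neg, ← zpow_add]
    congr 1
    ring
  calc d * c ^ a * d⁻¹ = d * (c ^ i * c ^ a * (c ^ i)⁻¹) * d⁻¹ := by rw [h5]
    _ = _ := by group

/-- The structure of a subgroup of finite index, up to free generators. -/
theorem structF [H.FiniteIndex] : ∃ (g' k' : ℕ) (n' : ℕ) (σ : Fin n' ≃ K.Cyc)
    (δ' : G0 g' n' → H) (τ' : Fin k' → H),
      IsOrbF g' n' k' (fun i => m (σ i).1 / K.per (σ i)) H δ' τ' ∧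
      (∀ i, IsConj (K.Z (σ i)) (δ' (Sum.inr i))) ∧
      2 * g' + k' + n' + 2 * H.index = H.index * (2 * g + n) + 2 := by
  classical
  have : Fintype (D ⧸ H) := Fintype.ofFinite _
  have hfC : Finite K.Cyc := by
    unfold Cyc
    infer_instance
  have : Fintype K.Cyc := Fintype.ofFinite _
  let keep : Letter ((D ⧸ H) × G0 g n) K.Cyc → Bool := fun x => match x with
    | Sum.inl (a, _) => decide (¬ K.T a)
    | Sum.inr _ => true
  have hkeep : ∀ a e, keep (Sum.inl (a, e)) = true ↔ ¬ K.T a := fun a e => by simp [keep]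
  let S : Finset ((D ⧸ H) × G0 g n) := Finset.univ.filter fun a => ¬ K.T a
  let w : (D ⧸ H) ⊕ K.Cyc → List (Letter ((D ⧸ H) × G0 g n) K.Cyc) :=
    fun i => (K.wfull i).filter keep
  have hsys : Sys S Finset.univ w := (K.sys_full Finset.univ (fun e => Finset.mem_univ e)
    Finset.univ (fun i => Finset.mem_univ i)).filter K.T keep hkeep
  have hconn : Conn S Finset.univ w := by
    intro col hcol i _ j _
    have h1 := K.conn_full (fun i => if col i then 1 else 0) (fun e he i j hi hj => by
      have h2 := hcol e (Finset.mem_filter.2 ⟨Finset.mem_univ _, he⟩) i (Finset.mem_univ _) j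
        (Finset.mem_univ _) (List.mem_filter.2 ⟨hi, (hkeep e true).2 he⟩)
        (List.mem_filter.2 ⟨hj, (hkeep e false).2 he⟩)
      simp only [h2]) i j
    by_cases hi : col i <;> by_cases hj : col j <;> simp [hi, hj] at h1 ⊢
  obtain ⟨T1, M, l, hMs, hMc, ⟨s', hs', hQ⟩, hγ, hT1, hev1⟩ :=
    merge S Finset.univ w ⟨Sum.inl ((1 : D) : D ⧸ H), Finset.mem_univ _⟩ hsys hconn
  obtain ⟨T2, P, C, hP, hPs, hC, hC', hT2, hev2⟩ := nf s' l hQ
  have hCall : ∀ O : K.Cyc, O ∈ C := by
    intro O
    rw [hC', hγ]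
    refine ⟨Sum.inr O, Finset.mem_univ _, List.mem_filter.2 ⟨?_, rfl⟩⟩
    change _ ∈ K.zword O
    rw [mem_zword]
    exact Or.inl rfl
  have hTS : ∀ a, K.T a → a ∉ S := fun a ha h => (Finset.mem_filter.1 h).2 ha
  have hs'S : ∀ a, a ∈ s' → a ∈ S := fun a ha => ((hs' a).1 ha).1
  have hMs' : ∀ a ∈ M, a ∉ s' := fun a ha h => ((hs' a).1 h).2 ha
  let U : NAut ((D ⧸ H) × G0 g n) K.Cyc := T1.trans T2
  have hU1 : ∀ (Q : Type) [Group Q] (p : ((D ⧸ H) × G0 g n → Q) × (K.Cyc → Q)) a, a ∉ S →
      (U.toFun Q p).1 a = p.1 a := by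
    intro Q _ p a ha
    rw [NAut.trans_toFun, hT2 Q _ a (fun h => ha (hs'S a h)), hT1 Q p a ha]
  have hrel : ∀ (Q : Type) [Group Q] (p : ((D ⧸ H) × G0 g n → Q) × (K.Cyc → Q)),
      (∀ y, y ≠ ((1 : D) : D ⧸ H) → p.1 (treeLet δ H K.par K.lab y) = 1) →
      (((∀ x, ev p (K.fword x) = 1) ∧ ∀ O, ev p (K.zword O) = 1) ↔
        (∀ a ∈ M, (U.toFun Q p).1 a = 1) ∧ stdVal (U.toFun Q p) P C = 1) := by
    intro Q _ p hp
    have h1 : ∀ i, ev p (w i) = ev p (K.wfull i) := by
      intro i
      refine ev_filter p keep _ ?_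
      rintro (⟨a, e⟩ | O) _ hx
      · have h2 : K.T a := by
          by_contra h
          rw [(hkeep a e).2 h] at hx
          exact absurd hx (by simp)
        obtain ⟨y, hy, rfl⟩ := h2
        rw [evL_inl, hp y hy]
        cases e <;> simp [sg]
      · exact absurd hx (by simp [keep])
    have h2 := hev1 Q p
    have h3 : (∀ i ∈ (Finset.univ : Finset ((D ⧸ H) ⊕ K.Cyc)), ev p (w i) = 1) ↔
        ((∀ x, ev p (K.fword x) = 1) ∧ ∀ O, ev p (K.zword O) = 1) := by
      constructor
      · intro h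
        refine ⟨fun x => ?_, fun O => ?_⟩
        · have := h (Sum.inl x) (Finset.mem_univ _)
          rwa [h1] at this
        · have := h (Sum.inr O) (Finset.mem_univ _)
          rwa [h1] at this
      · rintro ⟨h4, h5⟩ (x | O) -
        · rw [h1]; exact h4 x
        · rw [h1]; exact h5 O
    rw [← h3, h2, hev2]
    have h6 : ∀ a ∈ M, (U.toFun Q p).1 a = (T1.toFun Q p).1 a := fun a ha => by
      rw [NAut.trans_toFun, hT2 Q _ a (hMs' a ha)]
    constructor
    · rintro ⟨h7, h8⟩
      exact ⟨fun a ha => by rw [h6 a ha]; exact h7 a ha, h8⟩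
    · rintro ⟨h7, h8⟩
      exact ⟨fun a ha => by rw [← h6 a ha]; exact h7 a ha, h8⟩
  -- the letters of the normal form
  have hPs' : ∀ q, embP P q ∈ s' := by
    rintro ⟨i, b⟩
    have := hPs (P[i]) (List.getElem_mem _)
    cases b
    · exact this.1
    · exact this.2
  have hPinj := embP_inj P hP
  let s2 : Finset ((D ⧸ H) × G0 g n) := s' \ Finset.univ.image (embP P)
  let e2 : Fin s2.card ≃ s2 := s2.equivFin.symm
  let emb : (Fin P.length × Bool) ⊕ Fin s2.card → (D ⧸ H) × G0 g n :=
    Sum.elim (embP P) (fun i => (e2 i).1)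
  have hembmem : ∀ z, emb z ∈ s' := by
    rintro (q | i)
    · exact hPs' q
    · exact (Finset.mem_sdiff.1 (e2 i).2).1
  have hemb : Function.Injective emb := by
    rintro (q | i) (q' | i') h
    · exact congrArg Sum.inl (hPinj h)
    · exfalso
      have h1 := (Finset.mem_sdiff.1 (e2 i').2).2
      exact h1 (Finset.mem_image.2 ⟨q, Finset.mem_univ _, h⟩)
    · exfalso
      have h1 := (Finset.mem_sdiff.1 (e2 i).2).2
      exact h1 (Finset.mem_image.2 ⟨q', Finset.mem_univ _, h.symm⟩)
    · exact congrArg Sum.inr (e2.injective (Subtype.ext h))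
  have hembsurj : ∀ a ∈ s', ∃ z, emb z = a := by
    intro a ha
    by_cases h : a ∈ Finset.univ.image (embP P)
    · obtain ⟨q, -, hq⟩ := Finset.mem_image.1 h
      exact ⟨Sum.inl q, hq⟩
    · refine ⟨Sum.inr (e2.symm ⟨a, Finset.mem_sdiff.2 ⟨ha, h⟩⟩), ?_⟩
      change (e2 (e2.symm _)).1 = a
      rw [Equiv.apply_symm_apply]
  let σ : Fin C.length ≃ K.Cyc := hC.getEquivOfForallMemList C hCall
  have hσ : ∀ j : Fin C.length, σ j = C[j] := fun j => rfl
  set p2 := U.toFun H K.taut with hp2
  let δ' : G0 P.length C.length → H := Sum.elim (fun q => p2.1 (embP P q)) (fun j => p2.2 (σ j))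
  let τ' : Fin s2.card → H := fun i => p2.1 (emb (Sum.inr i))
  have hconj : ∀ O, IsConj (K.Z O) (p2.2 O) := fun O => U.conj H K.taut O
  have hrelH := (hrel H K.taut K.taut_tree).1 ⟨K.taut_fword, K.taut_zword⟩
  refine ⟨P.length, s2.card, C.length, σ, δ', τ', ⟨?_, ?_, ?_, ?_⟩, fun i => hconj (σ i), ?_⟩
  · rw [← hrelH.2, stdVal_eq]
    rfl
  · intro j
    obtain ⟨u, hu⟩ := isConj_iff.1 (hconj (σ j))
    change p2.2 (σ j) ^ _ = 1
    rw [← hu, conj_pow]
    have := K.taut_tors (σ j)
    change K.Z (σ j) ^ _ = 1 at this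
    rw [this, mul_one, mul_inv_cancel]
  · set A := Subgroup.closure (Set.range δ' ∪ Set.range τ') with hA
    have hA1 : ∀ a, p2.1 a ∈ A := by
      intro a
      by_cases ha : a ∈ s'
      · obtain ⟨z, rfl⟩ := hembsurj a ha
        rcases z with q | i
        · exact Subgroup.subset_closure (Or.inl ⟨Sum.inl q, rfl⟩)
        · exact Subgroup.subset_closure (Or.inr ⟨i, rfl⟩)
      · by_cases haS : a ∈ S
        · have haM : a ∈ M := by
            by_contra h
            exact ha ((hs' a).2 ⟨haS, h⟩)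
          rw [hrelH.1 a haM]
          exact A.one_mem
        · have haT : K.T a := by
            by_contra h
            exact haS (Finset.mem_filter.2 ⟨Finset.mem_univ _, h⟩)
          rw [hp2, hU1 H K.taut a haS]
          obtain ⟨y, hy, rfl⟩ := haT
          rw [K.taut_tree y hy]
          exact A.one_mem
    have hA2 : ∀ O, p2.2 O ∈ A := by
      intro O
      refine Subgroup.subset_closure (Or.inl ⟨Sum.inr (σ.symm O), ?_⟩)
      change p2.2 (σ (σ.symm O)) = _
      rw [Equiv.apply_symm_apply]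
    let pA : ((D ⧸ H) × G0 g n → A) × (K.Cyc → A) :=
      (fun a => ⟨p2.1 a, hA1 a⟩, fun O => ⟨p2.2 O, hA2 O⟩)
    have hpA : post A.subtype pA = p2 := rfl
    have h1 : K.taut = post A.subtype (U.invFun A pA) := by
      rw [← U.inv_natural, hpA, hp2, U.left_inv]
    rw [eq_top_iff, ← K.taut_gen, Subgroup.closure_le]
    rintro _ ⟨e, rfl⟩
    have h2 : K.F e = (post A.subtype (U.invFun A pA)).1 e := by rw [← h1]; rfl
    rw [h2]
    exact ((U.invFun A pA).1 e).2
  · intro Q _ η ζ hη hη'
    let q2 : ((D ⧸ H) × G0 g n → Q) × (K.Cyc → Q) :=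
      (Function.extend emb (Sum.elim (fun q => η (Sum.inl q)) ζ) (fun _ => 1),
        fun O => η (Sum.inr (σ.symm O)))
    have hq2 : ∀ z, q2.1 (emb z) = (Sum.elim (fun q => η (Sum.inl q)) ζ : _ → Q) z := by
      intro z
      change Function.extend emb (Sum.elim (fun q => η (Sum.inl q)) ζ) (fun _ => 1) (emb z) = _
      rw [hemb.extend_apply]
    have hq2' : ∀ a, a ∉ s' → q2.1 a = 1 := by
      intro a ha
      change Function.extend emb (Sum.elim (fun q => η (Sum.inl q)) ζ) (fun _ => 1) a = _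
      rw [Function.extend_apply']
      rintro ⟨z, hz⟩
      exact ha (hz ▸ hembmem z)
    set q := U.invFun Q q2 with hq
    have hUq : U.toFun Q q = q2 := U.right_inv Q q2
    have h1 : ∀ y, y ≠ ((1 : D) : D ⧸ H) → q.1 (treeLet δ H K.par K.lab y) = 1 := by
      intro y hy
      have hT : K.T (treeLet δ H K.par K.lab y) := ⟨y, hy, rfl⟩
      rw [← hU1 Q q _ (hTS _ hT), hUq]
      exact hq2' _ (fun h => hTS _ hT (hs'S _ h))
    have h2 : (∀ a ∈ M, (U.toFun Q q).1 a = 1) ∧ stdVal (U.toFun Q q) P C = 1 := by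
      rw [hUq]
      refine ⟨fun a ha => hq2' a (hMs' a ha), ?_⟩
      rw [stdVal_eq, ← hη]
      congr 1
      funext s
      rcases s with r | j
      · exact hq2 (Sum.inl r)
      · change η (Sum.inr (σ.symm (σ j))) = _
        rw [Equiv.symm_apply_apply]
    obtain ⟨h3, h4⟩ := (hrel Q q h1).2 h2
    have h5 : ∀ O, q.2 O ^ (m O.1 / K.per O) = 1 := by
      intro O
      have h6 := U.conj Q q O
      rw [hUq] at h6
      obtain ⟨u, hu⟩ := isConj_iff.1 h6.symm
      rw [← hu, conj_pow]
      have h7 := hη' (σ.symm O)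
      simp only [Equiv.apply_symm_apply] at h7
      change u * η (Sum.inr (σ.symm O)) ^ _ * u⁻¹ = 1
      rw [h7, mul_one, mul_inv_cancel]
    obtain ⟨θ, hθ1, hθ2⟩ := K.univ_H q h1 h3 h4 h5
    have h6 : post θ K.taut = q := Prod.ext (funext hθ1) (funext hθ2)
    have h7 : post θ p2 = q2 := by rw [hp2, ← U.natural, h6, hUq]
    refine ⟨θ, ?_, ?_⟩
    · rintro (r | j)
      · change θ (p2.1 (embP P r)) = _
        have : θ (p2.1 (embP P r)) = q2.1 (embP P r) := congrFun (congrArg Prod.fst h7) _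
        rw [this]
        exact hq2 (Sum.inl r)
      · change θ (p2.2 (σ j)) = _
        have : θ (p2.2 (σ j)) = q2.2 (σ j) := congrFun (congrArg Prod.snd h7) _
        rw [this]
        change η (Sum.inr (σ.symm (σ j))) = _
        rw [Equiv.symm_apply_apply]
    · intro i
      have : θ (p2.1 (emb (Sum.inr i))) = q2.1 (emb (Sum.inr i)) :=
        congrFun (congrArg Prod.fst h7) _
      change θ (p2.1 (emb (Sum.inr i))) = _
      rw [this]
      exact hq2 (Sum.inr i)
  · -- the count
    have c1 : Fintype.card (D ⧸ H) = H.index := by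
      rw [Subgroup.index, Nat.card_eq_fintype_card]
    have c2 : C.length = Fintype.card K.Cyc := by
      rw [← Fintype.card_congr σ, Fintype.card_fin]
    have c3 : (Finset.univ.filter fun a => K.T a).card + 1 = H.index := by
      have h1 : (Finset.univ.filter fun a => K.T a) =
          ((Finset.univ : Finset (D ⧸ H)).erase ((1 : D) : D ⧸ H)).image
            (treeLet δ H K.par K.lab) := by
        ext a
        rw [Finset.mem_filter, Finset.mem_image]
        constructor
        · rintro ⟨-, y, hy, h⟩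
          exact ⟨y, Finset.mem_erase.2 ⟨hy, Finset.mem_univ _⟩, h⟩
        · rintro ⟨y, hy, h⟩
          exact ⟨Finset.mem_univ _, y, (Finset.mem_erase.1 hy).1, h⟩
      rw [h1, Finset.card_image_of_injOn, Finset.card_erase_of_mem (Finset.mem_univ _),
        Finset.card_univ, c1]
      · have : 0 < H.index := Nat.pos_of_ne_zero Subgroup.FiniteIndex.index_ne_zero
        omega
      · intro y hy z hz h
        exact K.treeLet_inj (Finset.mem_erase.1 hy).1 (Finset.mem_erase.1 hz).1 h
    have c4 : S.card + (Finset.univ.filter fun a => K.T a).card = H.index * (2 * g + n) := by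
      have h1 := Finset.card_filter_add_card_filter_not (s := (Finset.univ : Finset
        ((D ⧸ H) × G0 g n))) (fun a => K.T a)
      rw [Finset.card_univ, Fintype.card_prod, c1, Fintype.card_sum, Fintype.card_prod,
        Fintype.card_fin, Fintype.card_bool, Fintype.card_fin] at h1
      rw [add_comm]
      rw [h1]
      ring
    have c5 : M.card + 1 = H.index + C.length := by
      rw [hMc, Finset.card_univ, Fintype.card_sum, c1, c2]
    have c6 : s'.card + M.card = S.card := by
      have h1 : s' = S \ M := by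
        ext a
        rw [hs' a, Finset.mem_sdiff]
      rw [h1, Finset.card_sdiff_add_card_eq_card hMs]
    have c7 : 2 * P.length + s2.card = s'.card := by
      have h1 : Finset.univ.image emb = s' := by
        ext a
        rw [Finset.mem_image]
        constructor
        · rintro ⟨z, -, rfl⟩
          exact hembmem z
        · intro ha
          obtain ⟨z, hz⟩ := hembsurj a ha
          exact ⟨z, Finset.mem_univ _, hz⟩
      rw [← h1, Finset.card_image_of_injective _ hemb, Finset.card_univ, Fintype.card_sum,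
        Fintype.card_prod, Fintype.card_fin, Fintype.card_bool, Fintype.card_fin]
      ring
    have : 0 < H.index := Nat.pos_of_ne_zero Subgroup.FiniteIndex.index_ne_zero
    omega

end Cov

end Vale.Agent.P002.H252
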