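import Vale.Agent.P002.H252.RS2

/-!
# The words of a covering form a quadratic system
-/

namespace Vale.Agent.P002.H252

open NAut

section word0

variable {g n : ℕ}

theorem mem_word0_true (s : G0 g n) : (s, true) ∈ word0 g n := by
  unfold word0
  rw [List.mem_append]
  rcases s with ⟨l, b⟩ | j
  · left
    rw [List.mem_flatMap]
    refine ⟨l, List.mem_finRange l, ?_⟩
    cases b <;> simp [block]
  · right
    rw [List.mem_map]
    exact ⟨j, List.mem_finRange j, rfl⟩

theorem mem_word0_false (q : Fin g × Bool) : (Sum.inl q, false) ∈ word0 g n := by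
  unfold word0
  rw [List.mem_append]
  left
  rw [List.mem_flatMap]
  refine ⟨q.1, List.mem_finRange _, ?_⟩
  obtain ⟨l, b⟩ := q
  cases b <;> simp [block]

theorem not_mem_word0 (j : Fin n) : ((Sum.inr j : G0 g n), false) ∉ word0 g n := by
  unfold word0
  rw [List.mem_append]
  rintro (h | h)
  · rw [List.mem_flatMap] at h
    obtain ⟨l, -, h⟩ := h
    simp [block] at h
  · rw [List.mem_map] at h
    obtain ⟨i, -, h⟩ := h
    simp [cLet] at h

theorem nodup_word0 : (word0 g n).Nodup := by
  unfold word0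
  rw [List.nodup_append]
  refine ⟨?_, ?_, ?_⟩
  · rw [List.nodup_flatMap]
    refine ⟨fun l _ => by simp [block], ?_⟩
    refine (List.nodup_finRange g).imp ?_
    intro l l' hll x hx hx'
    simp only [block, List.mem_cons, List.not_mem_nil, or_false] at hx hx'
    rcases hx with rfl | rfl | rfl | rfl <;> rcases hx' with h | h | h | h <;>
      simp only [Prod.mk.injEq, Sum.inl.injEq] at h <;> first | exact hll h.1.1 | simp at h
  · refine (List.nodup_finRange n).map ?_
    intro i j h
    simpa [cLet] using h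
  · intro x hx y hy hxy
    subst hxy
    rw [List.mem_flatMap] at hx
    rw [List.mem_map] at hy
    obtain ⟨l, -, hl⟩ := hx
    obtain ⟨j, -, rfl⟩ := hy
    simp [block, cLet] at hl

end word0

section liftW

variable {ι X : Type} {D : Type} [Group D] [MulAction D X]

theorem mem_liftW (δ : ι → D) (x : X) (w : List (ι × Bool)) (L : (X × ι) × Bool) :
    L ∈ liftW δ x w ↔ ∃ pre d v, w = pre ++ d :: v ∧ L = letB δ d (evalB δ v • x) := by
  induction w with
  | nil => simp [liftW]
  | cons d w ih =>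
    rw [liftW, List.mem_cons, ih]
    constructor
    · rintro (rfl | ⟨pre, d', v, rfl, rfl⟩)
      · exact ⟨[], d, w, rfl, rfl⟩
      · exact ⟨d :: pre, d', v, rfl, rfl⟩
    · rintro ⟨pre, d', v, h, rfl⟩
      rcases pre with _ | ⟨d'', pre⟩
      · simp only [List.nil_append, List.cons.injEq] at h
        obtain ⟨rfl, rfl⟩ := h
        exact Or.inl rfl
      · simp only [List.cons_append, List.cons.injEq] at h
        exact Or.inr ⟨pre, d', v, h.2, rfl⟩

theorem letB_base (δ : ι → D) (d : ι × Bool) (y : X) :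
    ((letB δ d y).1.2, (letB δ d y).2) = d := by
  obtain ⟨s, b⟩ := d
  cases b <;> simp [letB]

theorem liftW_base (δ : ι → D) (x : X) (w : List (ι × Bool)) :
    (liftW δ x w).map (fun L => (L.1.2, L.2)) = w := by
  induction w with
  | nil => rfl
  | cons d w ih => rw [liftW, List.map_cons, ih, letB_base]

theorem letB_inj (δ : ι → D) (d : ι × Bool) {y y' : X} (h : letB δ d y = letB δ d y') :
    y = y' := by
  obtain ⟨s, b⟩ := d
  cases b <;> simpa [letB] using h

theorem suffix_unique {α : Type} {w : List α} (hw : w.Nodup) {d : α} {p p' v v' : List α}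
    (h : w = p ++ d :: v) (h' : w = p' ++ d :: v') : v = v' := by
  subst h
  rw [List.nodup_middle, List.nodup_cons, List.mem_append, not_or] at hw
  rw [List.append_eq_append_iff] at h'
  rcases h' with ⟨a, rfl, h2⟩ | ⟨a, rfl, h2⟩
  · rcases a with _ | ⟨x, a⟩
    · simp only [List.nil_append, List.cons.injEq] at h2
      exact h2.2
    · simp only [List.cons_append, List.cons.injEq] at h2
      exact absurd (by rw [h2.2]; simp) hw.1.2
  · rcases a with _ | ⟨x, a⟩
    · simp only [List.nil_append, List.cons.injEq] at h2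
      exact h2.2.symm
    · simp only [List.cons_append, List.cons.injEq] at h2
      exact absurd (by rw [← h2.1]; simp) hw.1.1

end liftW

namespace Cov

variable {g n : ℕ} {m : Fin n → ℕ} {D : Type} [Group D] {δ : G0 g n → D}
  {hD : IsOrb g n m D δ} {H : Subgroup D} (K : Cov hD H)

theorem mem_fword (x : D ⧸ H) (L : Letter ((D ⧸ H) × G0 g n) K.Cyc) :
    L ∈ K.fword x ↔ ∃ pre d v, word0 g n = pre ++ d :: v ∧
      L = Sum.inl (letB δ d (evalB δ v • x)) := by
  rw [fword, List.mem_map]
  constructor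
  · rintro ⟨L', hL', rfl⟩
    rw [mem_liftW] at hL'
    obtain ⟨pre, d, v, h, rfl⟩ := hL'
    exact ⟨pre, d, v, h, rfl⟩
  · rintro ⟨pre, d, v, h, rfl⟩
    exact ⟨_, (mem_liftW _ _ _ _).2 ⟨pre, d, v, h, rfl⟩, rfl⟩

theorem mem_zword (O : K.Cyc) (L : Letter ((D ⧸ H) × G0 g n) K.Cyc) :
    L ∈ K.zword O ↔ L = Sum.inr O ∨ ∃ i < K.per O,
      L = Sum.inl ((δ (Sum.inr O.1) ^ i • K.rep O, Sum.inr O.1), false) := by
  rw [zword, List.mem_cons, List.mem_map]
  constructor
  · rintro (h | ⟨i, hi, rfl⟩)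
    · exact Or.inl h
    · exact Or.inr ⟨i, List.mem_range.1 hi, rfl⟩
  · rintro (h | ⟨i, hi, rfl⟩)
    · exact Or.inl h
    · exact Or.inr ⟨i, List.mem_range.2 hi, rfl⟩

theorem pow_inj (O : K.Cyc) {i k : ℕ} (hi : i < K.per O) (hk : k < K.per O)
    (h : δ (Sum.inr O.1) ^ i • K.rep O = δ (Sum.inr O.1) ^ k • K.rep O) : i = k := by
  rw [← iterate_smul, ← iterate_smul] at h
  exact (Function.iterate_eq_iterate_iff_of_lt_minimalPeriod hi hk).1 h

/-- the cycle of a point -/
def cyc (j : Fin n) (y : D ⧸ H) : K.Cyc := ⟨j, Quotient.mk _ y⟩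

theorem cyc_smul (j : Fin n) (y : D ⧸ H) : K.cyc j (δ (Sum.inr j) • y) = K.cyc j y := by
  unfold cyc
  congr 1
  refine Quotient.sound ?_
  exact ⟨-1, by
    rw [toPerm_zpow]
    simp⟩

theorem cyc_pow (j : Fin n) (i : ℕ) (y : D ⧸ H) :
    K.cyc j (δ (Sum.inr j) ^ i • y) = K.cyc j y := by
  induction i with
  | zero => simp
  | succ i ih => rw [pow_succ', mul_smul, cyc_smul, ih]

theorem cyc_rep (O : K.Cyc) : K.cyc O.1 (K.rep O) = O := by
  obtain ⟨j, q⟩ := O
  unfold cyc rep
  congr 1
  exact Quotient.out_eq q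

theorem exists_pow [H.FiniteIndex] (j : Fin n) (y : D ⧸ H) : ∃ i < K.per (K.cyc j y),
    δ (Sum.inr j) ^ i • K.rep (K.cyc j y) = y := by
  have h1 : (MulAction.toPerm (δ (Sum.inr j)) : Equiv.Perm (D ⧸ H)).SameCycle
      (K.rep (K.cyc j y)) y := Quotient.exact (Quotient.out_eq (K.cyc j y).2)
  have hfin : Finite (D ⧸ H) := inferInstance
  obtain ⟨i, hi, hix⟩ := h1.exists_pow_eq'
  rw [toPerm_pow] at hix
  refine ⟨i % K.per (K.cyc j y), Nat.mod_lt _ (K.per_pos _), ?_⟩
  have h2 : δ (Sum.inr j) ^ (K.per (K.cyc j y) * (i / K.per (K.cyc j y))) •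
      K.rep (K.cyc j y) = K.rep (K.cyc j y) := (K.per_dvd_iff (K.cyc j y) _).1 (dvd_mul_right _ _)
  conv_rhs => rw [← hix, ← Nat.mod_add_div i (K.per (K.cyc j y)), pow_add, mul_smul, h2]

/-- the words of the covering -/
noncomputable def wfull : (D ⧸ H) ⊕ K.Cyc → List (Letter ((D ⧸ H) × G0 g n) K.Cyc)
  | Sum.inl x => K.fword x
  | Sum.inr O => K.zword O

theorem sys_full [H.FiniteIndex] (S : Finset ((D ⧸ H) × G0 g n)) (hS : ∀ e, e ∈ S)
    (U : Finset ((D ⧸ H) ⊕ K.Cyc)) (hU : ∀ i, i ∈ U) : Sys S U K.wfull := by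
  refine ⟨?_, ?_, fun i _ a e _ => hS a, ?_⟩
  · rintro (x | O) -
    · refine List.Nodup.map Sum.inl_injective ?_
      refine List.Nodup.of_map (fun L => (L.1.2, L.2)) ?_
      rw [liftW_base]
      exact nodup_word0
    · change (K.zword O).Nodup
      rw [zword, List.nodup_cons]
      refine ⟨by simp, ?_⟩
      refine List.Nodup.map_on ?_ List.nodup_range
      intro i hi k hk h
      simp only [Sum.inl.injEq, Prod.mk.injEq, and_true] at h
      exact K.pow_inj O (List.mem_range.1 hi) (List.mem_range.1 hk) h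
  · have hfz : ∀ x O L, L ∈ K.fword x → L ∉ K.zword O := by
      intro x O L hx hO
      rw [mem_fword] at hx
      rw [mem_zword] at hO
      obtain ⟨pre, d, v, hw, rfl⟩ := hx
      rcases hO with h | ⟨i, -, h⟩
      · simp at h
      · rw [Sum.inl.injEq] at h
        have h1 := letB_base δ d (evalB δ v • x)
        rw [h] at h1
        simp only at h1
        exact not_mem_word0 O.1 (by rw [hw, ← h1]; simp)
    rintro (x | O) - (x' | O') - hne L hL hL'
    · change L ∈ K.fword x at hL
      change L ∈ K.fword x' at hL'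
      rw [mem_fword] at hL hL'
      obtain ⟨pre, d, v, hw, rfl⟩ := hL
      obtain ⟨pre', d', v', hw', h⟩ := hL'
      rw [Sum.inl.injEq] at h
      have h1 : d = d' := by
        rw [← letB_base δ d (evalB δ v • x), h, letB_base]
      subst h1
      have h2 := suffix_unique nodup_word0 hw hw'
      subst h2
      exact hne (by rw [smul_left_cancel _ (letB_inj δ d h)])
    · exact hfz x O' L hL hL'
    · exact hfz x' O L hL' hL
    · change L ∈ K.zword O at hL
      change L ∈ K.zword O' at hL'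
      rw [mem_zword] at hL hL'
      rcases hL with rfl | ⟨i, hi, rfl⟩
      · rcases hL' with h | ⟨k, hk, h⟩
        · rw [Sum.inr.injEq] at h
          exact hne (by rw [h])
        · simp at h
      · rcases hL' with h | ⟨k, hk, h⟩
        · simp at h
        · simp only [Sum.inl.injEq, Prod.mk.injEq, Sum.inr.injEq, and_true] at h
          obtain ⟨h1, h2⟩ := h
          refine hne ?_
          rw [← K.cyc_rep O, ← K.cyc_rep O', ← K.cyc_pow O.1 i, ← K.cyc_pow O'.1 k, h1, h2]
  · rintro ⟨y, s⟩ - e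
    rcases e with _ | _
    · rcases s with q | j
      · obtain ⟨pre, v, hw⟩ := List.append_of_mem (mem_word0_false (n := n) q)
        refine ⟨Sum.inl ((evalB δ v)⁻¹ • δ (Sum.inl q) • y), hU _, ?_⟩
        change _ ∈ K.fword _
        rw [mem_fword]
        refine ⟨pre, _, v, hw, ?_⟩
        rw [smul_inv_smul]
        simp [letB]
      · refine ⟨Sum.inr (K.cyc j y), hU _, ?_⟩
        change _ ∈ K.zword _
        rw [mem_zword]
        right
        obtain ⟨i, hi, hiy⟩ := K.exists_pow j y
        refine ⟨i, hi, ?_⟩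
        change _ = Sum.inl ((δ (Sum.inr j) ^ i • K.rep (K.cyc j y), Sum.inr j), false)
        rw [hiy]
    · obtain ⟨pre, v, hw⟩ := List.append_of_mem (mem_word0_true (g := g) (n := n) s)
      refine ⟨Sum.inl ((evalB δ v)⁻¹ • y), hU _, ?_⟩
      change _ ∈ K.fword _
      rw [mem_fword]
      refine ⟨pre, _, v, hw, ?_⟩
      rw [smul_inv_smul]
      simp [letB]

end Cov

/-- deleting letters -/
theorem Sys.filter {κ γ Φ : Type} {s : Finset κ} {F : Finset Φ} {w : Φ → List (Letter κ γ)}
    (h : Sys s F w) (T : κ → Prop) [DecidablePred T] (keep : Letter κ γ → Bool)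
    (hk : ∀ a e, keep (Sum.inl (a, e)) = true ↔ ¬ T a) :
    Sys (s.filter fun a => ¬ T a) F (fun i => (w i).filter keep) := by
  refine ⟨fun i hi => (h.nodup i hi).filter _, ?_, ?_, ?_⟩
  · intro i hi j hj hij x hx hx'
    rw [List.mem_filter] at hx hx'
    exact h.disj i hi j hj hij x hx.1 hx'.1
  · intro i hi a e ha
    rw [List.mem_filter] at ha
    rw [Finset.mem_filter]
    exact ⟨h.sub i hi a e ha.1, (hk a e).1 ha.2⟩
  · intro a ha e
    rw [Finset.mem_filter] at ha
    obtain ⟨i, hi, hi'⟩ := h.cov a ha.1 e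
    exact ⟨i, hi, List.mem_filter.2 ⟨hi', (hk a e).2 ha.2⟩⟩

end Vale.Agent.P002.H252
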