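import Mathlib

/-!
# Representations with integral traces: denominators
-/

namespace Vale.Agent.P002.H252

open Matrix

/-- Almost integral elements are integral. -/
theorem int_of_almost {x d : ℂ} (hd : d ≠ 0) (h : ∀ j : ℕ, IsIntegral ℤ (d * x ^ j)) :
    IsIntegral ℤ x := by
  have hd1 : IsIntegral ℤ d := by simpa using h 0
  have hx1 : IsIntegral ℤ (d * x) := by simpa using h 1
  obtain ⟨E, hE⟩ : ∃ E : IntermediateField ℚ ℂ, E = IntermediateField.adjoin ℚ {d, d * x} :=
    ⟨_, rfl⟩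
  have hfd : FiniteDimensional ℚ E := by
    rw [hE]
    refine IntermediateField.finiteDimensional_adjoin fun y hy => ?_
    rcases hy with rfl | rfl
    · exact hd1.tower_top
    · exact hx1.tower_top
  have : NumberField E := { to_charZero := inferInstance, to_finiteDimensional := hfd }
  have hdE : d ∈ E := by
    rw [hE]
    exact IntermediateField.subset_adjoin _ _ (Or.inl rfl)
  have hxE : x ∈ E := by
    have h1 : d * x ∈ E := by
      rw [hE]
      exact IntermediateField.subset_adjoin _ _ (Or.inr rfl)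
    have h2 : x = d⁻¹ * (d * x) := by rw [inv_mul_cancel_left₀ hd]
    rw [h2]
    exact E.mul_mem (E.inv_mem hdE) h1
  have hint : ∀ (y : ℂ) (hy : y ∈ E), IsIntegral ℤ y → IsIntegral ℤ (⟨y, hy⟩ : E) := by
    intro y hy hyi
    rw [← isIntegral_algebraMap_iff (A := E) (B := ℂ) (algebraMap E ℂ).injective]
    exact hyi
  have halm : IsAlmostIntegral (NumberField.RingOfIntegers E) (⟨x, hxE⟩ : E) := by
    obtain ⟨r, hr⟩ : ∃ r : NumberField.RingOfIntegers E, ((r : E) : ℂ) = d :=
      ⟨⟨⟨d, hdE⟩, hint d hdE hd1⟩, rfl⟩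
    refine ⟨r, mem_nonZeroDivisors_of_ne_zero fun h0 => hd ?_, fun n => ?_⟩
    · rw [← hr, h0]
      rfl
    · have hm : d * x ^ n ∈ E := E.mul_mem hdE (E.pow_mem hxE n)
      refine ⟨⟨⟨d * x ^ n, hm⟩, hint _ hm (h n)⟩, Subtype.ext ?_⟩
      rw [Algebra.smul_def]
      change d * x ^ n = ((r : E) : ℂ) * x ^ n
      rw [hr]
  have h1 : IsIntegral (NumberField.RingOfIntegers E) (⟨x, hxE⟩ : E) := halm.isIntegral
  have h2 : IsIntegral ℤ (⟨x, hxE⟩ : E) := isIntegral_trans _ h1
  exact h2.map (E.val.restrictScalars ℤ)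

section mat

variable {N : Type*} [Fintype N] [DecidableEq N]

/-- A matrix with integral entries comes from the ring of algebraic integers. -/
theorem exists_lift_int {M M' : Type*} (y : Matrix M M' ℂ) (hy : ∀ i j, IsIntegral ℤ (y i j)) :
    ∃ z : Matrix M M' (integralClosure ℤ ℂ), z.map (algebraMap (integralClosure ℤ ℂ) ℂ) = y :=
  ⟨fun i j => ⟨y i j, hy i j⟩, rfl⟩

theorem int_coe (z : integralClosure ℤ ℂ) : IsIntegral ℤ (algebraMap (integralClosure ℤ ℂ) ℂ z) :=
  z.2

theorem det_int (y : Matrix N N ℂ) (hy : ∀ i j, IsIntegral ℤ (y i j)) : IsIntegral ℤ y.det := by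
  obtain ⟨z, rfl⟩ := exists_lift_int y hy
  rw [← RingHom.mapMatrix_apply, ← RingHom.map_det]
  exact int_coe _

theorem adj_int (y : Matrix N N ℂ) (hy : ∀ i j, IsIntegral ℤ (y i j)) (i j : N) :
    IsIntegral ℤ (y.adjugate i j) := by
  obtain ⟨z, rfl⟩ := exists_lift_int y hy
  rw [← RingHom.mapMatrix_apply, ← RingHom.map_adjugate]
  exact int_coe _

theorem eig_int (y : Matrix N N ℂ) (hy : ∀ i j, IsIntegral ℤ (y i j)) {m : N → ℂ} (hm : m ≠ 0)
    {ν : ℂ} (h : y *ᵥ m = ν • m) : IsIntegral ℤ ν := by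
  obtain ⟨z, rfl⟩ := exists_lift_int y hy
  have h1 : IsIntegral (integralClosure ℤ ℂ) ν := by
    refine ⟨z.charpoly, Matrix.charpoly_monic z, ?_⟩
    rw [← Polynomial.eval_map, ← Matrix.charpoly_map, Matrix.eval_charpoly,
      ← Matrix.exists_mulVec_eq_zero_iff]
    refine ⟨m, hm, ?_⟩
    rw [Matrix.sub_mulVec, h, sub_eq_zero, Matrix.scalar_apply]
    ext i
    simp [Matrix.mulVec_diagonal]
  exact isIntegral_trans _ h1

/-- Cramer. -/
theorem cramer_int (G : Matrix N N ℂ) (hG : ∀ i j, IsIntegral ℤ (G i j)) (x : N → ℂ)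
    (hx : ∀ i, IsIntegral ℤ ((G *ᵥ x) i)) (i : N) : IsIntegral ℤ (G.det * x i) := by
  have h1 : G.adjugate *ᵥ (G *ᵥ x) = G.det • x := by
    rw [Matrix.mulVec_mulVec, Matrix.adjugate_mul, Matrix.smul_mulVec, Matrix.one_mulVec]
  have h2 := congrFun h1 i
  rw [Pi.smul_apply, smul_eq_mul] at h2
  rw [← h2]
  exact IsIntegral.sum _ fun j _ => (adj_int G hG i j).mul (hx j)

end mat

section basis

variable {n : ℕ} {J : Type*} [Fintype J] [DecidableEq J]

/-- The Gram matrix of the trace form. -/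
def gram (b : J → Matrix (Fin n) (Fin n) ℂ) : Matrix J J ℂ := fun i j => (b i * b j).trace

omit [DecidableEq J] in
theorem gram_mulVec (b : Module.Basis J ℂ (Matrix (Fin n) (Fin n) ℂ))
    (M : Matrix (Fin n) (Fin n) ℂ) (i : J) : (gram b *ᵥ fun j => b.repr M j) i =
      (b i * M).trace := by
  conv_rhs => rw [← b.sum_repr M, Matrix.mul_sum, Matrix.trace_sum]
  refine Finset.sum_congr rfl fun j _ => ?_
  rw [Matrix.mul_smul, Matrix.trace_smul, smul_eq_mul, mul_comm]
  rfl

theorem gram_det (b : Module.Basis J ℂ (Matrix (Fin n) (Fin n) ℂ)) : (gram b).det ≠ 0 := by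
  intro h
  obtain ⟨x, hx, h1⟩ := Matrix.exists_mulVec_eq_zero_iff.2 h
  apply hx
  obtain ⟨M, hM⟩ : ∃ M, M = ∑ j, x j • b j := ⟨_, rfl⟩
  have h2 : ∀ j, b.repr M j = x j := by
    intro j
    rw [hM, b.repr_sum_self]
  have h3 : ∀ i, (b i * M).trace = 0 := by
    intro i
    rw [← gram_mulVec b M i]
    simp only [h2]
    exact congrFun h1 i
  have h4 : ∀ A : Matrix (Fin n) (Fin n) ℂ, (A * M).trace = 0 := by
    intro A
    rw [← b.sum_repr A, Matrix.sum_mul, Matrix.trace_sum]
    refine Finset.sum_eq_zero fun j _ => ?_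
    rw [Matrix.smul_mul, Matrix.trace_smul, h3, smul_zero]
  have h5 : M = 0 := by
    ext i j
    have h6 := h4 (Matrix.single j i 1)
    rw [Matrix.trace_mul_comm, Matrix.trace_mul_single, MulOpposite.op_one, one_smul] at h6
    exact h6
  funext j
  rw [← h2, h5]
  simp

/-- The coordinates of a matrix with integral traces against the basis have bounded
denominators. -/
theorem coord_int (b : Module.Basis J ℂ (Matrix (Fin n) (Fin n) ℂ))
    (hb : ∀ i j, IsIntegral ℤ (b i * b j).trace) (M : Matrix (Fin n) (Fin n) ℂ)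
    (hM : ∀ i, IsIntegral ℤ (b i * M).trace) (j : J) :
    IsIntegral ℤ ((gram b).det * b.repr M j) := by
  refine cramer_int (gram b) hb (fun j => b.repr M j) (fun i => ?_) j
  rw [gram_mulVec]
  exact hM i

end basis

/-- A basis of the matrix algebra consisting of elements of a spanning set. -/
theorem exists_basis {n : ℕ} (s : Set (Matrix (Fin n) (Fin n) ℂ)) (hs : Submodule.span ℂ s = ⊤) :
    ∃ (J : Type) (_ : Fintype J) (_ : DecidableEq J)
      (b : Module.Basis J ℂ (Matrix (Fin n) (Fin n) ℂ)), ∀ j, b j ∈ s := by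
  classical
  obtain ⟨t, ht, h1, h2⟩ := exists_linearIndependent ℂ s
  have hf : Finite t := h2.finite
  refine ⟨t, Fintype.ofFinite t, inferInstance, Module.Basis.mk h2 ?_, fun j => ?_⟩
  · rw [Subtype.range_coe, h1, hs]
  · rw [Module.Basis.mk_apply]
    exact ht j.2

end Vale.Agent.P002.H252
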