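import Vale.Agent.P002.H252.Tr2
import Vale.Agent.P002.Bd3.B14
import Vale.Agent.P002.Bd3.B18

/-!
# The ring of algebraic integers is a Bezout ring; submodules of free modules
-/

namespace Vale.Agent.P002.H252

open Matrix NumberField Vale.Agent.P002R

/-- The algebraic integers. -/
abbrev Zb : Type := integralClosure ℤ ℂ

theorem phiO_int {L : IntermediateField ℚ ℂ} (w : 𝓞 L) :
    IsIntegral ℤ (phiO (algebraMap L ℂ) w) :=
  w.2.map (L.val.restrictScalars ℤ)

/-- The inclusion of the ring of integers of a number field. -/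
noncomputable def toZb {L : IntermediateField ℚ ℂ} (w : 𝓞 L) : Zb :=
  ⟨phiO (algebraMap L ℂ) w, phiO_int w⟩

theorem exists_O_of_int {L : IntermediateField ℚ ℂ} {z : ℂ} (hz : z ∈ L) (hint : IsIntegral ℤ z) :
    ∃ w : 𝓞 L, phiO (algebraMap L ℂ) w = z := exists_O hz hint

/-- Two algebraic integers generate a principal ideal. -/
theorem bezout_pair (x y : Zb) : ∃ (t a b c d : Zb), x = t * a ∧ y = t * b ∧ c * a + d * b = 1 := by
  by_cases h0 : x = 0 ∧ y = 0
  · refine ⟨0, 1, 0, 1, 0, ?_, ?_, ?_⟩
    · rw [h0.1, zero_mul]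
    · rw [h0.2, zero_mul]
    · rw [mul_one, mul_zero, add_zero]
  obtain ⟨L₁, hL₁⟩ : ∃ L₁ : IntermediateField ℚ ℂ,
      L₁ = IntermediateField.adjoin ℚ {(x : ℂ), (y : ℂ)} := ⟨_, rfl⟩
  have hfd : FiniteDimensional ℚ L₁ := by
    rw [hL₁]
    refine IntermediateField.finiteDimensional_adjoin fun z hz => ?_
    rcases hz with rfl | rfl
    · exact x.2.tower_top
    · exact y.2.tower_top
  have hxL : (x : ℂ) ∈ L₁ := by
    rw [hL₁]
    exact IntermediateField.subset_adjoin _ _ (Or.inl rfl)
  have hyL : (y : ℂ) ∈ L₁ := by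
    rw [hL₁]
    exact IntermediateField.subset_adjoin _ _ (Or.inr rfl)
  obtain ⟨x', hx'⟩ := exists_O_of_int hxL x.2
  obtain ⟨y', hy'⟩ := exists_O_of_int hyL y.2
  obtain ⟨L₂, -, h12, hP⟩ := exists_prin_field L₁ hfd
  obtain ⟨t, w, v, h1, h2⟩ := hP 2 ![x', y'] (fun h => h0 (by
    have h1 := congrFun h 0
    have h2 := congrFun h 1
    simp only [Matrix.cons_val_zero, Matrix.cons_val_one, Pi.zero_apply] at h1 h2
    constructor
    · apply Subtype.ext
      rw [← hx', h1, map_zero]
      rfl
    · apply Subtype.ext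
      rw [← hy', h2, map_zero]
      rfl))
  have e1 := h1 0
  have e2 := h1 1
  rw [Fin.sum_univ_two] at h2
  simp only [Matrix.cons_val_zero, Matrix.cons_val_one] at e1 e2
  refine ⟨toZb t, toZb (w 0), toZb (w 1), toZb (v 0), toZb (v 1), ?_, ?_, ?_⟩
  · apply Subtype.ext
    change (x : ℂ) = phiO (algebraMap L₂ ℂ) t * phiO (algebraMap L₂ ℂ) (w 0)
    rw [← map_mul, ← e1, phiO_iotaO, hx']
  · apply Subtype.ext
    change (y : ℂ) = phiO (algebraMap L₂ ℂ) t * phiO (algebraMap L₂ ℂ) (w 1)
    rw [← map_mul, ← e2, phiO_iotaO, hy']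
  · apply Subtype.ext
    change phiO (algebraMap L₂ ℂ) (v 0) * phiO (algebraMap L₂ ℂ) (w 0) +
      phiO (algebraMap L₂ ℂ) (v 1) * phiO (algebraMap L₂ ℂ) (w 1) = 1
    rw [← map_mul, ← map_mul, ← map_add, h2, map_one]

theorem bezoutZb : IsBezout Zb := by
  rw [IsBezout.iff_span_pair_isPrincipal]
  intro x y
  obtain ⟨t, a, b, c, d, h1, h2, h3⟩ := bezout_pair x y
  refine ⟨⟨t, le_antisymm ?_ ?_⟩⟩
  · rw [Ideal.span_le]
    rintro z (rfl | rfl)
    · exact Ideal.mem_span_singleton.2 ⟨a, h1⟩
    · exact Ideal.mem_span_singleton.2 ⟨b, h2⟩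
  · change Ideal.span {t} ≤ _
    rw [Ideal.span_singleton_le_iff_mem, Ideal.mem_span_pair]
    exact ⟨c, d, by rw [h1, h2]; linear_combination t * h3⟩

section

variable {R : Type*} [CommRing R] [IsDomain R] [IsBezout R]

/-- Finitely generated submodules of `R ^ n` are generated by `n` elements. -/
theorem fg_matrix (n : ℕ) (M : Submodule R (Fin n → R)) (hM : M.FG) :
    ∃ P : Matrix (Fin n) (Fin n) R, ∀ v, v ∈ M ↔ ∃ u, v = P *ᵥ u := by
  induction n with
  | zero =>
    refine ⟨1, fun v => ⟨fun _ => ⟨v, Subsingleton.elim _ _⟩, fun _ => ?_⟩⟩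
    rw [Subsingleton.elim v 0]
    exact M.zero_mem
  | succ n ih =>
    -- the first coordinates
    obtain ⟨p, hp⟩ : ∃ p : (Fin (n + 1) → R) →ₗ[R] R, ∀ v, p v = v 0 :=
      ⟨LinearMap.proj 0, fun v => rfl⟩
    have hJ : (M.map p).FG := hM.map p
    obtain ⟨⟨a, ha⟩⟩ := IsBezout.isPrincipal_of_FG (M.map p) hJ
    have ha1 : a ∈ M.map p := by
      rw [ha]
      exact Submodule.mem_span_singleton_self a
    obtain ⟨m₀, hm₀, hm₀'⟩ := ha1
    rw [hp] at hm₀'
    have hM0 : ∀ v ∈ M, ∃ r, v 0 = r * a := by
      intro v hv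
      have h1 : p v ∈ M.map p := ⟨v, hv, rfl⟩
      rw [ha] at h1
      obtain ⟨r, hr⟩ := Submodule.mem_span_singleton.1 h1
      exact ⟨r, by rw [← hp v, ← hr, smul_eq_mul]⟩
    -- the tail of the elements of the kernel
    obtain ⟨T, hT⟩ : ∃ T : (Fin (n + 1) → R) →ₗ[R] (Fin n → R), ∀ v i, T v i = v i.succ :=
      ⟨LinearMap.funLeft R R Fin.succ, fun v i => rfl⟩
    obtain ⟨c, hc⟩ : ∃ c : (Fin n → R) →ₗ[R] (Fin (n + 1) → R), ∀ v, c v = Fin.cons 0 v :=
      ⟨{ toFun := fun v => Fin.cons 0 v
         map_add' := fun v w => by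
          funext i
          refine Fin.cases ?_ (fun i => ?_) i
          · simp
          · simp
         map_smul' := fun r v => by
          funext i
          refine Fin.cases ?_ (fun i => ?_) i
          · simp
          · simp }, fun v => rfl⟩
    obtain ⟨M', hM'⟩ : ∃ M' : Submodule R (Fin n → R), ∀ v, v ∈ M' ↔ c v ∈ M :=
      ⟨M.comap c, fun v => Iff.rfl⟩
    have hdec : ∀ v ∈ M, ∃ r : R, ∃ w ∈ M', v = r • m₀ + c w := by
      intro v hv
      obtain ⟨r, hr⟩ := hM0 v hv
      have h1 : c (T (v - r • m₀)) = v - r • m₀ := by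
        rw [hc]
        funext i
        refine Fin.cases ?_ (fun i => ?_) i
        · rw [Fin.cons_zero, Pi.sub_apply, Pi.smul_apply, smul_eq_mul, hm₀', hr, sub_self]
        · rw [Fin.cons_succ, hT]
      refine ⟨r, T (v - r • m₀), ?_, ?_⟩
      · rw [hM', h1]
        exact M.sub_mem hv (M.smul_mem r hm₀)
      · rw [h1, add_sub_cancel]
    have hfg : M'.FG := by
      obtain ⟨s, hs⟩ := hM
      have h1 : ∀ x : s, ∃ w ∈ M', ∃ r : R, x.1 = r • m₀ + c w := by
        intro x
        obtain ⟨r, w, hw, h⟩ := hdec x.1 (by rw [← hs]; exact Submodule.subset_span x.2)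
        exact ⟨w, hw, r, h⟩
      choose f hf rr hr using h1
      by_cases ha0 : a = 0
      · -- all first coordinates vanish
        have h2 : ∀ v ∈ M, c (T v) = v := by
          intro v hv
          obtain ⟨r, hr⟩ := hM0 v hv
          rw [ha0, mul_zero] at hr
          rw [hc]
          funext i
          refine Fin.cases ?_ (fun i => ?_) i
          · rw [Fin.cons_zero, hr]
          · rw [Fin.cons_succ, hT]
        have h3 : M' = M.map T := by
          ext v
          rw [hM']
          constructor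
          · intro h
            refine ⟨c v, h, ?_⟩
            funext i
            rw [hT, hc, Fin.cons_succ]
          · rintro ⟨w, hw, rfl⟩
            rw [h2 w hw]
            exact hw
        rw [h3]
        exact Submodule.FG.map T ⟨s, hs⟩
      · have h2 : M' = Submodule.span R (Set.range f) := by
          refine le_antisymm (fun v hv => ?_) (Submodule.span_le.2 ?_)
          · -- write `c v` in terms of the generators
            have h3 : ∀ w ∈ Submodule.span R (s : Set (Fin (n + 1) → R)), ∃ r : R,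
                ∃ u ∈ Submodule.span R (Set.range f), w = r • m₀ + c u := by
              intro w hw
              induction hw using Submodule.span_induction with
              | mem w hw =>
                exact ⟨rr ⟨w, hw⟩, f ⟨w, hw⟩, Submodule.subset_span ⟨_, rfl⟩, hr ⟨w, hw⟩⟩
              | zero => exact ⟨0, 0, Submodule.zero_mem _, by rw [zero_smul, map_zero, add_zero]⟩
              | add w w' _ _ h h' =>
                obtain ⟨r, u, hu, rfl⟩ := h
                obtain ⟨r', u', hu', rfl⟩ := h'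
                refine ⟨r + r', u + u', Submodule.add_mem _ hu hu', ?_⟩
                rw [add_smul, map_add]
                abel
              | smul t w _ h =>
                obtain ⟨r, u, hu, rfl⟩ := h
                refine ⟨t * r, t • u, Submodule.smul_mem _ t hu, ?_⟩
                rw [smul_add, smul_smul, map_smul]
            obtain ⟨r, u, hu, h4⟩ := h3 (c v) (by rw [hs]; exact (hM' v).1 hv)
            have h5 := congrFun h4 0
            rw [Pi.add_apply, Pi.smul_apply, hc, hc, Fin.cons_zero, Fin.cons_zero, add_zero,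
              hm₀', smul_eq_mul] at h5
            have h6 : r = 0 := (mul_eq_zero.1 h5.symm).resolve_right ha0
            rw [h6, zero_smul, zero_add] at h4
            have h7 : v = u := by
              funext i
              have h8 := congrFun h4 i.succ
              rwa [hc, hc, Fin.cons_succ, Fin.cons_succ] at h8
            rw [h7]
            exact hu
          · rintro _ ⟨x, rfl⟩
            exact hf x
        rw [h2]
        exact Submodule.fg_span (Set.finite_range f)
    obtain ⟨P', hP'⟩ := ih M' hfg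
    refine ⟨Matrix.of fun i j => Fin.cases (m₀ i) (fun j => c (P'.col j) i) j, fun v => ?_⟩
    have hmul : ∀ u : Fin (n + 1) → R, (Matrix.of fun i j => (Fin.cases (m₀ i)
        (fun j => c (P'.col j) i) j : R)) *ᵥ u = u 0 • m₀ + c (P' *ᵥ fun i => u i.succ) := by
      intro u
      funext i
      rw [Matrix.mulVec, dotProduct, Fin.sum_univ_succ, Pi.add_apply, Pi.smul_apply, smul_eq_mul]
      simp only [Matrix.of_apply, Fin.cases_zero, Fin.cases_succ]
      congr 1
      · exact mul_comm _ _
      · simp only [hc]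
        refine Fin.cases ?_ (fun i => ?_) i
        · simp
        · simp [Matrix.mulVec, dotProduct, Matrix.col]
    constructor
    · intro hv
      obtain ⟨r, w, hw, rfl⟩ := hdec v hv
      obtain ⟨u, rfl⟩ := (hP' w).1 hw
      refine ⟨Fin.cons r u, ?_⟩
      rw [hmul]
      simp
    · rintro ⟨u, rfl⟩
      rw [hmul]
      exact M.add_mem (M.smul_mem _ hm₀) ((hM' _).1 ((hP' _).2 ⟨_, rfl⟩))

end

end Vale.Agent.P002.H252
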