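import Vale.Agent.P002.H252.Tr3

/-!
# Irreducible representations with integral traces are integral: the number field
-/

namespace Vale.Agent.P002.H252

open Matrix NumberField Vale.Agent.P002R

section alg

variable {N : Type*} [Fintype N] [DecidableEq N]

/-- Eigenvalues of matrices with algebraic entries. -/
theorem eig_alg (y : Matrix N N ℂ) (hy : ∀ i j, IsIntegral ℚ (y i j)) {m : N → ℂ} (hm : m ≠ 0)
    {ν : ℂ} (h : y *ᵥ m = ν • m) : IsIntegral ℚ ν := by
  obtain ⟨z, rfl⟩ : ∃ z : Matrix N N (integralClosure ℚ ℂ),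
      z.map (algebraMap (integralClosure ℚ ℂ) ℂ) = y := ⟨fun i j => ⟨y i j, hy i j⟩, rfl⟩
  have h1 : IsIntegral (integralClosure ℚ ℂ) ν := by
    refine ⟨z.charpoly, Matrix.charpoly_monic z, ?_⟩
    rw [← Polynomial.eval_map, ← Matrix.charpoly_map, Matrix.eval_charpoly,
      ← Matrix.exists_mulVec_eq_zero_iff]
    refine ⟨m, hm, ?_⟩
    rw [Matrix.sub_mulVec, h, sub_eq_zero, Matrix.scalar_apply]
    ext i
    simp [Matrix.mulVec_diagonal]
  exact isIntegral_trans _ h1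

theorem inv_alg {x : ℂ} (hx : IsIntegral ℚ x) : IsIntegral ℚ x⁻¹ :=
  (isAlgebraic_iff_isIntegral.2 hx).inv.isIntegral

theorem alg_of_mul {d x : ℂ} (hd : d ≠ 0) (hd1 : IsIntegral ℚ d) (h : IsIntegral ℚ (d * x)) :
    IsIntegral ℚ x := by
  have h1 : x = d⁻¹ * (d * x) := by rw [inv_mul_cancel_left₀ hd]
  rw [h1]
  exact (inv_alg hd1).mul h

/-- Common denominators. -/
theorem common_den {J : Type*} [Fintype J] (x : J → ℂ) (hx : ∀ j, IsIntegral ℚ (x j)) :
    ∃ D : ℂ, D ≠ 0 ∧ IsIntegral ℤ D ∧ ∀ j, IsIntegral ℤ (D * x j) := by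
  classical
  have h1 : ∀ j, ∃ D : ℤ, D ≠ 0 ∧ IsIntegral ℤ ((D : ℂ) * x j) := by
    intro j
    have h2 : IsAlgebraic ℤ (x j) :=
      (IsFractionRing.isAlgebraic_iff ℤ ℚ ℂ).2 (isAlgebraic_iff_isIntegral.2 (hx j))
    obtain ⟨D, hD, h3⟩ := h2.exists_integral_multiple
    exact ⟨D, hD, by rwa [zsmul_eq_mul] at h3⟩
  choose D hD hD' using h1
  refine ⟨((∏ j, D j : ℤ) : ℂ), ?_, ?_, fun j => ?_⟩
  · rw [Int.cast_ne_zero]
    exact Finset.prod_ne_zero_iff.2 fun j _ => hD j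
  · exact_mod_cast (isIntegral_algebraMap (R := ℤ) (A := ℂ) (x := ∏ j, D j))
  · obtain ⟨c, hc⟩ := Finset.dvd_prod_of_mem D (Finset.mem_univ j)
    rw [hc, Int.cast_mul, mul_comm (D j : ℂ), mul_assoc]
    refine IsIntegral.mul ?_ (hD' j)
    exact_mod_cast (isIntegral_algebraMap (R := ℤ) (A := ℂ) (x := c))

end alg

variable {Γ : Type*} [Group Γ] {n : ℕ} {J : Type} [Fintype J] [DecidableEq J]

/-- A basis consisting of group elements. -/
structure GB (α : Γ →* SpecialLinearGroup (Fin n) ℂ)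
    (b : Module.Basis J ℂ (Matrix (Fin n) (Fin n) ℂ)) : Prop where
  mem : ∀ j, ∃ g, b j = (α g).1
  tr : ∀ g, IsIntegral ℤ (α g).1.trace

section

variable {α : Γ →* SpecialLinearGroup (Fin n) ℂ} {b : Module.Basis J ℂ (Matrix (Fin n) (Fin n) ℂ)}

theorem GB.gram_int (h : GB α b) (i j : J) : IsIntegral ℤ (b i * b j).trace := by
  obtain ⟨g, hg⟩ := h.mem i
  obtain ⟨g', hg'⟩ := h.mem j
  rw [hg, hg']
  have := h.tr (g * g')
  rwa [map_mul] at this

theorem GB.coord_alg (h : GB α b) (g : Γ) (j : J) : IsIntegral ℚ (b.repr (α g).1 j) := by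
  have h1 : IsIntegral ℤ ((gram b).det * b.repr (α g).1 j) := by
    refine coord_int b h.gram_int _ (fun i => ?_) j
    obtain ⟨g', hg'⟩ := h.mem i
    rw [hg']
    have := h.tr (g' * g)
    rwa [map_mul] at this
  exact alg_of_mul (gram_det b) (det_int _ h.gram_int).tower_top h1.tower_top

/-- The matrices with algebraic coordinates. -/
def Alg (b : Module.Basis J ℂ (Matrix (Fin n) (Fin n) ℂ)) (M : Matrix (Fin n) (Fin n) ℂ) : Prop :=
  ∀ j, IsIntegral ℚ (b.repr M j)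

omit [DecidableEq J] in
theorem Alg.basis [DecidableEq J] (j : J) : Alg b (b j) := by
  intro l
  rw [b.repr_self, Finsupp.single_apply]
  split_ifs
  · exact isIntegral_one
  · exact isIntegral_zero

theorem Alg.add {M M' : Matrix (Fin n) (Fin n) ℂ} (h : Alg b M) (h' : Alg b M') :
    Alg b (M + M') := fun j => by
  rw [map_add, Finsupp.add_apply]
  exact (h j).add (h' j)

theorem Alg.sub {M M' : Matrix (Fin n) (Fin n) ℂ} (h : Alg b M) (h' : Alg b M') :
    Alg b (M - M') := fun j => by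
  rw [map_sub, Finsupp.sub_apply]
  exact (h j).sub (h' j)

theorem Alg.smul {M : Matrix (Fin n) (Fin n) ℂ} (h : Alg b M) {c : ℂ} (hc : IsIntegral ℚ c) :
    Alg b (c • M) := fun j => by
  rw [map_smul, Finsupp.smul_apply, smul_eq_mul]
  exact hc.mul (h j)

theorem Alg.sum {κ : Type*} (s : Finset κ) (M : κ → Matrix (Fin n) (Fin n) ℂ)
    (h : ∀ i ∈ s, Alg b (M i)) : Alg b (∑ i ∈ s, M i) := fun j => by
  rw [map_sum, Finsupp.finsetSum_apply]
  exact IsIntegral.sum _ fun i hi => h i hi j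

theorem Alg.mul (hb : GB α b) {M M' : Matrix (Fin n) (Fin n) ℂ} (h : Alg b M) (h' : Alg b M') :
    Alg b (M * M') := by
  have h1 : M * M' = ∑ i, ∑ j, (b.repr M i * b.repr M' j) • (b i * b j) := by
    conv_lhs => rw [← b.sum_repr M, ← b.sum_repr M', Matrix.sum_mul]
    refine Finset.sum_congr rfl fun i _ => ?_
    rw [Matrix.mul_sum]
    refine Finset.sum_congr rfl fun j _ => ?_
    rw [Matrix.smul_mul, Matrix.mul_smul, smul_smul]
  rw [h1]
  refine Alg.sum _ _ fun i _ => Alg.sum _ _ fun j _ => Alg.smul ?_ ((h i).mul (h' j))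
  obtain ⟨g, hg⟩ := hb.mem i
  obtain ⟨g', hg'⟩ := hb.mem j
  intro l
  rw [hg, hg']
  have := hb.coord_alg (g * g') l
  rwa [map_mul] at this

/-- The eigenvalues of the matrices with algebraic coordinates are algebraic. -/
theorem Alg.eig (hb : GB α b) {M : Matrix (Fin n) (Fin n) ℂ} (h : Alg b M) {v : Fin n → ℂ}
    (hv : v ≠ 0) {z : ℂ} (hz : M *ᵥ v = z • v) : IsIntegral ℚ z := by
  obtain ⟨A, hA⟩ : ∃ A : Matrix (Fin n) (Fin n) ℂ, A = Matrix.vecMulVec v v := ⟨_, rfl⟩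
  have hA0 : A ≠ 0 := by
    obtain ⟨i, hi⟩ := Function.ne_iff.1 hv
    intro h0
    have h1 := congrFun (congrFun h0 i) i
    rw [hA, Matrix.vecMulVec_apply] at h1
    exact (mul_ne_zero hi hi) h1
  have h1 : M * A = z • A := by
    rw [hA, Matrix.mul_vecMulVec, hz, Matrix.smul_vecMulVec]
  have hy : ∀ l j, IsIntegral ℚ (b.repr (M * b j) l) := fun l j =>
    (h.mul hb (Alg.basis j)) l
  refine eig_alg (fun l j => b.repr (M * b j) l) hy (m := fun j => b.repr A j) ?_ ?_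
  · intro h0
    apply hA0
    apply b.repr.injective
    ext i
    rw [map_zero]
    exact congrFun h0 i
  · ext l
    have h2 := congrArg (fun B => b.repr B l) h1
    simp only [map_smul, Finsupp.smul_apply] at h2
    rw [Pi.smul_apply, ← h2]
    conv_rhs => rw [← b.sum_repr A, Matrix.mul_sum]
    rw [map_sum, Finsupp.finsetSum_apply]
    refine Finset.sum_congr rfl fun j _ => ?_
    rw [Matrix.mul_smul, map_smul, Finsupp.smul_apply, smul_eq_mul, mul_comm]

/-- There is a matrix of rank one with algebraic coordinates. -/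
theorem exists_rank_one (hb : GB α b) (hn : 0 < n) :
    ∃ (B : Matrix (Fin n) (Fin n) ℂ) (w f : Fin n → ℂ), Alg b B ∧ w ≠ 0 ∧ f ≠ 0 ∧
      B = Matrix.vecMulVec w f := by
  have hne : Nonempty J := by
    by_contra hemp
    rw [not_nonempty_iff] at hemp
    have h1 : (1 : Matrix (Fin n) (Fin n) ℂ) = 0 := by
      rw [← b.sum_repr (1 : Matrix (Fin n) (Fin n) ℂ), Finset.univ_eq_empty, Finset.sum_empty]
    have h2 := congrFun (congrFun h1 ⟨0, hn⟩) ⟨0, hn⟩
    rw [Matrix.one_apply_eq] at h2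
    exact one_ne_zero h2
  obtain ⟨j₀⟩ := hne
  have hwf : WellFounded ((· > ·) : Submodule ℂ (Fin n → ℂ) → Submodule ℂ (Fin n → ℂ) → Prop) :=
    wellFounded_gt
  obtain ⟨_, ⟨B, hB1, hB2, rfl⟩, hmin⟩ := hwf.has_min
    {K | ∃ M, Alg b M ∧ M ≠ 0 ∧ K = LinearMap.ker (Matrix.mulVecLin M)}
    ⟨_, b j₀, Alg.basis j₀, b.ne_zero j₀, rfl⟩
  -- `B c B` is a multiple of `B`
  have h1 : ∀ c, Alg b c → ∃ z : ℂ, B * c * B = z • B := by
    intro c hc
    obtain ⟨V, hV⟩ : ∃ V : Submodule ℂ (Fin n → ℂ), V = LinearMap.range (Matrix.mulVecLin B) :=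
      ⟨_, rfl⟩
    have hBV : ∀ x, B *ᵥ x ∈ V := fun x => by
      rw [hV]
      exact ⟨x, rfl⟩
    have hnt : Nontrivial V := by
      rw [Submodule.nontrivial_iff_ne_bot]
      intro h0
      apply hB2
      apply Matrix.mulVec_injective
      funext x
      have h2 := hBV x
      rw [h0, Submodule.mem_bot] at h2
      rw [h2, Matrix.zero_mulVec]
    obtain ⟨T, hT⟩ : ∃ T : Module.End ℂ V, ∀ v, ((T v : V) : Fin n → ℂ) = (B * c) *ᵥ v :=
      ⟨(Matrix.mulVecLin (B * c)).restrict fun v _ => by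
        rw [Matrix.mulVecLin_apply, ← Matrix.mulVec_mulVec]
        exact hBV _, fun v => rfl⟩
    obtain ⟨z, hz⟩ := Module.End.exists_eigenvalue T
    obtain ⟨v, hv⟩ := hz.exists_hasEigenvector
    have hv1 : (B * c) *ᵥ (v : Fin n → ℂ) = z • (v : Fin n → ℂ) := by
      rw [← hT, hv.apply_eq_smul]
      rfl
    have hv0 : (v : Fin n → ℂ) ≠ 0 := fun h0 => hv.2 (Subtype.ext h0)
    have hz1 : IsIntegral ℚ z := (hB1.mul hb hc).eig hb hv0 hv1
    refine ⟨z, ?_⟩
    by_contra hcon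
    have h3 : B * c * B - z • B ≠ 0 := sub_ne_zero.2 hcon
    refine hmin _ ⟨B * c * B - z • B, ((hB1.mul hb hc).mul hb hB1).sub (hB1.smul hz1), h3, rfl⟩ ?_
    obtain ⟨u, hu⟩ : ∃ u, B *ᵥ u = (v : Fin n → ℂ) :=
      (show ∀ x ∈ V, ∃ u, B *ᵥ u = x from fun x hx => by rw [hV] at hx; exact hx) v.1 v.2
    refine lt_of_le_of_ne (fun x hx => ?_) fun heq => ?_
    · rw [LinearMap.mem_ker, Matrix.mulVecLin_apply] at hx ⊢
      rw [Matrix.sub_mulVec, ← Matrix.mulVec_mulVec, hx, Matrix.mulVec_zero, Matrix.smul_mulVec,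
        hx, smul_zero, sub_zero]
    · have h4 : u ∈ LinearMap.ker (Matrix.mulVecLin (B * c * B - z • B)) := by
        rw [LinearMap.mem_ker, Matrix.mulVecLin_apply, Matrix.sub_mulVec, ← Matrix.mulVec_mulVec,
          hu, hv1, Matrix.smul_mulVec, hu, sub_self]
      rw [← heq, LinearMap.mem_ker, Matrix.mulVecLin_apply, hu] at h4
      exact hv0 h4
  have h2 : ∀ c : Matrix (Fin n) (Fin n) ℂ, ∃ z : ℂ, B * c * B = z • B := by
    intro c
    choose z hz using fun j => h1 (b j) (Alg.basis j)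
    refine ⟨∑ j, b.repr c j * z j, ?_⟩
    conv_lhs => rw [← b.sum_repr c, Matrix.mul_sum, Matrix.sum_mul]
    rw [Finset.sum_smul]
    refine Finset.sum_congr rfl fun j _ => ?_
    rw [Matrix.mul_smul, Matrix.smul_mul, hz, smul_smul]
  obtain ⟨u, hu⟩ : ∃ u, B *ᵥ u ≠ 0 := by
    by_contra hcon
    push Not at hcon
    apply hB2
    apply Matrix.mulVec_injective
    funext x
    rw [hcon x, Matrix.zero_mulVec]
  obtain ⟨i, hi⟩ := Function.ne_iff.1 hu
  have h3 : ∀ x, ∃ z : ℂ, B *ᵥ x = z • (B *ᵥ u) := by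
    intro x
    obtain ⟨z, hz⟩ := h2 (Matrix.vecMulVec x (Pi.single i ((B *ᵥ u) i)⁻¹))
    refine ⟨z, ?_⟩
    have h4 := congrArg (fun A : Matrix (Fin n) (Fin n) ℂ => A *ᵥ u) hz
    simp only [Matrix.smul_mulVec] at h4
    rw [← h4, Matrix.mul_assoc, ← Matrix.mulVec_mulVec, ← Matrix.mulVec_mulVec,
      Matrix.vecMulVec_mulVec, single_dotProduct, inv_mul_cancel₀ hi, MulOpposite.op_one, one_smul]
  choose f hf using fun j => h3 (Pi.single j 1)
  have hBf : B = Matrix.vecMulVec (B *ᵥ u) f := by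
    ext i' j'
    have h4 := congrFun (hf j') i'
    rw [Matrix.mulVec_single_one] at h4
    rw [Matrix.vecMulVec_apply, mul_comm]
    exact h4
  refine ⟨B, B *ᵥ u, f, hB1, hu, ?_, hBf⟩
  rintro rfl
  apply hB2
  rw [hBf, Matrix.vecMulVec_zero]

end

end Vale.Agent.P002.H252
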