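import Vale.Agent.P002.H252.Tr5

/-!
# Finiteness of the representations with given restriction to a normal subgroup
-/

namespace Vale.Agent.P002.H252

open Matrix NumberField Vale.Agent.P002R

variable {Γ : Type*} [Group Γ] (K : Subgroup Γ) {n r : ℕ}

/-- Equivalence on `K` up to a twist. -/
def TwEq (α α' : Γ →* SpecialLinearGroup (Fin n) ℂ) : Prop :=
  ∃ g : (Matrix (Fin n) (Fin n) ℂ)ˣ, ∀ k ∈ K, ∃ z : ℂ, g.1 * (α k).1 * (g⁻¹).1 = z • (α' k).1

/-- Absolutely irreducible on `K`. -/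
def SpanOn (α : Γ →* SpecialLinearGroup (Fin n) ℂ) : Prop :=
  Submodule.span ℂ {A | ∃ k ∈ K, A = (α k).1} = ⊤

/-- Up to a twist, `α` is on `K` a subrepresentation of `R`. -/
def SubTw (R : Γ → Matrix (Fin r) (Fin r) ℂ) (α : Γ →* SpecialLinearGroup (Fin n) ℂ) : Prop :=
  ∃ e : (Fin n → ℂ) →ₗ[ℂ] (Fin r → ℂ), Function.Injective e ∧
    ∀ k ∈ K, ∃ z : ℂ, z ≠ 0 ∧ ∀ v, R k *ᵥ e v = z • e ((α k).1 *ᵥ v)

variable {K}

/-- Inequivalent irreducible subrepresentations are independent. -/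
theorem indep_of_not_twEq {R : Γ → Matrix (Fin r) (Fin r) ℂ} {m : ℕ}
    (α : Fin m → Γ →* SpecialLinearGroup (Fin n) ℂ) (hs : ∀ i, SpanOn K (α i))
    (e : Fin m → (Fin n → ℂ) →ₗ[ℂ] (Fin r → ℂ)) (he : ∀ i, Function.Injective (e i))
    (z : Fin m → Γ → ℂ) (hz0 : ∀ i, ∀ k ∈ K, z i k ≠ 0)
    (hz : ∀ i, ∀ k ∈ K, ∀ v, R k *ᵥ e i v = z i k • e i ((α i k).1 *ᵥ v))
    (hne : ∀ i j, i ≠ j → ¬ TwEq K (α i) (α j)) (v : Fin m → Fin n → ℂ)
    (hv : ∑ i, e i (v i) = 0) : v = 0 := by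
  classical
  by_contra hv0
  -- a vector with minimal support
  obtain ⟨supp, hsupp⟩ : ∃ supp : (Fin m → Fin n → ℂ) → Finset (Fin m),
      ∀ v i, i ∈ supp v ↔ v i ≠ 0 := ⟨fun v => Finset.univ.filter fun i => v i ≠ 0, by simp⟩
  obtain ⟨v, ⟨hv, hv0⟩, hmin⟩ := (measure fun v : Fin m → Fin n → ℂ => (supp v).card).wf.has_min
    {v | ∑ i, e i (v i) = 0 ∧ v ≠ 0} ⟨v, hv, hv0⟩
  have hmin' : ∀ u : Fin m → Fin n → ℂ, ∑ i, e i (u i) = 0 → (∀ i, v i = 0 → u i = 0) →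
      (∃ i, v i ≠ 0 ∧ u i = 0) → u = 0 := by
    rintro u hu h1 ⟨i, hi, hi'⟩
    by_contra hu0
    refine hmin u ⟨hu, hu0⟩ ?_
    refine Finset.card_lt_card (Finset.ssubset_iff_subset_ne.2 ⟨fun j hj => ?_, fun h => ?_⟩)
    · rw [hsupp] at hj ⊢
      exact fun h => hj (h1 j h)
    · have h2 : i ∈ supp v := (hsupp v i).2 hi
      rw [← h, hsupp] at h2
      exact h2 hi'
  obtain ⟨N, hN⟩ : ∃ N : Submodule ℂ (Fin m → Fin n → ℂ), ∀ u, u ∈ N ↔
      (∑ i, e i (u i) = 0 ∧ ∀ i, v i = 0 → u i = 0) := by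
    refine ⟨{ carrier := {u | ∑ i, e i (u i) = 0 ∧ ∀ i, v i = 0 → u i = 0}
              add_mem' := ?_
              zero_mem' := ?_
              smul_mem' := ?_ }, fun u => Iff.rfl⟩
    · rintro a b ⟨ha, ha'⟩ ⟨hb, hb'⟩
      refine ⟨?_, fun i hi => ?_⟩
      · simp only [Pi.add_apply, map_add, Finset.sum_add_distrib, ha, hb, add_zero]
      · rw [Pi.add_apply, ha' i hi, hb' i hi, add_zero]
    · refine ⟨?_, fun i _ => rfl⟩
      simp only [Pi.zero_apply, map_zero, Finset.sum_const_zero]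
    · rintro c a ⟨ha, ha'⟩
      refine ⟨?_, fun i hi => ?_⟩
      · simp only [Pi.smul_apply, map_smul, ← Finset.smul_sum, ha, smul_zero]
      · rw [Pi.smul_apply, ha' i hi, smul_zero]
  have hvN : v ∈ N := (hN v).2 ⟨hv, fun i h => h⟩
  have hst : ∀ k ∈ K, ∀ u ∈ N, (fun i => z i k • ((α i k).1 *ᵥ u i)) ∈ N := by
    intro k hk u hu
    rw [hN] at hu ⊢
    refine ⟨?_, fun i hi => ?_⟩
    · have h1 := congrArg (fun x => R k *ᵥ x) hu.1
      simp only [Matrix.mulVec_zero, Matrix.mulVec_sum] at h1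
      rw [← h1]
      refine Finset.sum_congr rfl fun i _ => ?_
      rw [hz i k hk, map_smul]
    · rw [hu.2 i hi, Matrix.mulVec_zero, smul_zero]
  have hinj : ∀ i, v i ≠ 0 → ∀ u ∈ N, u i = 0 → u = 0 := fun i hi u hu hui =>
    hmin' u ((hN u).1 hu).1 ((hN u).1 hu).2 ⟨i, hi, hui⟩
  have hsurj : ∀ i, v i ≠ 0 → ∀ w, ∃ u ∈ N, u i = w := by
    intro i hi w
    obtain ⟨M, hM⟩ : ∃ M : Matrix (Fin n) (Fin n) ℂ, M *ᵥ v i = w := by
      obtain ⟨l, hl⟩ := Function.ne_iff.1 hi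
      refine ⟨Matrix.vecMulVec w (Pi.single l (v i l)⁻¹), ?_⟩
      rw [Matrix.vecMulVec_mulVec, single_dotProduct, inv_mul_cancel₀ hl, MulOpposite.op_one,
        one_smul]
    have hM' : M ∈ Submodule.span ℂ {A | ∃ k ∈ K, A = (α i k).1} := by
      rw [show Submodule.span ℂ {A | ∃ k ∈ K, A = (α i k).1} = ⊤ from hs i]
      exact Submodule.mem_top
    rw [← hM]
    clear hM
    induction hM' using Submodule.span_induction with
    | mem M hM =>
      obtain ⟨k, hk, rfl⟩ := hM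
      refine ⟨(z i k)⁻¹ • fun j => z j k • ((α j k).1 *ᵥ v j), N.smul_mem _ (hst k hk v hvN), ?_⟩
      rw [Pi.smul_apply, smul_smul, inv_mul_cancel₀ (hz0 i k hk), one_smul]
    | zero => exact ⟨0, N.zero_mem, by rw [Matrix.zero_mulVec]; rfl⟩
    | add A B _ _ hA hB =>
      obtain ⟨u, hu, h1⟩ := hA
      obtain ⟨u', hu', h1'⟩ := hB
      exact ⟨u + u', N.add_mem hu hu', by rw [Pi.add_apply, h1, h1', Matrix.add_mulVec]⟩
    | smul c A _ hA =>
      obtain ⟨u, hu, h1⟩ := hA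
      exact ⟨c • u, N.smul_mem c hu, by rw [Pi.smul_apply, h1, Matrix.smul_mulVec]⟩
  -- two indices in the support
  obtain ⟨i, hi⟩ := Function.ne_iff.1 hv0
  have hj : ∃ j, j ≠ i ∧ v j ≠ 0 := by
    by_contra hcon
    push Not at hcon
    rw [Finset.sum_eq_single i (fun j _ hj => by rw [hcon j hj, map_zero])
      (fun h => absurd (Finset.mem_univ _) h)] at hv
    exact hi (he i (by rw [hv, Pi.zero_apply, map_zero]))
  obtain ⟨j, hji, hj⟩ := hj
  have hpi : ∀ l, v l ≠ 0 → ∃ E : N ≃ₗ[ℂ] (Fin n → ℂ), ∀ u, E u = u.1 l := by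
    intro l hl
    refine ⟨LinearEquiv.ofBijective ((LinearMap.proj l).comp N.subtype) ⟨?_, fun w => ?_⟩,
      fun u => rfl⟩
    · rw [injective_iff_map_eq_zero]
      intro u hu
      exact Subtype.ext (hinj l hl u.1 u.2 hu)
    · obtain ⟨u, hu, h1⟩ := hsurj l hl w
      exact ⟨⟨u, hu⟩, h1⟩
  obtain ⟨Ei, hEi⟩ := hpi i hi
  obtain ⟨Ej, hEj⟩ := hpi j hj
  obtain ⟨G, hG⟩ : ∃ G : (Matrix (Fin n) (Fin n) ℂ)ˣ, ∀ u ∈ N, G.1 *ᵥ u i = u j := by
    obtain ⟨T, hT⟩ : ∃ T : (Fin n → ℂ) ≃ₗ[ℂ] (Fin n → ℂ), T = Ei.symm.trans Ej := ⟨_, rfl⟩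
    refine ⟨⟨LinearMap.toMatrix' T.toLinearMap, LinearMap.toMatrix' T.symm.toLinearMap, ?_, ?_⟩,
      fun u hu => ?_⟩
    · rw [← LinearMap.toMatrix'_comp]
      simp
    · rw [← LinearMap.toMatrix'_comp]
      simp
    · change LinearMap.toMatrix' T.toLinearMap *ᵥ u i = u j
      rw [LinearMap.toMatrix'_mulVec]
      have h1 : Ei ⟨u, hu⟩ = u i := hEi _
      have h2 : Ej ⟨u, hu⟩ = u j := hEj _
      rw [← h1, ← h2, hT]
      change Ej (Ei.symm (Ei ⟨u, hu⟩)) = _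
      rw [LinearEquiv.symm_apply_apply]
  refine hne i j hji.symm ⟨G, fun k hk => ⟨(z i k)⁻¹ * z j k, ?_⟩⟩
  have h1 : G.1 * (α i k).1 = ((z i k)⁻¹ * z j k) • ((α j k).1 * G.1) := by
    apply Matrix.mulVec_injective
    funext w
    obtain ⟨u, hu, rfl⟩ := hsurj i hi w
    have h2 := hG _ (hst k hk u hu)
    rw [Matrix.mulVec_smul] at h2
    rw [← Matrix.mulVec_mulVec, Matrix.smul_mulVec, ← Matrix.mulVec_mulVec, hG u hu]
    calc G.1 *ᵥ ((α i k).1 *ᵥ u i)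
        = (z i k)⁻¹ • (z i k • (G.1 *ᵥ ((α i k).1 *ᵥ u i))) := by
          rw [smul_smul, inv_mul_cancel₀ (hz0 i k hk), one_smul]
      _ = _ := by rw [h2, smul_smul]
  rw [h1, Matrix.smul_mul, Matrix.mul_assoc, G.mul_inv, Matrix.mul_one]

/-- Finitely many representations up to equivalence and twist. -/
theorem exists_reps (R : Γ → Matrix (Fin r) (Fin r) ℂ) (hn : 0 < n) :
    ∃ (m : ℕ) (a : Fin m → Γ →* SpecialLinearGroup (Fin n) ℂ), (∀ i, SpanOn K (a i)) ∧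
      ∀ α, SpanOn K α → SubTw K R α → ∃ i, TwEq K α (a i) := by
  classical
  -- the length of a family of inequivalent representations
  obtain ⟨Q, hQ⟩ : ∃ Q : ℕ → Prop, ∀ m, Q m ↔ ∃ a : Fin m → Γ →* SpecialLinearGroup (Fin n) ℂ,
      (∀ i, SpanOn K (a i)) ∧ (∀ i, SubTw K R (a i)) ∧ ∀ i j, i ≠ j → ¬ TwEq K (a i) (a j) :=
    ⟨_, fun _ => Iff.rfl⟩
  have hbd : ∀ m, Q m → m ≤ r := by
    intro m hm
    obtain ⟨a, h1, h2, h3⟩ := (hQ m).1 hm
    choose e he z hz using h2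
    have hz' : ∀ i, ∃ z : Γ → ℂ, ∀ k ∈ K, z k ≠ 0 ∧ ∀ v, R k *ᵥ e i v = z k • e i ((a i k).1 *ᵥ v) := by
      intro i
      refine ⟨fun k => if h : k ∈ K then z i k h else 0, fun k hk => ?_⟩
      simp only [dif_pos hk]
      exact hz i k hk
    choose z' hz' using hz'
    obtain ⟨Φ, hΦ⟩ : ∃ Φ : (Fin m → Fin n → ℂ) →ₗ[ℂ] (Fin r → ℂ), ∀ v, Φ v = ∑ i, e i (v i) :=
      ⟨∑ i, (e i).comp (LinearMap.proj i), fun v => by
        rw [LinearMap.sum_apply]
        rfl⟩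
    have hinj : Function.Injective Φ := by
      rw [injective_iff_map_eq_zero]
      intro v hv
      rw [hΦ] at hv
      exact indep_of_not_twEq a h1 e he z' (fun i k hk => (hz' i k hk).1)
        (fun i k hk => (hz' i k hk).2) h3 v hv
    have h4 := LinearMap.finrank_le_finrank_of_injective hinj
    rw [Module.finrank_pi_fintype, Module.finrank_fin_fun] at h4
    simp only [Module.finrank_fin_fun, Finset.sum_const, Finset.card_univ, Fintype.card_fin,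
      smul_eq_mul] at h4
    exact (Nat.le_mul_of_pos_right m hn).trans h4
  have hQ0 : Q 0 := (hQ 0).2 ⟨fun i => i.elim0, fun i => i.elim0, fun i => i.elim0,
    fun i => i.elim0⟩
  have hmax : Q (Nat.findGreatest Q r) := Nat.findGreatest_spec (m := 0) (Nat.zero_le r) hQ0
  obtain ⟨a, h1, h2, h3⟩ := (hQ _).1 hmax
  refine ⟨_, a, h1, fun α hα1 hα2 => ?_⟩
  by_contra hcon
  push Not at hcon
  have hsymm : ∀ α α' : Γ →* SpecialLinearGroup (Fin n) ℂ, TwEq K α α' → TwEq K α' α := by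
    rintro α α' ⟨g, hg⟩
    refine ⟨g⁻¹, fun k hk => ?_⟩
    obtain ⟨z, hz⟩ := hg k hk
    have hz0 : z ≠ 0 := by
      rintro rfl
      rw [zero_smul] at hz
      have h4 : (α k).1 = 0 := by
        calc (α k).1 = (g⁻¹).1 * (g.1 * (α k).1 * (g⁻¹).1) * g.1 := by
              rw [Matrix.mul_assoc g.1, ← Matrix.mul_assoc (g⁻¹).1, g.inv_mul, Matrix.one_mul,
                Matrix.mul_assoc, g.inv_mul, Matrix.mul_one]
          _ = 0 := by rw [hz, Matrix.mul_zero, Matrix.zero_mul]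
      have h5 := (α k).2
      have : Nonempty (Fin n) := ⟨⟨0, hn⟩⟩
      rw [h4, Matrix.det_zero] at h5
      exact zero_ne_one h5
    refine ⟨z⁻¹, ?_⟩
    have h4 : (α' k).1 = z⁻¹ • (g.1 * (α k).1 * (g⁻¹).1) := by
      rw [hz, smul_smul, inv_mul_cancel₀ hz0, one_smul]
    rw [h4, inv_inv, Matrix.mul_smul, Matrix.smul_mul]
    congr 1
    rw [Matrix.mul_assoc g.1, ← Matrix.mul_assoc (g⁻¹).1, g.inv_mul, Matrix.one_mul,
      Matrix.mul_assoc, g.inv_mul, Matrix.mul_one]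
  have hQ1 : Q (Nat.findGreatest Q r + 1) := by
    refine (hQ _).2 ⟨Fin.cons α a, fun i => ?_, fun i => ?_, fun i j => ?_⟩
    · refine Fin.cases ?_ (fun i => ?_) i
      · exact hα1
      · exact h1 i
    · refine Fin.cases ?_ (fun i => ?_) i
      · exact hα2
      · exact h2 i
    · refine Fin.cases ?_ (fun i => ?_) i
      · refine Fin.cases ?_ (fun j => ?_) j
        · exact fun h => absurd rfl h
        · intro _
          rw [Fin.cons_zero, Fin.cons_succ]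
          exact hcon j
      · refine Fin.cases ?_ (fun j => ?_) j
        · intro _
          rw [Fin.cons_zero, Fin.cons_succ]
          exact fun h => hcon i (hsymm _ _ h)
        · intro hij
          rw [Fin.cons_succ, Fin.cons_succ]
          exact h3 i j fun h => hij (by rw [h])
  have h4 := Nat.le_findGreatest (hbd _ hQ1) hQ1
  omega

end Vale.Agent.P002.H252
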