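import Vale.Agent.P002.H252.Tr6

/-!
# One number field for all extensions of the constituents of a representation
-/

namespace Vale.Agent.P002.H252

open Matrix NumberField Vale.Agent.P002R

variable {Γ : Type*} [Group Γ] {K : Subgroup Γ} {n r : ℕ}

/-- A matrix commuting with a spanning set is a scalar. -/
theorem scalar_of_commute {s : Set (Matrix (Fin n) (Fin n) ℂ)} (hs : Submodule.span ℂ s = ⊤)
    (M : Matrix (Fin n) (Fin n) ℂ) (hM : ∀ A ∈ s, M * A = A * M) : ∃ z : ℂ, M = z • 1 := by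
  have h1 : ∀ A : Matrix (Fin n) (Fin n) ℂ, M * A = A * M := by
    intro A
    have hA : A ∈ Submodule.span ℂ s := by
      rw [hs]
      exact Submodule.mem_top
    induction hA using Submodule.span_induction with
    | mem A hA => exact hM A hA
    | zero => rw [Matrix.mul_zero, Matrix.zero_mul]
    | add A B _ _ hA hB => rw [Matrix.mul_add, Matrix.add_mul, hA, hB]
    | smul c A _ hA => rw [Matrix.mul_smul, Matrix.smul_mul, hA]
  rcases Nat.eq_zero_or_pos n with hn | hn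
  · subst hn
    exact ⟨0, Subsingleton.elim _ _⟩
  refine ⟨M ⟨0, hn⟩ ⟨0, hn⟩, ?_⟩
  ext i j
  have h2 := congrFun (congrFun (h1 (Matrix.single j ⟨0, hn⟩ 1)) i) ⟨0, hn⟩
  rw [Matrix.mul_single_apply_same, mul_one] at h2
  rw [h2, Matrix.smul_apply, smul_eq_mul, Matrix.one_apply]
  by_cases hij : i = j
  · subst hij
    rw [Matrix.single_mul_apply_same, one_mul, if_pos rfl, mul_one]
  · rw [Matrix.single_mul_apply_of_ne _ _ _ _ _ hij, if_neg hij, mul_zero]

theorem finite_pow_eq (hn : 0 < n) (c : ℂ) : {z : ℂ | z ^ n = c}.Finite := by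
  refine (Multiset.finite_toSet (Polynomial.nthRoots n c)).subset fun z hz => ?_
  exact (Polynomial.mem_nthRoots hn).2 hz

/-- The elements which conjugate the `α k` into multiples of the `β k`: finitely many. -/
theorem finite_intertw (hn : 0 < n) (α : Γ →* SpecialLinearGroup (Fin n) ℂ) (hα : SpanOn K α)
    (β : Γ → SpecialLinearGroup (Fin n) ℂ) :
    {u : SpecialLinearGroup (Fin n) ℂ | ∀ k ∈ K, ∃ z : ℂ,
      u.1 * (α k).1 * (u⁻¹).1 = z • (β k).1}.Finite := by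
  obtain ⟨J, i1, i2, b, hb⟩ := exists_basis _ hα
  choose k hk hbk using hb
  have hz : {z : J → ℂ | ∀ j, z j ^ n = 1}.Finite := Set.Finite.pi' fun _ => finite_pow_eq hn 1
  have hfib : ∀ z : J → ℂ, {u : SpecialLinearGroup (Fin n) ℂ | ∀ j,
      u.1 * (α (k j)).1 * (u⁻¹).1 = z j • (β (k j)).1}.Finite := by
    intro z
    by_cases hne : ∃ u₀ : SpecialLinearGroup (Fin n) ℂ, ∀ j,
      u₀.1 * (α (k j)).1 * (u₀⁻¹).1 = z j • (β (k j)).1
    · obtain ⟨u₀, hu₀⟩ := hne
      refine ((finite_pow_eq hn 1).image (fun c : ℂ => c • u₀.1) |>.preimage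
        (f := fun u : SpecialLinearGroup (Fin n) ℂ => u.1)
        (Subtype.val_injective.injOn)).subset fun u hu => ?_
      have h1 : ∀ j, ((u₀⁻¹).1 * u.1) * b j = b j * ((u₀⁻¹).1 * u.1) := by
        intro j
        have h2 : u.1 * (α (k j)).1 * (u⁻¹).1 = u₀.1 * (α (k j)).1 * (u₀⁻¹).1 := by
          rw [hu j, hu₀ j]
        rw [hbk]
        calc ((u₀⁻¹).1 * u.1) * (α (k j)).1
            = (u₀⁻¹).1 * (u.1 * (α (k j)).1 * (u⁻¹).1) * u.1 := by
              simp only [Matrix.mul_assoc]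
              rw [sl_inv_mul, Matrix.mul_one]
          _ = (α (k j)).1 * ((u₀⁻¹).1 * u.1) := by
              rw [h2]
              simp only [← Matrix.mul_assoc]
              rw [sl_inv_mul, Matrix.one_mul]
      obtain ⟨c, hc⟩ := scalar_of_commute (s := Set.range b) b.span_eq _ (by
        rintro _ ⟨j, rfl⟩
        exact h1 j)
      have h3 : u.1 = c • u₀.1 := by
        calc u.1 = u₀.1 * ((u₀⁻¹).1 * u.1) := by
              rw [← Matrix.mul_assoc, sl_mul_inv, Matrix.one_mul]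
          _ = _ := by rw [hc, Matrix.mul_smul, Matrix.mul_one]
      refine ⟨c, ?_, h3.symm⟩
      have h4 := u.2
      rw [h3, Matrix.det_smul, u₀.2, mul_one, Fintype.card_fin] at h4
      exact h4
    · have : {u : SpecialLinearGroup (Fin n) ℂ | ∀ j,
          u.1 * (α (k j)).1 * (u⁻¹).1 = z j • (β (k j)).1} = ∅ := by
        rw [Set.eq_empty_iff_forall_notMem]
        exact fun u hu => hne ⟨u, hu⟩
      rw [this]
      exact Set.finite_empty
  refine (hz.biUnion fun z _ => hfib z).subset fun u hu => ?_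
  choose z hz' using fun j => hu (k j) (hk j)
  refine Set.mem_biUnion (x := z) (fun j => ?_) (fun j => hz' j)
  have h1 := congrArg Matrix.det (hz' j)
  rw [Matrix.det_mul, Matrix.det_mul, u.2, (α (k j)).2, (u⁻¹).2, Matrix.det_smul, (β (k j)).2,
    Fintype.card_fin, mul_one, mul_one, mul_one] at h1
  exact h1.symm

/-- The conjugate of a representation. -/
noncomputable def conjR (g : (Matrix (Fin n) (Fin n) ℂ)ˣ) (α : Γ →* SpecialLinearGroup (Fin n) ℂ) :
    Γ →* SpecialLinearGroup (Fin n) ℂ where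
  toFun x := ⟨g.1 * (α x).1 * (g⁻¹).1, by
    rw [Matrix.det_mul, Matrix.det_mul, (α x).2, mul_one, ← Matrix.det_mul, g.mul_inv,
      Matrix.det_one]⟩
  map_one' := by
    apply Subtype.ext
    change g.1 * (α 1).1 * (g⁻¹).1 = 1
    rw [map_one]
    change g.1 * 1 * (g⁻¹).1 = 1
    rw [Matrix.mul_one, g.mul_inv]
  map_mul' x y := by
    apply Subtype.ext
    change g.1 * (α (x * y)).1 * (g⁻¹).1 = (g.1 * (α x).1 * (g⁻¹).1) * (g.1 * (α y).1 * (g⁻¹).1)
    rw [map_mul α]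
    change g.1 * ((α x).1 * (α y).1) * (g⁻¹).1 = _
    calc g.1 * ((α x).1 * (α y).1) * (g⁻¹).1 = g.1 * (α x).1 * 1 * (α y).1 * (g⁻¹).1 := by
          simp only [Matrix.mul_assoc, Matrix.one_mul]
      _ = _ := by
          rw [← g.inv_mul]
          simp only [Matrix.mul_assoc]

theorem conjR_val (g : (Matrix (Fin n) (Fin n) ℂ)ˣ) (α : Γ →* SpecialLinearGroup (Fin n) ℂ)
    (x : Γ) : (conjR g α x).1 = g.1 * (α x).1 * (g⁻¹).1 := rfl

/-- **One number field** for all representations of a finitely generated group `Γ` whose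
restriction to the normal subgroup `K` is irreducible with integral traces, and is, up to a twist,
contained in `R`. -/
theorem one_field [Group.FG Γ] [hK : K.Normal] (R : Γ → Matrix (Fin r) (Fin r) ℂ) :
    ∃ L : IntermediateField ℚ ℂ, FiniteDimensional ℚ L ∧
      ∀ α : Γ →* SpecialLinearGroup (Fin n) ℂ, SpanOn K α → SubTw K R α →
        (∀ k ∈ K, IsIntegral ℤ (α k).1.trace) → ∃ Q : (Matrix (Fin n) (Fin n) ℂ)ˣ,
          ∀ g i j, ∃ a : 𝓞 L, (Q.1 * (α g).1 * (Q⁻¹).1) i j = a.1.1 := by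
  classical
  rcases Nat.eq_zero_or_pos n with hn | hn
  · subst hn
    exact ⟨⊥, inferInstance, fun α _ _ _ => ⟨1, fun g i => i.elim0⟩⟩
  obtain ⟨m, a, ha, hcov⟩ := exists_reps (K := K) R hn
  obtain ⟨S, hS⟩ := (Group.fg_def (G := Γ)).1 inferInstance
  -- the finitely many possible values on the generators
  obtain ⟨T, hT⟩ : ∃ T : Fin m → S → Set (SpecialLinearGroup (Fin n) ℂ), ∀ i s u, u ∈ T i s ↔
      ∀ k ∈ K, ∃ z : ℂ, u.1 * (a i k).1 * (u⁻¹).1 = z • (a i (s.1 * k * s.1⁻¹)).1 :=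
    ⟨fun i s => {u | ∀ k ∈ K, ∃ z : ℂ, u.1 * (a i k).1 * (u⁻¹).1 =
      z • (a i (s.1 * k * s.1⁻¹)).1}, fun i s u => Iff.rfl⟩
  have hTf : ∀ i, {x : S → SpecialLinearGroup (Fin n) ℂ | ∀ s, x s ∈ T i s}.Finite := by
    intro i
    refine Set.Finite.pi' fun s => ?_
    exact (finite_intertw hn (a i) (ha i) fun k => a i (s.1 * k * s.1⁻¹)).subset
      fun u hu => (hT i s u).1 hu
  -- the fields
  obtain ⟨good, hgood⟩ : ∃ good : (S → SpecialLinearGroup (Fin n) ℂ) →
      (Γ →* SpecialLinearGroup (Fin n) ℂ) → Prop, ∀ x α, good x α ↔ ((∀ s : S, α s.1 = x s) ∧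
        SpanOn K α ∧ ∀ k ∈ K, IsIntegral ℤ (α k).1.trace) := ⟨_, fun _ _ => Iff.rfl⟩
  have hspan' : ∀ α : Γ →* SpecialLinearGroup (Fin n) ℂ, SpanOn K α →
      Submodule.span ℂ (Set.range fun g => (α g).1) = ⊤ := by
    intro α hα
    rw [eq_top_iff, ← show Submodule.span ℂ {A | ∃ k ∈ K, A = (α k).1} = ⊤ from hα]
    refine Submodule.span_mono ?_
    rintro _ ⟨k, -, rfl⟩
    exact ⟨k, rfl⟩
  have hL : ∀ x : S → SpecialLinearGroup (Fin n) ℂ, ∃ L : IntermediateField ℚ ℂ,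
      FiniteDimensional ℚ L ∧ ∀ α, good x α → ∃ Q : (Matrix (Fin n) (Fin n) ℂ)ˣ,
        ∀ g i j, ∃ a : 𝓞 L, (Q.1 * (α g).1 * (Q⁻¹).1) i j = a.1.1 := by
    intro x
    by_cases hx : ∃ α, good x α
    · obtain ⟨α, hα⟩ := hx
      obtain ⟨h1, h2, h3⟩ := (hgood x α).1 hα
      obtain ⟨L, hL, Q, hQ⟩ := exists_integral α (hspan' α h2) (ext_trace_int α K h2 h3)
      refine ⟨L, hL, fun α' hα' => ⟨Q, ?_⟩⟩
      obtain ⟨h1', -, -⟩ := (hgood x α').1 hα'
      have h4 : α' = α := by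
        have h5 : Set.EqOn α' α (S : Set Γ) := fun s hs => by
          rw [h1' ⟨s, hs⟩, h1 ⟨s, hs⟩]
        have h6 := MonoidHom.eqOn_closure h5
        rw [hS] at h6
        exact MonoidHom.ext fun g => h6 (Subgroup.mem_top g)
      rw [h4]
      exact hQ
    · exact ⟨⊥, inferInstance, fun α hα => absurd ⟨α, hα⟩ hx⟩
  choose L hLfd hLQ using hL
  obtain ⟨X, hX⟩ : ∃ X : Set (S → SpecialLinearGroup (Fin n) ℂ),
      X = ⋃ i, {x | ∀ s, x s ∈ T i s} := ⟨_, rfl⟩
  have hXf : X.Finite := hX ▸ Set.finite_iUnion hTf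
  have : Finite X := hXf
  have hfin : ∀ x : X, FiniteDimensional ℚ (L x.1) := fun x => hLfd x.1
  refine ⟨⨆ x : X, L x.1, IntermediateField.finiteDimensional_iSup_of_finite, ?_⟩
  intro α h1 h2 h3
  obtain ⟨i, g, hg⟩ := hcov α h1 h2
  obtain ⟨α', hα'⟩ : ∃ α' : Γ →* SpecialLinearGroup (Fin n) ℂ, α' = conjR g α := ⟨_, rfl⟩
  have hc : ∀ k ∈ K, ∃ z : ℂ, z ≠ 0 ∧ (α' k).1 = z • (a i k).1 := by
    intro k hk
    obtain ⟨z, hz⟩ := hg k hk
    refine ⟨z, ?_, by rw [hα', conjR_val, hz]⟩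
    rintro rfl
    have h4 := (conjR g α k).2
    have : Nonempty (Fin n) := ⟨⟨0, hn⟩⟩
    rw [conjR_val, hz, zero_smul, Matrix.det_zero] at h4
    exact zero_ne_one h4
  have hspanα' : SpanOn K α' := by
    unfold SpanOn
    rw [eq_top_iff]
    intro A _
    have h4 : (g⁻¹).1 * A * g.1 ∈ Submodule.span ℂ {A | ∃ k ∈ K, A = (α k).1} := by
      rw [show Submodule.span ℂ {A | ∃ k ∈ K, A = (α k).1} = ⊤ from h1]
      exact Submodule.mem_top
    have h5 : ∀ B ∈ Submodule.span ℂ {A | ∃ k ∈ K, A = (α k).1},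
        g.1 * B * (g⁻¹).1 ∈ Submodule.span ℂ {A | ∃ k ∈ K, A = (α' k).1} := by
      intro B hB
      induction hB using Submodule.span_induction with
      | mem B hB =>
        obtain ⟨k, hk, rfl⟩ := hB
        exact Submodule.subset_span ⟨k, hk, by rw [hα', conjR_val]⟩
      | zero =>
        rw [Matrix.mul_zero, Matrix.zero_mul]
        exact Submodule.zero_mem _
      | add A B _ _ hA hB =>
        rw [Matrix.mul_add, Matrix.add_mul]
        exact Submodule.add_mem _ hA hB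
      | smul c A _ hA =>
        rw [Matrix.mul_smul, Matrix.smul_mul]
        exact Submodule.smul_mem _ c hA
    have h6 := h5 _ h4
    have h7 : g.1 * ((g⁻¹).1 * A * g.1) * (g⁻¹).1 = A := by
      simp only [← Matrix.mul_assoc]
      rw [g.mul_inv, Matrix.one_mul, Matrix.mul_assoc, g.mul_inv, Matrix.mul_one]
    rwa [h7] at h6
  have htr' : ∀ k ∈ K, IsIntegral ℤ (α' k).1.trace := by
    intro k hk
    have h4 : (α' k).1.trace = (α k).1.trace := by
      rw [hα', conjR_val, Matrix.trace_mul_comm, ← Matrix.mul_assoc, g.inv_mul, Matrix.one_mul]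
    rw [h4]
    exact h3 k hk
  have hmem : (fun s : S => α' s.1) ∈ X := by
    rw [hX]
    refine Set.mem_iUnion.2 ⟨i, fun s => (hT i s _).2 fun k hk => ?_⟩
    obtain ⟨z, hz0, hz⟩ := hc k hk
    obtain ⟨z', hz0', hz'⟩ := hc (s.1 * k * s.1⁻¹) (hK.conj_mem k hk s.1)
    refine ⟨z⁻¹ * z', ?_⟩
    have h4 : (α' (s.1 * k * s.1⁻¹)).1 = (α' s.1).1 * (α' k).1 * ((α' s.1)⁻¹).1 := by
      rw [map_mul, map_mul, map_inv]
      rfl
    have h5 : (a i k).1 = z⁻¹ • (α' k).1 := by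
      rw [hz, smul_smul, inv_mul_cancel₀ hz0, one_smul]
    rw [h5, Matrix.mul_smul, Matrix.smul_mul, ← h4, hz', smul_smul]
  obtain ⟨Q, hQ⟩ := hLQ _ α' ((hgood _ _).2 ⟨fun s => rfl, hspanα', htr'⟩)
  refine ⟨Q * g, fun x i j => ?_⟩
  obtain ⟨c, hc⟩ := hQ x i j
  have h8 : (Q * g).1 * (α x).1 * ((Q * g)⁻¹).1 = Q.1 * (α' x).1 * (Q⁻¹).1 := by
    rw [hα', conjR_val, _root_.mul_inv_rev, Units.val_mul, Units.val_mul]
    simp only [Matrix.mul_assoc]
  have hle : L (fun s : S => α' s.1) ≤ ⨆ x : X, L x.1 := le_iSup (fun x : X => L x.1) ⟨_, hmem⟩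
  have h9 : IsIntegral ℤ (c.1.1 : ℂ) := phiO_int c
  obtain ⟨w, hw⟩ := exists_O_of_int (hle c.1.2) h9
  exact ⟨w, by rw [h8, hc]; exact hw.symm⟩

end Vale.Agent.P002.H252
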