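import Vale.Agent.P002.H252.Tr7
import Vale.Agent.P002.H252.PC3b
import Vale.Agent.P002.Bd3.B9

/-!
# The fixed integral factor: one number field
-/

namespace Vale.Agent.P002.H252

open Matrix NumberField Vale.Agent.P002R

/-- The restriction of a function which is multiplicative on `H` to a homomorphism. -/
def homOn {F : Type} [Group F] {M : Type*} [Monoid M] {H : Subgroup F} {ρ : F → M}
    (h : H2.MulOn H ρ) : H →* M where
  toFun x := ρ x.1
  map_one' := h.one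
  map_mul' x y := h.mul x.1 x.2 y.1 y.2

theorem homOn_apply {F : Type} [Group F] {M : Type*} [Monoid M] {H : Subgroup F} {ρ : F → M}
    (h : H2.MulOn H ρ) (x : H) : homOn h x = ρ x.1 := rfl

/-- Irreducible representations span the matrix algebra. -/
theorem spanOn_of_irr {F : Type} [Group F] {n : ℕ} {H K : Subgroup F} (hKH : K ≤ H)
    {α : F → SpecialLinearGroup (Fin n) ℂ} (hα : H2.MulOn H α) (hirr : H2.Irr K (H2.lin α)) :
    SpanOn (K.subgroupOf H) (homOn hα) := by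
  have hn : 0 < n := by
    rcases Nat.eq_zero_or_pos n with hn | hn
    · subst hn
      exact absurd hirr.1 (not_nontrivial _)
    · exact hn
  obtain ⟨z, hz⟩ : ∃ z : K →* (Mat n ℂ)ˣ, ∀ k, (z k : Mat n ℂ) = (α k.1).1 :=
    ⟨(SpecialLinearGroup.toGL).comp ((homOn hα).comp (Subgroup.inclusion hKH)), fun k => rfl⟩
  have h1 := adjoin_top_of_simple hn z (fun N hN => hirr.2 N fun x hx v hv => by
    change Matrix.toLin' (α x).1 v ∈ N
    rw [Matrix.toLin'_apply, ← hz ⟨x, hx⟩]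
    exact hN _ v hv)
  have h2 : (Submonoid.closure (Set.range fun w => (z w : Mat n ℂ)) : Set (Mat n ℂ)) =
      Set.range fun w => (z w : Mat n ℂ) := by
    have h3 : Submonoid.closure (Set.range fun w => (z w : Mat n ℂ)) =
        MonoidHom.mrange ((Units.coeHom (Mat n ℂ)).comp z) := by
      rw [← Submonoid.closure_eq (MonoidHom.mrange ((Units.coeHom (Mat n ℂ)).comp z))]
      rfl
    rw [h3]
    rfl
  have h4 : Submodule.span ℂ (Set.range fun w => (z w : Mat n ℂ)) = ⊤ := by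
    have h5 := congrArg Subalgebra.toSubmodule h1
    rw [Algebra.adjoin_eq_span, h2, Algebra.top_toSubmodule] at h5
    exact h5
  unfold SpanOn
  rw [← h4]
  congr 1
  ext A
  constructor
  · rintro ⟨k, hk, rfl⟩
    exact ⟨⟨k.1, hk⟩, hz _⟩
  · rintro ⟨k, rfl⟩
    exact ⟨⟨k.1, hKH k.2⟩, k.2, hz _⟩

/-- The twisted constituents of a representation with unit eigenvalues have integral traces. -/
theorem trace_int_of_sub {n r : ℕ} {A : Matrix (Fin r) (Fin r) ℂ}
    (hA : ∀ z, A.charpoly.IsRoot z → IsIntegral ℤ z ∧ IsIntegral ℤ z⁻¹)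
    (B : SpecialLinearGroup (Fin n) ℂ) {c : ℂ} (hc : c ≠ 0) (e : (Fin n → ℂ) →ₗ[ℂ] (Fin r → ℂ))
    (he : Function.Injective e) (h : ∀ v, A *ᵥ e v = c • e (B.1 *ᵥ v)) :
    IsIntegral ℤ B.1.trace := by
  have h1 : ∀ z, B.1.charpoly.IsRoot z → A.charpoly.IsRoot (c * z) := by
    intro z hz
    obtain ⟨v, hv, hv'⟩ := exists_eigvec _ hz
    rw [Vale.Agent.P002.H326.root_iff]
    refine ⟨e v, fun h0 => hv (he (by rw [h0, map_zero])), ?_⟩
    rw [h, hv', map_smul, smul_smul]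
  rcases Nat.eq_zero_or_pos n with hn | hn
  · subst hn
    rw [Matrix.trace_fin_zero]
    exact isIntegral_zero
  have h2 : B.1.charpoly.roots.prod = 1 := by
    rw [← Matrix.det_eq_prod_roots_charpoly, B.2]
  have h4 : Multiset.card B.1.charpoly.roots = n := by
    rw [← (IsAlgClosed.splits B.1.charpoly).natDegree_eq_card_roots,
      Matrix.charpoly_natDegree_eq_dim, Fintype.card_fin]
  have h3 : ∀ s : Multiset ℂ, (∀ b ∈ s, B.1.charpoly.IsRoot b) →
      IsIntegral ℤ ((c ^ Multiset.card s * s.prod)⁻¹) := by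
    intro s
    induction s using Multiset.induction_on with
    | empty =>
      intro _
      rw [Multiset.prod_zero, Multiset.card_zero, pow_zero, mul_one, inv_one]
      exact isIntegral_one
    | cons b s ih =>
      intro hs
      have h5 : (c ^ Multiset.card (b ::ₘ s) * (b ::ₘ s).prod)⁻¹ =
          (c * b)⁻¹ * (c ^ Multiset.card s * s.prod)⁻¹ := by
        rw [Multiset.card_cons, Multiset.prod_cons, pow_succ', ← mul_inv]
        congr 1
        ring
      rw [h5]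
      exact (hA _ (h1 b (hs b (Multiset.mem_cons_self b s)))).2.mul
        (ih fun b hb => hs b (Multiset.mem_cons_of_mem hb))
  have h5 := h3 B.1.charpoly.roots fun b hb => Polynomial.isRoot_of_mem_roots hb
  rw [h4, h2, mul_one, ← inv_pow] at h5
  have h6 : IsIntegral ℤ c⁻¹ := IsIntegral.of_pow hn h5
  refine trace_int_of_roots _ fun z hz => ?_
  have h7 : z = c⁻¹ * (c * z) := by rw [inv_mul_cancel_left₀ hc]
  rw [h7]
  exact h6.mul (hA _ (h1 z hz)).1

/-- **Base case, fixed integral factor.** One number field for all extensions `α` of the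
constituents of `R₁` to the subgroups of bounded index containing `K₁`. -/
theorem baseInt {ι : Type} [Finite ι] (K₁ : Subgroup (FreeGroup ι)) [hK : K₁.Normal] {r : ℕ}
    (R₁ : FreeGroup ι → Matrix (Fin r) (Fin r) ℂ)
    (hint : ∀ k ∈ K₁, ∀ z, (R₁ k).charpoly.IsRoot z → IsIntegral ℤ z ∧ IsIntegral ℤ z⁻¹) (B : ℕ) :
    ∃ L : IntermediateField ℚ ℂ, FiniteDimensional ℚ L ∧
      ∀ (H : Subgroup (FreeGroup ι)) (a : ℕ) (α : FreeGroup ι → SpecialLinearGroup (Fin a) ℂ),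
        H.index ≠ 0 → H.index ≤ B → K₁ ≤ H → H2.MulOn H α → H2.Irr K₁ (H2.lin α) →
        (∃ (c : FreeGroup ι → ℂˣ) (e : (Fin a → ℂ) →ₗ[ℂ] (Fin r → ℂ)), Function.Injective e ∧
          ∀ k ∈ K₁, ∀ v, R₁ k *ᵥ e v = (c k : ℂ) • e ((α k).1 *ᵥ v)) →
        ∃ Q : (Matrix (Fin a) (Fin a) ℂ)ˣ, H2.IntOn L H fun x => Q.1 * (α x).1 * (Q⁻¹).1 := by
  obtain ⟨T, hT⟩ : ∃ T, T = {H : Subgroup (FreeGroup ι) | H.index ≠ 0 ∧ H.index ≤ B} := ⟨_, rfl⟩
  have hTf : T.Finite := hT ▸ finite_index_le ι B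
  have key : ∀ q : T × Fin (r + 1), ∃ L : IntermediateField ℚ ℂ, FiniteDimensional ℚ L ∧
      ∀ (α : FreeGroup ι → SpecialLinearGroup (Fin q.2) ℂ), K₁ ≤ q.1.1 → H2.MulOn q.1.1 α →
        H2.Irr K₁ (H2.lin α) →
        (∃ (c : FreeGroup ι → ℂˣ) (e : (Fin q.2 → ℂ) →ₗ[ℂ] (Fin r → ℂ)), Function.Injective e ∧
          ∀ k ∈ K₁, ∀ v, R₁ k *ᵥ e v = (c k : ℂ) • e ((α k).1 *ᵥ v)) →
        ∃ Q : (Matrix (Fin q.2) (Fin q.2) ℂ)ˣ,
          H2.IntOn L q.1.1 fun x => Q.1 * (α x).1 * (Q⁻¹).1 := by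
    rintro ⟨⟨H, hH⟩, a⟩
    rw [hT] at hH
    have hfi : H.FiniteIndex := ⟨hH.1⟩
    have hfg : Group.FG H := inferInstance
    obtain ⟨L, hL, h⟩ := one_field (Γ := H) (K := K₁.subgroupOf H) (n := (a : ℕ)) (r := r)
      fun x => R₁ x.1
    refine ⟨L, hL, fun α hKH hα hirr hsub => ?_⟩
    obtain ⟨c, e, he, hce⟩ := hsub
    obtain ⟨Q, hQ⟩ := h (homOn hα) (spanOn_of_irr hKH hα hirr)
      ⟨e, he, fun k hk => ⟨(c k.1 : ℂ), (c k.1).ne_zero, fun v => hce k.1 hk v⟩⟩
      (fun k hk => trace_int_of_sub (hint k.1 hk) (α k.1) (c k.1).ne_zero e he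
        fun v => hce k.1 hk v)
    exact ⟨Q, fun x hx i j => hQ ⟨x, hx⟩ i j⟩
  choose L hL h using key
  have : Finite T := hTf
  have hfin : ∀ q, FiniteDimensional ℚ (L q) := hL
  refine ⟨⨆ q, L q, IntermediateField.finiteDimensional_iSup_of_finite, ?_⟩
  intro H a α h0 hB hKH hα hirr hsub
  have ha : a ≤ r := by
    obtain ⟨c, e, he, -⟩ := hsub
    have h1 := LinearMap.finrank_le_finrank_of_injective he
    rwa [Module.finrank_fin_fun, Module.finrank_fin_fun] at h1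
  have hHT : H ∈ T := by
    rw [hT]
    exact ⟨h0, hB⟩
  obtain ⟨Q, hQ⟩ := h ⟨⟨H, hHT⟩, ⟨a, Nat.lt_succ_of_le ha⟩⟩ α hKH hα hirr hsub
  exact ⟨Q, hQ.mono (le_iSup L ⟨⟨H, hHT⟩, ⟨a, Nat.lt_succ_of_le ha⟩⟩)⟩

end Vale.Agent.P002.H252
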